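import Vale.Agent.P310.Tableau

/-!
Abstract one-operation stack machines: numbering, and simulation of `TM2` machines.
-/

namespace Vale.Agent.P310

open Function Turing

/-- An abstract stack machine: stack, operation and next control. -/
structure AM (C K Γ : Type) where
  /-- the instruction of a control -/
  ins : C → K × Option (Option Γ) × (Option Γ → C)

variable {C K Γ : Type} [DecidableEq K]

/-- Apply a stack operation. -/
def apOp : Option (Option Γ) → List Γ → List Γ
  | none, l => l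
  | some none, l => l.tail
  | some (some γ), l => γ :: l

/-- One step. -/
def AM.step (A : AM C K Γ) (p : C × (K → List Γ)) : C × (K → List Γ) :=
  ((A.ins p.1).2.2 (p.2 (A.ins p.1).1).head?,
    update p.2 (A.ins p.1).1 (apOp (A.ins p.1).2.1 (p.2 (A.ins p.1).1)))

theorem getD_map_idxOf {α β : Type} [DecidableEq α] {l : List α} {a : α} (h : a ∈ l) (f : α → β)
    (d : β) : (l.map f).getD (l.idxOf a) d = f a := by
  have := List.idxOf_lt_length_of_mem h
  rw [List.getD_eq_getElem _ _ (by simpa using this)]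
  simp

theorem AM.exists_table [Finite K] (A : AM C K Γ) (C0 : Set C) (hC : C0.Finite)
    (hcl : ∀ c ∈ C0, ∀ o, (A.ins c).2.2 o ∈ C0) {c0 : C} (acc : C) (h0 : c0 ∈ C0)
    (kin : K) (g : Bool → Γ) :
    ∃ (nc nk ng c0' acc' kin' s0 s1 : ℕ) (kap op : List ℕ) (nxt : List (List ℕ)),
      ∀ (w : List Bool) (M : Mach), M = ⟨nc, nk, ng, c0', acc', kin', kap, op, nxt,
        w.map fun b => cond b s1 s0⟩ → ∀ t, (M.run t).1 < nc ∧ (∀ κ d, (M.run t).2 κ d < ng) ∧
        kap.getD (M.run t).1 0 < nk ∧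
        ((M.run t).1 = acc' ↔ (A.step^[t] (c0, update (fun _ => []) kin (w.map g))).1 = acc) := by
  classical
  have := Fintype.ofFinite K
  obtain ⟨lc, hlc⟩ : ∃ lc : List C, ∀ c, c ∈ lc ↔ c ∈ C0 := ⟨hC.toFinset.toList, by simp⟩
  obtain ⟨lk, hlk⟩ : ∃ lk : List K, ∀ c, c ∈ lk := ⟨Finset.univ.toList, by simp⟩
  obtain ⟨lγ, hγ1, hγ2⟩ : ∃ lγ : List Γ, (∀ b, g b ∈ lγ) ∧
      ∀ c ∈ C0, ∀ γ, (A.ins c).2.1 = some (some γ) → γ ∈ lγ := by
    refine ⟨g false :: g true :: lc.filterMap fun c => (A.ins c).2.1.bind id, fun b => ?_,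
      fun c hc γ e => ?_⟩
    · cases b <;> simp
    · simp only [List.mem_cons, List.mem_filterMap]
      exact .inr (.inr ⟨c, (hlc c).2 hc, by rw [e]; rfl⟩)
  let eΓ : Γ → ℕ := fun γ => lγ.idxOf γ + 1
  let dΓ : ℕ → Option Γ := fun i => if i = 0 then none else lγ[i - 1]?
  let eO : Option (Option Γ) → ℕ := fun o => match o with
    | none => 0
    | some none => 1
    | some (some γ) => eΓ γ + 2
  have hγlt : ∀ γ ∈ lγ, eΓ γ < lγ.length + 1 := fun γ h =>
    Nat.succ_lt_succ (List.idxOf_lt_length_of_mem h)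
  refine ⟨lc.length, lk.length, lγ.length + 1, lc.idxOf c0, lc.idxOf acc, lk.idxOf kin,
    eΓ (g false), eΓ (g true), lc.map fun c => lk.idxOf (A.ins c).1, lc.map fun c => eO (A.ins c).2.1,
    lc.map fun c => (List.range (lγ.length + 1)).map fun i => lc.idxOf ((A.ins c).2.2 (dΓ i)),
    fun w M hM => ?_⟩
  have hK : ∀ κ κ', lk.idxOf κ = lk.idxOf κ' ↔ κ = κ' := fun κ κ' =>
    List.idxOf_inj (hlk κ)
  have key : ∀ t, let p := A.step^[t] (c0, update (fun _ => []) kin (w.map g))
      p.1 ∈ C0 ∧ (M.run t).1 = lc.idxOf p.1 ∧ (∀ κ, ∀ γ ∈ p.2 κ, γ ∈ lγ) ∧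
      (∀ κ d, (M.run t).2 (lk.idxOf κ) d = ((p.2 κ).map eΓ).getD d 0) ∧
      ∀ κ d, (M.run t).2 κ d < lγ.length + 1 := by
    intro t
    induction t with
    | zero =>
      have e : (w.map fun b => cond b (eΓ (g true)) (eΓ (g false))) = (w.map g).map eΓ := by
        rw [List.map_map]
        exact List.map_congr_left fun b _ => by cases b <;> rfl
      have hm : ∀ γ ∈ w.map g, γ ∈ lγ := by
        intro γ h
        obtain ⟨b, -, rfl⟩ := List.mem_map.1 h
        exact hγ1 b
      subst hM
      refine ⟨h0, rfl, fun κ γ h => ?_, fun κ d => ?_, fun κ d => ?_⟩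
      · by_cases hκ : κ = kin
        · subst hκ; exact hm γ (by simpa using h)
        · simp [update_of_ne hκ] at h
      · simp only [Mach.run, hK, e, iterate_zero, id]
        by_cases hκ : κ = kin
        · subst hκ; simp
        · simp [hκ]
      · simp only [Mach.run, e]
        split_ifs
        · by_cases hd : d < ((w.map g).map eΓ).length
          · rw [List.getD_eq_getElem _ _ hd, List.getElem_map]
            exact hγlt _ (hm _ (List.getElem_mem _))
          · rw [List.getD_eq_default _ _ (by omega)]; omega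
        · omega
    | succ t ih =>
      rw [iterate_succ_apply']
      generalize A.step^[t] (c0, update (fun _ => []) kin (w.map g)) = p at ih ⊢
      obtain ⟨c, S⟩ := p
      obtain ⟨h1, h2, h3, h4, h5⟩ := ih
      dsimp only at h1 h2 h3 h4
      have hc := (hlc c).2 h1
      have e1 : M.kap.getD (M.run t).1 0 = lk.idxOf (A.ins c).1 := by
        rw [h2, hM]; exact getD_map_idxOf hc _ _
      have e2 : M.op.getD (M.run t).1 0 = eO (A.ins c).2.1 := by
        rw [h2, hM]; exact getD_map_idxOf hc _ _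
      have e3 : M.nxt.getD (M.run t).1 [] =
          (List.range (lγ.length + 1)).map fun i => lc.idxOf ((A.ins c).2.2 (dΓ i)) := by
        rw [h2, hM]; exact getD_map_idxOf hc _ _
      have hp := hγ2 c h1
      refine ⟨hcl c h1 _, ?_, fun κ γ h => ?_, fun κ d => ?_, fun κ d => ?_⟩
      · simp only [Mach.run, Mach.step, AM.step, e1, e3]
        rw [List.getD_eq_getElem _ _ (by simpa using h5 _ _)]
        simp only [List.getElem_map, List.getElem_range, h4]
        congr 2
        have := h3 (A.ins c).1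
        revert this
        rcases S (A.ins c).1 with _ | ⟨γ, l⟩
        · intro _; simp [dΓ]
        · intro this
          simp [dΓ, eΓ, List.getElem?_idxOf (this γ List.mem_cons_self)]
      · simp only [AM.step] at h
        by_cases hκ : κ = (A.ins c).1
        · subst hκ
          rw [update_self] at h
          rcases e : (A.ins c).2.1 with _ | _ | γ' <;> rw [e] at h
          · exact h3 _ _ h
          · exact h3 _ _ (List.mem_of_mem_tail h)
          · rcases List.mem_cons.1 h with rfl | h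
            exacts [hp _ e, h3 _ _ h]
        · rw [update_of_ne hκ] at h
          exact h3 _ _ h
      · simp only [Mach.run, Mach.step, AM.step, e1, e2, hK, h4]
        by_cases hκ : κ = (A.ins c).1
        · subst hκ
          rw [if_pos rfl, update_self]
          rcases (A.ins c).2.1 with _ | _ | γ'
          · simp [eO, apOp]
          · simp [eO, apOp]
          · rcases d with _ | d <;> simp [eO, apOp]
        · rw [if_neg hκ, update_of_ne hκ]
      · simp only [Mach.run, Mach.step, e2]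
        split_ifs with a1 a2 a3 a4
        · exact h5 _ _
        · exact h5 _ _
        · rcases e : (A.ins c).2.1 with _ | _ | γ' <;> rw [e] at a2 a3
          · simp [eO] at a2
          · simp [eO] at a3
          · exact hγlt _ (hp _ e)
        · exact h5 _ _
        · exact h5 _ _
  intro t
  obtain ⟨h1, h2, -, -, h5⟩ := key t
  have hc := (hlc _).2 h1
  refine ⟨h2 ▸ List.idxOf_lt_length_of_mem hc, h5, ?_, ?_⟩
  · rw [h2, getD_map_idxOf hc]
    exact List.idxOf_lt_length_of_mem (hlk _)
  · rw [h2]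
    exact List.idxOf_inj hc

section sim

variable {K0 : Type} [DecidableEq K0] {Γ0 : K0 → Type} {Λ σ : Type}

/-- The depth of a statement. -/
def depth : TM2.Stmt Γ0 Λ σ → ℕ
  | .push _ _ q => depth q + 1
  | .peek _ _ q => depth q + 1
  | .pop _ _ q => depth q + 1
  | .load _ q => depth q + 1
  | .branch _ q₁ q₂ => max (depth q₁) (depth q₂) + 1
  | .goto _ => 1
  | .halt => 1

/-- An embedding of a `TM2` machine. -/
structure Emb (Γ0 : K0 → Type) (Λ σ C K Γ : Type) where
  /-- program -/
  M : Λ → TM2.Stmt Γ0 Λ σ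
  /-- stacks -/
  ιK : K0 → K
  /-- symbols -/
  ιΓ : ∀ k, Γ0 k → Γ
  /-- decoding of symbols -/
  dec : ∀ k, Γ → Option (Γ0 k)
  /-- controls -/
  ιC : TM2.Stmt Γ0 Λ σ × σ → C
  /-- control after halting -/
  fin : C
  /-- a default stack -/
  kd : K
  inj : Injective ιK
  dec_ι : ∀ k x, dec k (ιΓ k x) = some x

variable (E : Emb Γ0 Λ σ C K Γ)

/-- The instruction of a statement. -/
def Emb.micro : TM2.Stmt Γ0 Λ σ × σ → K × Option (Option Γ) × (Option Γ → C)
  | (.push k f q, v) => (E.ιK k, some (some (E.ιΓ k (f v))), fun _ => E.ιC (q, v))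
  | (.peek k f q, v) => (E.ιK k, none, fun o => E.ιC (q, f v (o.bind (E.dec k))))
  | (.pop k f q, v) => (E.ιK k, some none, fun o => E.ιC (q, f v (o.bind (E.dec k))))
  | (.load a q, v) => (E.kd, none, fun _ => E.ιC (q, a v))
  | (.branch f q₁ q₂, v) => (E.kd, none, fun _ => E.ιC (cond (f v) q₁ q₂, v))
  | (.goto f, v) => (E.kd, none, fun _ => E.ιC (E.M (f v), v))
  | (.halt, _) => (E.kd, none, fun _ => E.fin)

/-- The control of a configuration. -/
def Emb.ctl (c : TM2.Cfg Γ0 Λ σ) : C :=
  match c.l with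
  | some l => E.ιC (E.M l, c.var)
  | none => E.fin

/-- Representation of stacks. -/
def Emb.Rep (S : ∀ k, List (Γ0 k)) (S' : K → List Γ) : Prop := ∀ k, S' (E.ιK k) = (S k).map (E.ιΓ k)

/-- The other stacks are unchanged. -/
def Emb.Frame (S' S'' : K → List Γ) : Prop := ∀ κ, (∀ k, κ ≠ E.ιK k) → S'' κ = S' κ

variable {E}

theorem Emb.Rep.update {S : ∀ k, List (Γ0 k)} {S' : K → List Γ} (h : E.Rep S S') (k : K0)
    (l : List (Γ0 k)) : E.Rep (update S k l) (update S' (E.ιK k) (l.map (E.ιΓ k))) := by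
  intro k'
  by_cases e : k' = k
  · subst e; simp
  · rw [update_of_ne e, update_of_ne (E.inj.ne e), h]

omit [DecidableEq K] [DecidableEq K0] in
theorem Emb.Rep.head {S : ∀ k, List (Γ0 k)} {S' : K → List Γ} (h : E.Rep S S') (k : K0) :
    (S' (E.ιK k)).head?.bind (E.dec k) = (S k).head? := by
  rw [h]
  cases S k <;> simp [E.dec_ι]

theorem Emb.sim_stmt {A : AM C K Γ} (hA : ∀ c, A.ins (E.ιC c) = E.micro c) (q : TM2.Stmt Γ0 Λ σ) :
    ∀ v S S', E.Rep S S' → ∃ n ≤ depth q, ∃ S'',
      A.step^[n] (E.ιC (q, v), S') = (E.ctl (TM2.stepAux q v S), S'') ∧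
      E.Rep (TM2.stepAux q v S).stk S'' ∧ E.Frame S' S'' := by
  induction q with
  | push k f q ih =>
    intro v S S' h
    obtain ⟨n, hn, S'', h1, h2, h3⟩ := ih v _ _ (h.update k (f v :: S k))
    refine ⟨n + 1, by simp [depth, hn], S'', ?_, h2, fun κ hκ => ?_⟩
    · rw [iterate_succ_apply, TM2.stepAux, ← h1]
      simp only [AM.step, hA, Emb.micro, apOp, h k, List.map_cons]
    · rw [h3 κ hκ, update_of_ne (hκ k)]
  | peek k f q ih =>
    intro v S S' h
    obtain ⟨n, hn, S'', h1, h2, h3⟩ := ih (f v (S k).head?) _ _ h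
    refine ⟨n + 1, by simp [depth, hn], S'', ?_, h2, h3⟩
    rw [iterate_succ_apply, TM2.stepAux, ← h1]
    simp only [AM.step, hA, Emb.micro, apOp, h.head, update_eq_self]
  | pop k f q ih =>
    intro v S S' h
    obtain ⟨n, hn, S'', h1, h2, h3⟩ := ih (f v (S k).head?) _ _ (h.update k (S k).tail)
    refine ⟨n + 1, by simp [depth, hn], S'', ?_, h2, fun κ hκ => ?_⟩
    · rw [iterate_succ_apply, TM2.stepAux, ← h1]
      simp only [AM.step, hA, Emb.micro, apOp, h.head]
      rw [h k, List.map_tail]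
    · rw [h3 κ hκ, update_of_ne (hκ k)]
  | load a q ih =>
    intro v S S' h
    obtain ⟨n, hn, S'', h1, h2, h3⟩ := ih (a v) _ _ h
    refine ⟨n + 1, by simp [depth, hn], S'', ?_, h2, h3⟩
    rw [iterate_succ_apply, TM2.stepAux, ← h1]
    simp only [AM.step, hA, Emb.micro, apOp, update_eq_self]
  | branch f q₁ q₂ ih₁ ih₂ =>
    intro v S S' h
    cases e : f v
    · obtain ⟨n, hn, S'', h1, h2, h3⟩ := ih₂ v _ _ h
      refine ⟨n + 1, by simp [depth, hn], S'', ?_, by simpa [e] using h2, h3⟩
      rw [iterate_succ_apply, TM2.stepAux, e, cond_false, ← h1]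
      simp only [AM.step, hA, Emb.micro, apOp, update_eq_self, e, cond_false]
    · obtain ⟨n, hn, S'', h1, h2, h3⟩ := ih₁ v _ _ h
      refine ⟨n + 1, by simp [depth, hn], S'', ?_, by simpa [e] using h2, h3⟩
      rw [iterate_succ_apply, TM2.stepAux, e, cond_true, ← h1]
      simp only [AM.step, hA, Emb.micro, apOp, update_eq_self, e, cond_true]
  | goto f =>
    intro v S S' h
    refine ⟨1, le_rfl, S', ?_, h, fun _ _ => rfl⟩
    simp only [iterate_one, AM.step, hA, Emb.micro, apOp, update_eq_self]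
    rfl
  | halt =>
    intro v S S' h
    refine ⟨1, le_rfl, S', ?_, h, fun _ _ => rfl⟩
    simp only [iterate_one, AM.step, hA, Emb.micro, apOp, update_eq_self]
    rfl

theorem iter_none {α : Type} (f : α → Option α) (t : ℕ) : (flip bind f)^[t] none = none :=
  iterate_fixed rfl t

theorem Emb.sim_run {A : AM C K Γ} (hA : ∀ c, A.ins (E.ιC c) = E.micro c) {D : ℕ}
    (hD : ∀ l, depth (E.M l) ≤ D) (t : ℕ) : ∀ (c c' : TM2.Cfg Γ0 Λ σ) S',
      (flip bind (TM2.step E.M))^[t] (some c) = some c' → E.Rep c.stk S' →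
      ∃ n ≤ t * D, ∃ S'', A.step^[n] (E.ctl c, S') = (E.ctl c', S'') ∧
        E.Rep c'.stk S'' ∧ E.Frame S' S'' := by
  induction t with
  | zero =>
    intro c c' S' h hr
    obtain rfl : c = c' := Option.some.inj h
    exact ⟨0, by simp, S', rfl, hr, fun _ _ => rfl⟩
  | succ t ih =>
    rintro ⟨_ | l, v, S⟩ c' S' h hr
    · rw [iterate_succ_apply] at h
      have := iter_none (TM2.step E.M) t
      exact absurd (this.symm.trans h) (by simp)
    · obtain ⟨n, hn, S1, h1, h2, h3⟩ := Emb.sim_stmt hA (E.M l) v S S' hr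
      obtain ⟨n', hn', S2, h1', h2', h3'⟩ := ih _ c' S1 h h2
      have := hD l
      refine ⟨n' + n, by rw [add_mul]; omega, S2, ?_, h2', fun κ hκ => ?_⟩
      · rw [iterate_add_apply, ← h1', ← h1]; rfl
      · rw [h3' κ hκ, h3 κ hκ]

variable (E) in
/-- The controls used by an embedded machine. -/
def Emb.ctrls : Set C := E.ιC '' {c | ∃ l, c.1 ∈ TM2.stmts₁ (E.M l)}

omit [DecidableEq K] [DecidableEq K0] in
theorem Emb.ctrls_finite [Finite Λ] [Finite σ] : E.ctrls.Finite := by
  refine Set.Finite.image _ ?_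
  have : {c : TM2.Stmt Γ0 Λ σ × σ | ∃ l, c.1 ∈ TM2.stmts₁ (E.M l)} =
      (⋃ l, (TM2.stmts₁ (E.M l) : Set _)) ×ˢ Set.univ := by ext; simp
  rw [this]
  exact (Set.finite_iUnion fun l => Finset.finite_toSet _).prod Set.finite_univ

omit [DecidableEq K] [DecidableEq K0] in
theorem Emb.start_mem (l : Λ) (v : σ) : E.ιC (E.M l, v) ∈ E.ctrls :=
  ⟨_, ⟨l, TM2.stmts₁_self⟩, rfl⟩

omit [DecidableEq K] [DecidableEq K0] in
theorem Emb.micro_mem {c : TM2.Stmt Γ0 Λ σ × σ} (hc : ∃ l, c.1 ∈ TM2.stmts₁ (E.M l))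
    (o : Option Γ) : (E.micro c).2.2 o ∈ E.ctrls ∨ (E.micro c).2.2 o = E.fin := by
  classical
  obtain ⟨q, v⟩ := c
  obtain ⟨l, hl⟩ := hc
  have key : ∀ q' v', q' ∈ TM2.stmts₁ q → E.ιC (q', v') ∈ E.ctrls :=
    fun q' v' h => ⟨_, ⟨l, TM2.stmts₁_trans hl h⟩, rfl⟩
  rcases q with _ | _ | _ | _ | ⟨f, q₁, q₂⟩ | _ | _
  · exact .inl (key _ _ (by simp [TM2.stmts₁, TM2.stmts₁_self]))
  · exact .inl (key _ _ (by simp [TM2.stmts₁, TM2.stmts₁_self]))
  · exact .inl (key _ _ (by simp [TM2.stmts₁, TM2.stmts₁_self]))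
  · exact .inl (key _ _ (by simp [TM2.stmts₁, TM2.stmts₁_self]))
  · exact .inl (key _ _ (by cases f v <;> simp [TM2.stmts₁, TM2.stmts₁_self]))
  · exact .inl (Emb.start_mem _ _)
  · exact .inr rfl

theorem length_stepAux (k : K0) (q : TM2.Stmt Γ0 Λ σ) :
    ∀ v S, (S k).length ≤ ((TM2.stepAux q v S).stk k).length + depth q := by
  induction q with
  | push k' f q ih =>
    intro v S
    have := ih v (update S k' (f v :: S k'))
    by_cases e : k = k'
    · subst e; simp [depth] at this ⊢; omega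
    · simp [depth, update_of_ne e] at this ⊢; omega
  | peek k' f q ih => intro v S; have := ih (f v (S k').head?) S; simp [depth]; omega
  | pop k' f q ih =>
    intro v S
    have := ih (f v (S k').head?) (update S k' (S k').tail)
    by_cases e : k = k'
    · subst e; simp [depth] at this ⊢; omega
    · simp [depth, update_of_ne e] at this ⊢; omega
  | load a q ih => intro v S; have := ih (a v) S; simp [depth]; omega
  | branch f q₁ q₂ ih₁ ih₂ =>
    intro v S
    have := ih₁ v S
    have := ih₂ v S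
    cases e : f v <;> simp [depth, e] <;> omega
  | goto f => intro v S; simp
  | halt => intro v S; simp

theorem length_run (M : Λ → TM2.Stmt Γ0 Λ σ) {D : ℕ} (hD : ∀ l, depth (M l) ≤ D) (k : K0) (t : ℕ) :
    ∀ (c c' : TM2.Cfg Γ0 Λ σ), (flip bind (TM2.step M))^[t] (some c) = some c' →
      (c.stk k).length ≤ (c'.stk k).length + t * D := by
  induction t with
  | zero =>
    intro c c' h
    obtain rfl : c = c' := Option.some.inj h
    simp
  | succ t ih =>
    rintro ⟨_ | l, v, S⟩ c' h
    · rw [iterate_succ_apply] at h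
      have := iter_none (TM2.step M) t
      exact absurd (this.symm.trans h) (by simp)
    · have h1 := ih _ c' h
      have h2 := length_stepAux k (M l) v S
      have := hD l
      rw [add_mul]
      dsimp only
      omega

end sim

end Vale.Agent.P310
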