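import Mathlib

/-!
Weisfeiler-Leman equivalence: definitions used in the statement.
-/

namespace Vale.Agent.P310

open Function

/-- The type of colors after `r` rounds of `k`-dimensional refinement. -/
def Color (k : ℕ) : ℕ → Type
  | 0 => Fin k → Fin k → Prop × Prop
  | r + 1 => Color k r × Multiset (Fin k → Color k r)

/-- The color `C_r(x)` of a `k`-tuple of vertices (joint update). -/
def color {V : Type} [Fintype V] (G : SimpleGraph V) (k : ℕ) :
    (r : ℕ) → (Fin k → V) → Color k r
  | 0, x => fun i j => (x i = x j, G.Adj (x i) (x j))
  | r + 1, x => (color G k r x,
      (Finset.univ : Finset V).val.map fun y i => color G k r (update x i y))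

/-- `k`-WL equivalence: in every round the multisets of colors of all `k`-tuples agree. -/
def WLEquiv (k : ℕ) {V W : Type} [Fintype V] [Fintype W] (G : SimpleGraph V)
    (H : SimpleGraph W) : Prop :=
  ∀ r, (Finset.univ : Finset (Fin k → V)).val.map (color G k r) =
    (Finset.univ : Finset (Fin k → W)).val.map (color H k r)

/-- An input: two graphs on the same vertex set `Fin n`. -/
def Input : Type := Σ n : ℕ, SimpleGraph (Fin n) × SimpleGraph (Fin n)

open Classical in
/-- The adjacency matrix of a graph, row by row. -/
noncomputable def adjBits {n : ℕ} (G : SimpleGraph (Fin n)) : List Bool :=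
  (List.finRange n).flatMap fun i => (List.finRange n).map fun j => decide (G.Adj i j)

/-- The encoding of an input: the two adjacency matrices (length `2 n ^ 2`). -/
noncomputable def encodeInput (p : Input) : List Bool := adjBits p.2.1 ++ adjBits p.2.2

open Classical in
/-- The decision problem: are the two graphs `k`-WL equivalent? -/
noncomputable def decideWL (k : ℕ) (p : Input) : Bool := decide (WLEquiv k p.2.1 p.2.2)

end Vale.Agent.P310
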