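import Vale.Agent.P310.AM
import Vale.Agent.P333.Defs

/-!
The diagonal machine: run the reduction, copy its output, run the decider.
-/

namespace Vale.Agent.P310

open Function Turing Vale.Agent.P333

theorem init_stk (tm : FinTM2) (s : List (tm.Γ tm.k₀)) :
    (initList tm s).stk = update (fun _ => []) tm.k₀ s := by
  funext k
  by_cases hk : k = tm.k₀
  · subst hk; simp [initList]
  · simp [initList, hk]

theorem halt_stk (tm : FinTM2) (s : List (tm.Γ tm.k₁)) :
    (haltList tm s).stk = update (fun _ => []) tm.k₁ s := by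
  funext k
  by_cases hk : k = tm.k₁
  · subst hk; simp [haltList]
  · simp [haltList, hk]

theorem exists_depth (tm : FinTM2) : ∃ D, ∀ l, depth (tm.m l) ≤ D := by
  have := tm.ΛFin
  exact ⟨Finset.univ.sup fun l => depth (tm.m l),
    fun l => Finset.le_sup (f := fun l => depth (tm.m l)) (Finset.mem_univ l)⟩

section

variable (tf tA : FinTM2)

/-- Controls of the diagonal machine. -/
abbrev DC : Type := (TM2.Stmt tf.Γ tf.Λ tf.σ × tf.σ) ⊕ (TM2.Stmt tA.Γ tA.Λ tA.σ × tA.σ) ⊕ Fin 9

/-- Stacks of the diagonal machine. -/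
abbrev DK : Type := tf.K ⊕ tA.K

/-- Symbols of the diagonal machine. -/
abbrev DG : Type := (Σ k, tf.Γ k) ⊕ (Σ k, tA.Γ k)

open Classical in
/-- Embedding of the first machine. -/
noncomputable def embF : Emb tf.Γ tf.Λ tf.σ (DC tf tA) (DK tf tA) (DG tf tA) where
  M := tf.m
  ιK := .inl
  ιΓ := fun k x => .inl ⟨k, x⟩
  dec := fun k y => if h : ∃ x, y = .inl ⟨k, x⟩ then some h.choose else none
  ιC := .inl
  fin := .inr (.inr 0)
  kd := .inl tf.k₀
  inj := Sum.inl_injective
  dec_ι := fun k x => by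
    have h : ∃ x', (Sum.inl ⟨k, x⟩ : DG tf tA) = .inl ⟨k, x'⟩ := ⟨x, rfl⟩
    rw [dif_pos h]
    exact congrArg some (eq_of_heq (Sigma.mk.inj (Sum.inl.inj h.choose_spec)).2).symm

open Classical in
/-- Embedding of the second machine. -/
noncomputable def embA : Emb tA.Γ tA.Λ tA.σ (DC tf tA) (DK tf tA) (DG tf tA) where
  M := tA.m
  ιK := .inr
  ιΓ := fun k x => .inr ⟨k, x⟩
  dec := fun k y => if h : ∃ x, y = .inr ⟨k, x⟩ then some h.choose else none
  ιC := fun c => .inr (.inl c)
  fin := .inr (.inr 6)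
  kd := .inl tf.k₀
  inj := Sum.inr_injective
  dec_ι := fun k x => by
    have h : ∃ x', (Sum.inr ⟨k, x⟩ : DG tf tA) = .inr ⟨k, x'⟩ := ⟨x, rfl⟩
    rw [dif_pos h]
    exact congrArg some (eq_of_heq (Sigma.mk.inj (Sum.inr.inj h.choose_spec)).2).symm

variable {tf tA} (fo : Bool → tf.Γ tf.k₁) (ai : Bool → tA.Γ tA.k₀) (ao : Bool → tA.Γ tA.k₁)

open Classical in
/-- The diagonal machine. -/
noncomputable def diag : AM (DC tf tA) (DK tf tA) (DG tf tA) where
  ins
    | .inl c => (embF tf tA).micro c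
    | .inr (.inl c) => (embA tf tA).micro c
    | .inr (.inr j) => ![
      (.inl tf.k₁, some none, fun o => if o = some (.inl ⟨_, fo true⟩) then .inr (.inr 1)
        else .inr (.inl (tA.m tA.main, tA.initialState))),
      (.inl tf.k₁, some none, fun o => if o = some (.inl ⟨_, fo true⟩) then .inr (.inr 2)
        else .inr (.inr 4)),
      (.inl tf.k₁, some none, fun _ => .inr (.inr 3)),
      (.inl tf.k₁, some none, fun _ => .inr (.inr 5)),
      (.inr tA.k₀, some (some (.inr ⟨_, ai false⟩)), fun _ => .inr (.inr 0)),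
      (.inr tA.k₀, some (some (.inr ⟨_, ai true⟩)), fun _ => .inr (.inr 0)),
      (.inr tA.k₁, none, fun o => if o = some (.inr ⟨_, ao true⟩) then .inr (.inr 7)
        else .inr (.inr 8)),
      (.inr tA.k₁, none, fun _ => .inr (.inr 7)),
      (.inr tA.k₁, none, fun _ => .inr (.inr 8))] j

variable {fo}

theorem transfer (hfo : Injective fo) (L : List Bool) : ∀ S : DK tf tA → List (DG tf tA),
    S (.inl tf.k₁) = (codeList codeBit L).map (fun b => .inl ⟨_, fo b⟩) →
    ∃ n ≤ 5 * L.length + 1, ∃ S', (diag fo ai ao).step^[n] (.inr (.inr 0), S) =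
      (.inr (.inl (tA.m tA.main, tA.initialState)), S') ∧
      S' (.inr tA.k₀) = L.reverse.map (fun b => .inr ⟨_, ai b⟩) ++ S (.inr tA.k₀) ∧
      ∀ k, k ≠ tA.k₀ → S' (.inr k) = S (.inr k) := by
  have hne : fo false ≠ fo true := fun e => by simpa using hfo e
  induction L with
  | nil =>
    intro S hS
    refine ⟨1, le_rfl, update S (.inl tf.k₁) [], ?_, by simp, by simp⟩
    simp [AM.step, diag, hS, codeList, hne, apOp]
  | cons b L ih =>
    intro S hS
    obtain ⟨n, hn, S', h1, h2, h3⟩ := ih (update (update S (.inl tf.k₁)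
      ((codeList codeBit L).map (fun b => .inl ⟨_, fo b⟩))) (.inr tA.k₀)
      (.inr ⟨_, ai b⟩ :: S (.inr tA.k₀))) (by simp)
    cases b
    · refine ⟨n + 3, by simp; omega, S', ?_, by simp [h2], fun k hk => by simp [h3 k hk, hk]⟩
      rw [iterate_add_apply, ← h1]
      congr 1
      simp [AM.step, diag, hS, codeList, codeBit, hne, apOp]
    · refine ⟨n + 5, by simp; omega, S', ?_, by simp [h2], fun k hk => by simp [h3 k hk, hk]⟩
      rw [iterate_add_apply, ← h1]
      congr 1
      simp [AM.step, diag, hS, codeList, codeBit, apOp]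

theorem diag_stay (j : Fin 9) (hj : j = 7 ∨ j = 8) (p : DC tf tA × (DK tf tA → List (DG tf tA)))
    (h : p.1 = .inr (.inr j)) (n : ℕ) : ((diag fo ai ao).step^[n] p).1 = .inr (.inr j) := by
  induction n with
  | zero => exact h
  | succ n ih =>
    rw [iterate_succ_apply', AM.step, ih]
    rcases hj with rfl | rfl <;> rfl

end

theorem exists_diag (tf tA : FinTM2) (fi : Bool → tf.Γ tf.k₀) {fo : Bool → tf.Γ tf.k₁}
    (ai : Bool → tA.Γ tA.k₀) {ao : Bool → tA.Γ tA.k₁} (hfo : Injective fo) (hao : Injective ao) :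
    ∃ (D nc nk ng c0 acc kin s0 s1 : ℕ) (kap op : List ℕ) (nxt : List (List ℕ)),
      ∀ (w L : List Bool) (b : Bool) (t1 t2 : ℕ) (M : Mach),
      M = ⟨nc, nk, ng, c0, acc, kin, kap, op, nxt, w.map fun b => cond b s1 s0⟩ →
      TM2OutputsInTime tf (w.map fi) (some ((codeList codeBit L).map fo)) t1 →
      TM2OutputsInTime tA (L.reverse.map ai) (some [ao b]) t2 →
      (∀ t, (M.run t).1 < nc ∧ (∀ κ d, (M.run t).2 κ d < ng) ∧ kap.getD (M.run t).1 0 < nk) ∧
      (b = true → ∃ t ≤ D * (t1 + t2 + L.length + 1), (M.run t).1 = acc) ∧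
      (b = false → ∀ t, (M.run t).1 ≠ acc) := by
  classical
  have := tf.kFin
  have := tA.kFin
  have := tf.ΛFin
  have := tA.ΛFin
  have := tf.σFin
  have := tA.σFin
  obtain ⟨D1, hD1⟩ := exists_depth tf
  obtain ⟨D2, hD2⟩ := exists_depth tA
  obtain ⟨nc, nk, ng, c0, acc, kin, s0, s1, kap, op, nxt, H⟩ := (diag fo ai ao).exists_table
    ((embF tf tA).ctrls ∪ (embA tf tA).ctrls ∪ Set.range fun j => .inr (.inr j))
    ((Emb.ctrls_finite.union Emb.ctrls_finite).union (Set.finite_range _))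
    (by
      rintro c ((⟨c, hc, rfl⟩ | ⟨c, hc, rfl⟩) | ⟨j, rfl⟩) o
      · rcases Emb.micro_mem hc o with h | h
        · exact .inl (.inl h)
        · exact .inr ⟨0, h.symm⟩
      · rcases Emb.micro_mem hc o with h | h
        · exact .inl (.inr h)
        · exact .inr ⟨6, h.symm⟩
      · have h0 : (Sum.inr (.inl (tA.m tA.main, tA.initialState)) : DC tf tA) ∈
            (embA tf tA).ctrls := Emb.start_mem (E := embA tf tA) _ _
        fin_cases j <;> simp [diag] <;> split_ifs <;> simp [h0])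
    (c0 := .inl (tf.m tf.main, tf.initialState)) (.inr (.inr 7))
    (.inl (.inl (Emb.start_mem (E := embF tf tA) _ _))) (.inl tf.k₀) (fun b => .inl ⟨_, fi b⟩)
  refine ⟨D1 + D2 + 6, nc, nk, ng, c0, acc, kin, s0, s1, kap, op, nxt,
    fun w L b t1 t2 M hM h1 h2 => ?_⟩
  replace H := H w M hM
  obtain ⟨n1, hn1, S1, a1, a2, a3⟩ := Emb.sim_run (E := embF tf tA) (A := diag fo ai ao)
    (fun _ => rfl) hD1 h1.steps _ _
    (update (fun _ => []) (.inl tf.k₀) (w.map fun b => .inl ⟨_, fi b⟩)) h1.evals_in_steps (by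
      rw [init_stk]
      have := Emb.Rep.update (E := embF tf tA) (S := fun _ => []) (S' := fun _ => [])
        (fun _ => rfl) tf.k₀ (w.map fi)
      rwa [List.map_map] at this)
  obtain ⟨n2, hn2, S2, b1, b2, b3⟩ := transfer ai ao hfo L S1 (by
    have := a2 tf.k₁
    rw [halt_stk, update_self, List.map_map] at this
    exact this)
  have e0 : ∀ k, S1 (.inr k) = [] := fun k => by
    rw [a3 _ fun k' => by simp [embF]]
    simp
  obtain ⟨n3, hn3, S3, c1, c2, -⟩ := Emb.sim_run (E := embA tf tA) (A := diag fo ai ao)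
    (fun _ => rfl) hD2 h2.steps _ _ S2 h2.evals_in_steps (by
      rw [init_stk]
      intro k
      by_cases hk : k = tA.k₀
      · subst hk
        rw [update_self, List.map_map]
        exact b2.trans (by rw [e0, List.append_nil]; rfl)
      · rw [update_of_ne hk]
        exact (b3 k hk).trans (e0 k))
  have c3 : S3 (.inr tA.k₁) = [.inr ⟨_, ao b⟩] := by
    have := c2 tA.k₁
    rw [halt_stk, update_self] at this
    exact this
  have fin : ((diag fo ai ao).step^[1 + (n3 + (n2 + n1))] (.inl (tf.m tf.main, tf.initialState),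
      update (fun _ => []) (.inl tf.k₀) (w.map fun b => .inl ⟨_, fi b⟩))).1 =
      .inr (.inr (cond b 7 8)) := by
    rw [iterate_add_apply, iterate_add_apply, iterate_add_apply]
    erw [a1, b1, c1]
    have hne : ao false ≠ ao true := fun e => by simpa using hao e
    show (if (S3 (.inr tA.k₁)).head? = some (.inr ⟨_, ao true⟩) then _ else _) = _
    rw [c3]
    cases b <;> simp [hne]
  refine ⟨fun t => ⟨(H t).1, (H t).2.1, (H t).2.2.1⟩, ?_, ?_⟩
  · rintro rfl
    refine ⟨_, ?_, (H _).2.2.2.2 fin⟩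
    have := h1.steps_le_m
    have := h2.steps_le_m
    have : n1 ≤ t1 * D1 := hn1.trans (by gcongr)
    have : n3 ≤ t2 * D2 := hn3.trans (by gcongr)
    nlinarith [Nat.zero_le (t1 * D2), Nat.zero_le (t2 * D1), Nat.zero_le (L.length * D1),
      Nat.zero_le (L.length * D2)]
  · rintro rfl t ht
    have h7 := (H t).2.2.2.1 ht
    generalize 1 + (n3 + (n2 + n1)) = n at fin
    have e1 := diag_stay (fo := fo) ai ao 7 (.inl rfl) _ h7 n
    have e2 := diag_stay (fo := fo) ai ao 8 (.inr rfl) _ fin t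
    rw [← iterate_add_apply] at e1 e2
    rw [add_comm, e2] at e1
    simp at e1

end Vale.Agent.P310
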