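import Mathlib

/-!
Base `q` counters in digit vectors, with digit tests and shifts.
-/

namespace Vale.Agent.P310

/-- The value of `h` digits. -/
def V (q : ℕ) : ℕ → (ℕ → ℕ) → ℕ
  | 0, _ => 0
  | h + 1, w => w 0 + q * V q h fun j => w (j + 1)

variable {q : ℕ}

theorem V_congr : ∀ {h : ℕ} {w w' : ℕ → ℕ}, (∀ j < h, w j = w' j) → V q h w = V q h w'
  | 0, _, _, _ => rfl
  | h + 1, w, w', H => by
    rw [V, V, H 0 (by omega), V_congr fun j hj => H (j + 1) (by omega)]

theorem V_succ (hq : 1 ≤ q) : ∀ {h i : ℕ} {w w' : ℕ → ℕ}, i < h →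
    (∀ j < i, w j = q - 1 ∧ w' j = 0) → w' i = w i + 1 → (∀ j, i < j → j < h → w' j = w j) →
    V q h w' = V q h w + 1
  | 0, _, _, _, hi, _, _, _ => by omega
  | h + 1, 0, w, w', _, _, h2, h3 => by
    rw [V, V, h2, V_congr (w := fun j => w' (j + 1)) (w' := fun j => w (j + 1))
      fun j hj => h3 (j + 1) (by omega) (by omega)]
    omega
  | h + 1, i + 1, w, w', hi, h1, h2, h3 => by
    rw [V, V, V_succ hq (i := i) (w := fun j => w (j + 1)) (w' := fun j => w' (j + 1)) (by omega)
      (fun j hj => h1 (j + 1) (by omega)) h2 (fun j hj hj' => h3 (j + 1) (by omega) (by omega)),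
      (h1 0 (by omega)).1, (h1 0 (by omega)).2, mul_add]
    omega

theorem V_eq_zero (hq : 1 ≤ q) : ∀ {h : ℕ} {w : ℕ → ℕ}, V q h w = 0 ↔ ∀ j < h, w j = 0
  | 0, _ => by simp [V]
  | h + 1, w => by
    rw [V, Nat.add_eq_zero_iff, Nat.mul_eq_zero, V_eq_zero hq, Nat.forall_lt_succ_left]
    simp [show q ≠ 0 by omega]

theorem V_max (hq : 1 ≤ q) : ∀ {h : ℕ} {w : ℕ → ℕ}, (∀ j < h, w j = q - 1) → V q h w + 1 = q ^ h
  | 0, _, _ => by simp [V]
  | h + 1, w, H => by
    rw [V, pow_succ', ← V_max hq (w := fun j => w (j + 1)) fun j hj => H (j + 1) (by omega),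
      H 0 (by omega), mul_add]
    omega

theorem V_low (hq : 1 ≤ q) {h : ℕ} {w : ℕ → ℕ} (hh : 1 ≤ h) :
    (∀ j, 0 < j → j < h → w j = 0) ∧ V q h w = w 0 ∨
      (∃ j, 0 < j ∧ j < h ∧ w j ≠ 0) ∧ q ≤ V q h w := by
  obtain ⟨h, rfl⟩ : ∃ m, h = m + 1 := ⟨h - 1, by omega⟩
  by_cases H : V q h (fun j => w (j + 1)) = 0
  · left
    refine ⟨fun j h0 hj => ?_, by rw [V, H]; simp⟩
    have := (V_eq_zero hq).1 H (j - 1) (by omega)
    rwa [Nat.sub_add_cancel h0] at this
  · right
    have H' := H
    rw [V_eq_zero hq] at H'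
    push Not at H'
    obtain ⟨j, hj, hj'⟩ := H'
    refine ⟨⟨j + 1, by omega, by omega, hj'⟩, ?_⟩
    rw [V]
    nlinarith [Nat.pos_of_ne_zero H]

theorem exists_first {h : ℕ} {w : ℕ → ℕ} {z : ℕ} (H : ¬ ∀ j < h, w j = z) :
    ∃ i < h, (∀ j < i, w j = z) ∧ w i ≠ z := by
  classical
  push Not at H
  refine ⟨Nat.find H, (Nat.find_spec H).1, fun j hj => ?_, (Nat.find_spec H).2⟩
  have := Nat.find_min H hj
  have h2 := (Nat.find_spec H).1
  by_contra hn
  exact this ⟨by omega, hn⟩

/-- Digit tests. -/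
def tstN (q h : ℕ) (inp : List ℕ) (m i l s : ℕ) : Bool :=
  if m = 0 then true
  else if m = 1 then (if l < i then decide (s = 0) else if l = i then !decide (s = 0) else true)
  else if m = 2 then (if l < h then true else if l < h + i then decide (s = 0)
    else if l = h + i then !decide (s = 0) else true)
  else if m = 3 then (if l < h then true else if l < h + i then decide (s = q - 1)
    else if l = h + i then !decide (s = q - 1) else true)
  else if m = 4 then (if l < h then true else if l < h + h then decide (s = 0) else true)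
  else if m = 5 then (if l < h then decide (s = 0) else true)
  else if m = 6 then (if l < h then decide (s = 0) else if l = h then decide (inp.getD s 0 = i)
    else if l < h + h then decide (s = 0) else true)
  else (if l < h then decide (s = 0) else if l = h + i then !decide (s = 0) else true)

/-- Digit shifts. -/
def shN (q h m i l : ℕ) : ℕ :=
  if m = 1 then (if l ≤ i then q - 1 else 0)
  else if m = 2 then (if l < h then 0 else if l ≤ h + i then q - 1 else 0)
  else if m = 3 then (if l < h then 0 else if l ≤ h + i then 1 else 0)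
  else 0

section addr

variable [NeZero q] {a h : ℕ}

/-- The digits of an address. -/
def dig (u : Fin a → Fin q) (l : ℕ) : ℕ := if hl : l < a then (u ⟨l, hl⟩).val else 0

/-- The time part of an address. -/
def tval (h : ℕ) (u : Fin a → Fin q) : ℕ := V q h (dig u)

/-- The depth part of an address. -/
def dval (h : ℕ) (u : Fin a → Fin q) : ℕ := V q h fun j => dig u (h + j)

/-- The shift vector of a mode. -/
def shV (q : ℕ) [NeZero q] (a h m i : ℕ) : Fin a → Fin q := fun l => Fin.ofNat q (shN q h m i l)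

/-- The test of a mode at an address. -/
def Tst (h : ℕ) (inp : List ℕ) (m i : ℕ) (u : Fin a → Fin q) : Prop :=
  ∀ l : Fin a, tstN q h inp m i l (u l) = true

omit [NeZero q] in
theorem Tst_iff {inp : List ℕ} {m i : ℕ} {u : Fin a → Fin q} :
    Tst h inp m i u ↔ ∀ l < a, tstN q h inp m i l (dig u l) = true :=
  ⟨fun H l hl => by simpa [dig, hl] using H ⟨l, hl⟩,
    fun H l => by simpa [dig] using H l l.2⟩

theorem dig_lt (u : Fin a → Fin q) (l : ℕ) : dig u l < q := by
  unfold dig
  split_ifs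
  exacts [Fin.is_lt _, Nat.pos_of_neZero q]

theorem dig_add (u : Fin a → Fin q) (m i l : ℕ) (hl : l < a) :
    dig (u + shV q a h m i) l = (dig u l + shN q h m i l) % q := by
  simp [dig, hl, shV, Fin.val_add]

theorem shV_zero {m : ℕ} (i : ℕ) (h1 : m ≠ 1) (h2 : m ≠ 2) (h3 : m ≠ 3) : shV q a h m i = 0 := by
  funext l
  simp [shV, shN, h1, h2, h3]

omit [NeZero q] in
theorem mod_pred {x : ℕ} (hx : x < q) (h0 : x ≠ 0) : x = (x + (q - 1)) % q + 1 := by
  rw [show x + (q - 1) = (x - 1) + q by omega, Nat.add_mod_right, Nat.mod_eq_of_lt (by omega)]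
  omega

variable (ha : h + h ≤ a) {inp : List ℕ} {i : ℕ} {u : Fin a → Fin q}
include ha

theorem mode1 (hi : i < h) (H : Tst h inp 1 i u) :
    tval h u = tval h (u + shV q a h 1 i) + 1 ∧ dval h (u + shV q a h 1 i) = dval h u := by
  rw [Tst_iff] at H
  have hq := Nat.pos_of_neZero q
  refine ⟨V_succ hq hi (fun j hj => ?_) ?_ fun j hj hj' => ?_, V_congr fun j hj => ?_⟩
  · have := H j (by omega)
    simp [tstN, hj] at this
    rw [dig_add _ _ _ _ (by omega), this]
    simp [shN, hj.le]
  · have := H i (by omega)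
    simp [tstN] at this
    rw [dig_add _ _ _ _ (by omega)]
    simpa [shN] using mod_pred (dig_lt u i) this
  · rw [dig_add _ _ _ _ (by omega)]
    simp [shN, hj.not_ge, Nat.mod_eq_of_lt (dig_lt u j)]
  · rw [dig_add _ _ _ _ (by omega)]
    simp [shN, show ¬ h + j ≤ i by omega, Nat.mod_eq_of_lt (dig_lt u _)]

theorem mode2 (hi : i < h) (H : Tst h inp 2 i u) :
    dval h u = dval h (u + shV q a h 2 i) + 1 ∧ tval h (u + shV q a h 2 i) = tval h u := by
  rw [Tst_iff] at H
  have hq := Nat.pos_of_neZero q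
  refine ⟨V_succ hq hi (fun j hj => ?_) ?_ fun j hj hj' => ?_, V_congr fun j hj => ?_⟩
  · have := H (h + j) (by omega)
    simp [tstN, hj] at this
    rw [dig_add _ _ _ _ (by omega), this]
    simp [shN, hj.le]
  · have := H (h + i) (by omega)
    simp [tstN] at this
    rw [dig_add _ _ _ _ (by omega)]
    simpa [shN] using mod_pred (dig_lt u _) this
  · rw [dig_add _ _ _ _ (by omega)]
    simp [shN, hj.not_ge, Nat.mod_eq_of_lt (dig_lt u _)]
  · rw [dig_add _ _ _ _ (by omega)]
    simp [shN, hj, Nat.mod_eq_of_lt (dig_lt u _)]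

theorem mode3 (hi : i < h) (H : Tst h inp 3 i u) :
    dval h (u + shV q a h 3 i) = dval h u + 1 ∧ tval h (u + shV q a h 3 i) = tval h u := by
  rw [Tst_iff] at H
  have hq := Nat.pos_of_neZero q
  refine ⟨V_succ hq hi (fun j hj => ?_) ?_ fun j hj hj' => ?_, V_congr fun j hj => ?_⟩
  · have := H (h + j) (by omega)
    simp [tstN, hj] at this
    rw [dig_add _ _ _ _ (by omega), this]
    simp [shN, hj.le, Nat.sub_add_cancel hq]
  · have := H (h + i) (by omega)
    simp [tstN] at this
    rw [dig_add _ _ _ _ (by omega)]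
    have h2 := dig_lt u (h + i)
    have h3 : shN q h 3 i (h + i) = 1 := by simp [shN]
    rw [h3]
    exact Nat.mod_eq_of_lt (by omega)
  · rw [dig_add _ _ _ _ (by omega)]
    simp [shN, hj.not_ge, Nat.mod_eq_of_lt (dig_lt u _)]
  · rw [dig_add _ _ _ _ (by omega)]
    simp [shN, hj, Nat.mod_eq_of_lt (dig_lt u _)]

omit ha in
theorem mode1_ex (H : tval h u ≠ 0) : ∃ i < h, Tst h inp 1 i u := by
  obtain ⟨i, hi, h1, h2⟩ := exists_first ((V_eq_zero (Nat.pos_of_neZero q)).not.1 H)
  refine ⟨i, hi, Tst_iff.2 fun l _ => ?_⟩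
  simp only [tstN]
  split_ifs <;> simp_all

omit ha in
theorem mode2_ex (H : dval h u ≠ 0) : ∃ i < h, Tst h inp 2 i u := by
  obtain ⟨i, hi, h1, h2⟩ := exists_first ((V_eq_zero (Nat.pos_of_neZero q)).not.1 H)
  refine ⟨i, hi, Tst_iff.2 fun l _ => ?_⟩
  simp only [tstN, Nat.reduceEqDiff, if_false, if_true]
  split_ifs with a1 a2 a3
  · rfl
  · have := h1 (l - h) (by omega)
    rw [Nat.add_sub_cancel' (by omega)] at this
    simpa using this
  · simpa [a3] using h2
  · rfl

omit ha in
theorem mode3_ex (H : dval h u + 1 < q ^ h) : ∃ i < h, Tst h inp 3 i u := by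
  obtain ⟨i, hi, h1, h2⟩ := exists_first (h := h) (w := fun j => dig u (h + j)) (z := q - 1)
    fun H' => H.ne (V_max (Nat.pos_of_neZero q) H')
  refine ⟨i, hi, Tst_iff.2 fun l _ => ?_⟩
  simp only [tstN, Nat.reduceEqDiff, if_false, if_true]
  split_ifs with a1 a2 a3
  · rfl
  · have := h1 (l - h) (by omega)
    rw [Nat.add_sub_cancel' (by omega)] at this
    simpa using this
  · simpa [a3] using h2
  · rfl

theorem mode4 : Tst h inp 4 i u ↔ dval h u = 0 := by
  rw [Tst_iff, dval, V_eq_zero (Nat.pos_of_neZero q)]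
  refine ⟨fun H j hj => by simpa [tstN, hj] using H (h + j) (by omega), fun H l _ => ?_⟩
  simp only [tstN, Nat.reduceEqDiff, if_false, if_true]
  split_ifs with a1 a2
  · rfl
  · have := H (l - h) (by omega)
    rw [Nat.add_sub_cancel' (by omega)] at this
    simpa using this
  · rfl

theorem mode5 : Tst h inp 5 i u ↔ tval h u = 0 := by
  rw [Tst_iff, tval, V_eq_zero (Nat.pos_of_neZero q)]
  refine ⟨fun H j hj => by simpa [tstN, hj] using H j (by omega), fun H l _ => ?_⟩
  simp only [tstN]
  split_ifs <;> simp_all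

theorem mode6 (hh : 1 ≤ h) (H : Tst h inp 6 i u) : tval h u = 0 ∧ inp.getD (dval h u) 0 = i := by
  rw [Tst_iff] at H
  have hq := Nat.pos_of_neZero q
  refine ⟨(V_eq_zero hq).2 fun j hj => by simpa [tstN, hj] using H j (by omega), ?_⟩
  rcases V_low (w := fun j => dig u (h + j)) hq hh with h1 | ⟨⟨j, h0, hj, h1⟩, -⟩
  · rw [dval, h1.2]
    simpa [tstN] using H h (by omega)
  · have := H (h + j) (by omega)
    simp [tstN, hj, h0.ne'] at this
    exact absurd this h1

theorem mode7 (h0 : 0 < i) (hi : i < h) (H : Tst h inp 7 i u) : tval h u = 0 ∧ q ≤ dval h u := by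
  rw [Tst_iff] at H
  have hq := Nat.pos_of_neZero q
  refine ⟨(V_eq_zero hq).2 fun j hj => by simpa [tstN, hj] using H j (by omega), ?_⟩
  rcases V_low (h := h) (w := fun j => dig u (h + j)) hq (by omega) with h1 | ⟨-, h1⟩
  · have := H (h + i) (by omega)
    simp [tstN] at this
    exact absurd (h1.1 i h0 hi) this
  · exact h1

omit ha in
theorem mode67_ex (hh : 1 ≤ h) (H : tval h u = 0) :
    Tst h inp 6 (inp.getD (dval h u) 0) u ∨ q ≤ dval h u ∧ ∃ i, 0 < i ∧ i < h ∧ Tst h inp 7 i u := by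
  have hq := Nat.pos_of_neZero q
  rw [tval, V_eq_zero hq] at H
  rcases V_low (w := fun j => dig u (h + j)) hq hh with h1 | ⟨⟨j, h0, hj, h1⟩, h2⟩
  · left
    rw [dval, h1.2]
    refine Tst_iff.2 fun l _ => ?_
    simp only [tstN, Nat.reduceEqDiff, if_false, if_true]
    split_ifs with a1 a2 a3
    · simpa using H l a1
    · simp [a2]
    · have := h1.1 (l - h) (by omega) (by omega)
      rw [Nat.add_sub_cancel' (by omega)] at this
      simpa using this
    · rfl
  · refine Or.inr ⟨h2, j, h0, hj, Tst_iff.2 fun l _ => ?_⟩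
    simp only [tstN, Nat.reduceEqDiff, if_false]
    split_ifs with a1 a2
    · simpa using H l a1
    · simpa [a2] using h1
    · rfl

theorem exists_addr (t : ℕ) (ht : t < q ^ h) : ∃ u : Fin a → Fin q, tval h u = t ∧ dval h u = 0 := by
  have hq := Nat.pos_of_neZero q
  have key : ∀ h t, t < q ^ h → V q h (fun j => t / q ^ j % q) = t := by
    intro h
    induction h with
    | zero => intro t ht; simp at ht; simp [V, ht]
    | succ h ih =>
      intro t ht
      rw [V, V_congr (w' := fun j => t / q / q ^ j % q) fun j _ => by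
        rw [Nat.div_div_eq_div_mul, pow_succ'], ih _ (by
          rw [Nat.div_lt_iff_lt_mul hq, ← pow_succ]; exact ht)]
      simp [Nat.mod_add_div]
  refine ⟨fun l => if l.val < h then ⟨t / q ^ l.val % q, Nat.mod_lt _ hq⟩ else 0, ?_, ?_⟩
  · refine Eq.trans ?_ (key h t ht)
    exact V_congr fun j hj => by simp [dig, hj, show j < a by omega]
  · exact (V_eq_zero hq).2 fun j hj => by simp [dig, show h + j < a by omega]

end addr

end Vale.Agent.P310
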