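import Vale.Agent.P310.Net

/-!
States of the Duplicator strategy and the basic change lemma.
-/

namespace Vale.Agent.P310

open Function Finset

variable {J Ω F : Type} [AddCommGroup F] {k a : ℕ}

/-- The side of a layer with respect to a cut column. -/
def side {L : ℕ} (t : Fin L) (c : ℕ) : Bool := decide (t.val < c)

/-- The end layers. -/
def endL (L : ℕ) (σ : Bool) : ℕ := if σ then L else 0

/-- The cell of a block. -/
def Blk.cell {L : ℕ} : Blk J Ω F k L → Fin k × F
  | .jun _ v s => (v, s)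
  | .col _ _ v s => (v, s)

/-- Blocks whose side changes. -/
def Blk.mv {L : ℕ} (t t' : Ω → Fin L) : Blk J Ω F k L → Prop
  | .jun _ _ _ => False
  | .col ω c _ _ => side (t ω) c ≠ side (t' ω) c

namespace Net

variable (N : Net J Ω F k a) (L : ℕ)

/-- Parity of a layer at an address. -/
def Pw (α : Var J Ω F k → ZMod 2) (ω : Ω) (c : ℕ) (u : Fin a → F) : ZMod 2 :=
  ∑ v, α (N.layer L ω c v (u (N.grp v)))

/-- Pattern of a junction at an address. -/
def Pj (α : Var J Ω F k → ZMod 2) (j : J) (u : Fin a → F) : Val :=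
  ∑ v, fun i => α (.Y j i v (u (N.grp v)))

/-- A block is satisfied. -/
def ok (α : Var J Ω F k → ZMod 2) (b : Blk J Ω F k L) : Prop :=
  (N.sys L).valid true b fun i => α ((N.sys L).var b i)

variable {L}

/-- The junction cell hit by a block. -/
def hit (t : Ω → Fin L) : Blk J Ω F k L → J × Fin k × F
  | .jun j v s => (j, v, s)
  | .col ω c v s => (N.jn ω (side (t ω) c), v, s + N.sh ω (side (t ω) c) (N.grp v))

/-- All cells of an address are hit. -/
def Blocking (S : Finset (Blk J Ω F k L)) (t : Ω → Fin L) (j : J) (u : Fin a → F) : Prop :=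
  ∀ v, ∃ b ∈ S, N.hit t b = (j, v, u (N.grp v))

/-- The invariant of the strategy. -/
structure St (Safe : J → (Fin a → F) → Val → Prop) (S : Finset (Blk J Ω F k L))
    (α : Var J Ω F k → ZMod 2) (t : Ω → Fin L) : Prop where
  jok : ∀ j v s, N.ok L α (.jun j v s)
  cok : ∀ ω c, c ≠ t ω → ∀ v s, N.ok L α (.col ω c v s)
  free : ∀ ω v s, .col ω (t ω) v s ∉ S
  mis : ∀ ω, ∃ κ, ∀ u, N.Pw L α ω L u = N.Pw L α ω 0 u + κ
  safe : ∀ j u, N.Blocking S t j u → Safe j u (N.Pj α j u)

theorem Pw_end (hL : 0 < L) (α : Var J Ω F k → ZMod 2) (ω : Ω) (σ : Bool) (u : Fin a → F) :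
    N.Pw L α ω (endL L σ) u = N.Pj α (N.jn ω σ) (u + N.sh ω σ) (N.bit ω σ) := by
  have : L ≠ 0 := by omega
  cases σ <;> simp [Pw, Pj, endL, layer, Finset.sum_apply, this]

theorem ok_col {α : Var J Ω F k → ZMod 2} {ω : Ω} {c : Fin L} {v : Fin k} {s : F} :
    N.ok L α (.col ω c v s) ↔ α (N.layer L ω c v s) + α (N.layer L ω (c + 1) v s) =
      (if 0 < v.val then α (N.link ω c v s) else 0) +
      (if v.val + 1 < k then α (N.link ω c (v + 1) s) else 0) := by
  simp [ok, Sys.valid, sys, mem_colSub]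

theorem ok_jun {α : Var J Ω F k → ZMod 2} {j : J} {v : Fin k} {s : F} :
    N.ok L α (.jun j v s) ↔
      (fun i => α (.Y j i v s)) + (if v.val = 0 then N.c j else 0) ∈ N.R j (N.grp v) s := by
  simp [ok, Sys.valid, sys]

theorem Pw_col {α : Var J Ω F k → ZMod 2} {ω : Ω} {c : Fin L}
    (h : ∀ v s, N.ok L α (.col ω c v s)) (u : Fin a → F) :
    N.Pw L α ω c u = N.Pw L α ω (c + 1) u := by
  refine telescope (fun v i => α ((N.sys L).var (.col ω c v (u (N.grp v))) i))
    (fun v => by simpa [ok, Sys.valid, sys] using h v _) fun v v' e => ?_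
  simp only [sys, link, Matrix.cons_val, ← e]
  by_cases hs : N.same v' = true
  · rw [if_pos hs, if_pos hs, (N.same_iff v v' e).1 hs]
  · rw [if_neg hs, if_neg hs]

theorem Pw_side {α : Var J Ω F k → ZMod 2} {ω : Ω} {t : Fin L}
    (h : ∀ c, c ≠ t → ∀ v s, N.ok L α (.col ω c v s)) (u : Fin a → F) (c : ℕ) (hc : c ≤ L) :
    N.Pw L α ω c u = N.Pw L α ω (endL L (side t c)) u := by
  by_cases ht : t.val < c
  · simp only [side, ht, decide_true, endL, if_true]
    induction hc using Nat.decreasingInduction with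
    | self => rfl
    | of_succ c hc ih =>
      rw [← ih (by omega)]
      exact N.Pw_col (c := ⟨c, hc⟩) (h _ fun e => by simp [← e] at ht) u
  · simp only [side, ht, decide_false, endL, Bool.false_eq_true, if_false]
    induction c with
    | zero => rfl
    | succ c ih =>
      rw [← ih (by omega) (by omega)]
      exact (N.Pw_col (c := ⟨c, hc⟩) (h _ fun e => by simp [← e] at ht) u).symm

theorem Pj_U {α : Var J Ω F k → ZMod 2} (h : ∀ j v s, N.ok L α (.jun j v s)) (j : J)
    (u : Fin a → F) : N.U j u (N.Pj α j u) :=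
  ⟨_, fun v => N.ok_jun.1 (h j v _), rfl⟩

theorem var_ne_Z {b : Blk J Ω F k L} {ω : Ω} {c : Fin L} (h : ∀ v s, b ≠ .col ω c v s) (i : Fin 5)
    (w : ℕ) (s : F) : (N.sys L).var b i ≠ .Z ω c w s := by
  rcases b with ⟨j, v, s'⟩ | ⟨ω', c', v, s'⟩
  · simp [sys]
  · have h1 : ∀ c w', N.layer L ω' c v s' ≠ .Z ω w' w s := by
      intro c w'
      unfold layer
      split_ifs <;> simp
    have h2 : ∀ w', N.link ω' c' w' s' ≠ .Z ω c w s := by
      intro w' e
      simp only [link, Var.Z.injEq] at e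
      exact h v s' (by rw [e.1, Fin.ext e.2.1])
    fin_cases i <;> simp [sys, h1, h2]

theorem heal_col (α : Var J Ω F k → ZMod 2) (ω : Ω) (c : Fin L)
    (h : ∀ u, N.Pw L α ω c u = N.Pw L α ω (c + 1) u) :
    ∃ α' : Var J Ω F k → ZMod 2, (∀ v s, N.ok L α' (.col ω c v s)) ∧
      ∀ x, (∀ w s, x ≠ .Z ω c w s) → α' x = α x := by
  classical
  obtain ⟨T, hT⟩ := N.heal (fun v s => α (N.layer L ω c v s) + α (N.layer L ω (c + 1) v s))
    fun u => by
      rw [Finset.sum_add_distrib]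
      have := h u
      unfold Pw at this
      rw [this, CharTwo.add_self_eq_zero]
  let α' : Var J Ω F k → ZMod 2 := fun x => match x with
    | .Z ω' c' w s => if ω' = ω ∧ c' = c then T w s else α x
    | _ => α x
  have h1 : ∀ x, (∀ w s, x ≠ .Z ω c w s) → α' x = α x := by
    intro x hx
    rcases x with _ | _ | ⟨ω', c', w, s⟩
    · rfl
    · rfl
    · simp only [α']
      rw [if_neg]
      rintro ⟨rfl, rfl⟩
      exact hx _ _ rfl
  refine ⟨α', fun v s => ?_, h1⟩
  have h2 : ∀ c' , α' (N.layer L ω c' v s) = α (N.layer L ω c' v s) := by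
    intro c'
    refine h1 _ fun w s' => ?_
    unfold layer
    split_ifs <;> simp
  rw [ok_col, h2, h2, hT v s]
  simp [α', link]

/-- The change of a layer variable. -/
def dl (t t' : Ω → Fin L) (η : J → Fin k → F → Val) (θ : Fin k → F → ZMod 2) (ω : Ω) (c : ℕ)
    (v : Fin k) (s : F) : ZMod 2 :=
  if side (t ω) c = side (t' ω) c then
    η (N.jn ω (side (t ω) c)) v (s + N.sh ω (side (t ω) c) (N.grp v)) (N.bit ω (side (t ω) c))
  else θ v s

/-- The change of a variable. -/
def dv (t t' : Ω → Fin L) (η : J → Fin k → F → Val) (θ : Fin k → F → ZMod 2) :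
    Var J Ω F k → ZMod 2
  | .Y j i v s => η j v s i
  | .M ω c v s => N.dl t t' η θ ω c v s
  | .Z _ _ _ _ => 0

theorem dv_layer (t t' : Ω → Fin L) (η : J → Fin k → F → Val) (θ : Fin k → F → ZMod 2) (ω : Ω)
    (c : ℕ) (v : Fin k) (s : F) :
    N.dv t t' η θ (N.layer L ω c v s) = N.dl t t' η θ ω c v s := by
  unfold layer
  split_ifs with h0 h1
  · subst h0; simp [dv, dl, side]
  · subst h1; simp [dv, dl, side]
  · rfl

theorem dl_succ (t t' : Ω → Fin L) (η : J → Fin k → F → Val) (θ : Fin k → F → ZMod 2) {ω : Ω}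
    {c : Fin L} (h : c ≠ t ω) (h' : c ≠ t' ω) (v : Fin k) (s : F) :
    N.dl t t' η θ ω (c + 1) v s = N.dl t t' η θ ω c v s := by
  have key : ∀ t0 : Fin L, c ≠ t0 → side t0 (c + 1) = side t0 c := by
    intro t0 h0
    have : c.val ≠ t0.val := fun e => h0 (Fin.ext e)
    simp only [side, decide_eq_decide]
    omega
  simp only [dl, key _ h, key _ h']

theorem finish {Safe : J → (Fin a → F) → Val → Prop} {S S' : Finset (Blk J Ω F k L)}
    {α : Var J Ω F k → ZMod 2} {t t' : Ω → Fin L} (h : N.St Safe S α t) (hS : S ⊆ S') (ω0 : Ω)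
    (ht : ∀ ω, ω ≠ ω0 → t' ω = t ω) (hfree : ∀ ω v s, .col ω (t' ω) v s ∉ S')
    (η : J → Fin k → F → Val) (θ : Fin k → F → ZMod 2)
    (f1 : ∀ j v s, η j v s ∈ N.R j (N.grp v) s)
    (f2 : ∀ b ∈ S, ¬ b.mv t t' → η (N.hit t b).1 (N.hit t b).2.1 (N.hit t b).2.2 = 0)
    (f2' : ∀ b ∈ S, b.mv t t' → θ b.cell.1 b.cell.2 = 0)
    (f3 : ∀ ω, ∃ κ, ∀ u : Fin a → F,
      (∑ v, η (N.jn ω true) v ((u + N.sh ω true) (N.grp v))) (N.bit ω true) =
      (∑ v, η (N.jn ω false) v ((u + N.sh ω false) (N.grp v))) (N.bit ω false) + κ)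
    (σ : Bool) (hσ : σ = decide ((t' ω0).val < (t ω0).val))
    (f4 : ∀ u : Fin a → F, N.Pw L α ω0 (endL L !σ) u + ∑ v, θ v (u (N.grp v)) =
      N.Pw L α ω0 (endL L σ) u +
        (∑ v, η (N.jn ω0 σ) v ((u + N.sh ω0 σ) (N.grp v))) (N.bit ω0 σ))
    (f5 : ∀ j u, N.Blocking S' t' j u → Safe j u (N.Pj α j u + ∑ v, η j v (u (N.grp v)))) :
    ∃ α', (∀ b ∈ S, ∀ i, α' ((N.sys L).var b i) = α ((N.sys L).var b i)) ∧ N.St Safe S' α' t' := by
  let α1 : Var J Ω F k → ZMod 2 := fun x => α x + N.dv t t' η θ x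
  have hPw : ∀ ω c u, N.Pw L α1 ω c u =
      N.Pw L α ω c u + ∑ v, N.dl t t' η θ ω c v (u (N.grp v)) := by
    intro ω c u
    simp only [Pw, α1, dv_layer, Finset.sum_add_distrib]
  have hPj : ∀ j u, N.Pj α1 j u = N.Pj α j u + ∑ v, η j v (u (N.grp v)) := by
    intro j u
    simp only [Pj, ← Finset.sum_add_distrib]
    rfl
  have hnm : ∀ ω c u, side (t ω) c = side (t' ω) c → ∑ v, N.dl t t' η θ ω c v (u (N.grp v)) =
      (∑ v, η (N.jn ω (side (t ω) c)) v ((u + N.sh ω (side (t ω) c)) (N.grp v)))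
        (N.bit ω (side (t ω) c)) := by
    intro ω c u e
    simp only [dl, if_pos e, Finset.sum_apply, Pi.add_apply]
  have hmv : ∀ ω c (u : Fin a → F), side (t ω) c ≠ side (t' ω) c →
      ∑ v, N.dl t t' η θ ω c v (u (N.grp v)) = ∑ v, θ v (u (N.grp v)) := by
    intro ω c u e
    simp only [dl, if_neg e]
  obtain ⟨α2, h2, h2'⟩ : ∃ α2 : Var J Ω F k → ZMod 2,
      (t' ω0 ≠ t ω0 → ∀ v s, N.ok L α2 (.col ω0 (t ω0) v s)) ∧
      ∀ x, (∀ w s, x ≠ .Z ω0 (t ω0) w s) → α2 x = α1 x := by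
    by_cases hne : t' ω0 = t ω0
    · exact ⟨α1, fun h => absurd hne h, fun _ _ => rfl⟩
    have hne' : (t' ω0).val ≠ (t ω0).val := fun e => hne (Fin.ext e)
    obtain ⟨α2, h2, h2'⟩ := N.heal_col α1 ω0 (t ω0) fun u => by
      have e1 : side (t ω0) (t ω0) = false := by simp [side]
      have e2 : side (t ω0) (t ω0 + 1) = true := by simp [side]
      have hlt := (t ω0).2
      rw [hPw, hPw, N.Pw_side (h.cok ω0) u (t ω0) (by omega),
        N.Pw_side (h.cok ω0) u (t ω0 + 1) (by omega), e1, e2]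
      have := f4 u
      cases σ
      · have hl : (t ω0).val < (t' ω0).val := by
          have := of_decide_eq_false hσ.symm
          omega
        rw [hnm _ _ _ (by simp [side]; omega), hmv _ _ _ (by simp [side]; omega), e1]
        exact this.symm
      · have hl : (t' ω0).val < (t ω0).val := of_decide_eq_true hσ.symm
        rw [hmv _ _ _ (by simp [side]; omega), hnm _ _ _ (by simp [side]; omega), e2]
        exact this
    exact ⟨α2, fun _ => h2, h2'⟩
  have hb : ∀ b : Blk J Ω F k L, (∀ v s, b ≠ .col ω0 (t ω0) v s) →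
      ∀ i, α2 ((N.sys L).var b i) = α1 ((N.sys L).var b i) :=
    fun b hb i => h2' _ fun w s => N.var_ne_Z hb i w s
  have hok : ∀ b : Blk J Ω F k L, (∀ v s, b ≠ .col ω0 (t ω0) v s) → N.ok L α1 b → N.ok L α2 b := by
    intro b h1 h3
    unfold ok at *
    rwa [funext (hb b h1)]
  have hlay : ∀ ω c v s, α2 (N.layer L ω c v s) = α1 (N.layer L ω c v s) := by
    intro ω c v s
    refine h2' _ fun w s' => ?_
    unfold layer
    split_ifs <;> simp
  have hL : 0 < L := (t ω0).pos
  refine ⟨α2, fun b hbS i => ?_, fun j v s => hok _ (by simp) ?_, fun ω c hc v s => ?_, hfree,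
    fun ω => ?_, fun j u hB => ?_⟩
  · rw [hb b fun v s e => h.free _ _ _ (e ▸ hbS)]
    simp only [α1, add_eq_left]
    rcases b with ⟨j, v, s⟩ | ⟨ω, c, v, s⟩
    · exact congrFun (f2 _ hbS fun h => h) i
    · have hc : c ≠ t ω := fun e => h.free _ _ _ (e ▸ hbS)
      have hc' : c ≠ t' ω := fun e => hfree _ _ _ (e ▸ hS hbS)
      have e0 : N.dl t t' η θ ω c v s = 0 := by
        unfold dl
        split_ifs with e
        · exact congrFun (f2 _ hbS fun h => h e) _
        · exact f2' _ hbS e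
      have e1 := N.dl_succ t t' η θ hc hc' v s
      have e2 : ∀ w, N.dv t t' η θ (N.link ω c w s) = 0 := fun w => rfl
      fin_cases i <;> simp [sys, dv_layer, e0, e1, e2]
  · have := (N.R j (N.grp v) s).add_mem (N.ok_jun.1 (h.jok j v s)) (f1 j v s)
    rw [ok_jun]
    convert this using 1
    rw [add_right_comm]
    rfl
  · by_cases hc' : c = t ω
    · have hω : ω = ω0 := by
        by_contra hn
        exact hc (by rw [ht ω hn, hc'])
      subst hω
      subst hc'
      exact h2 (Ne.symm hc) v s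
    · refine hok _ (fun v' s' e => ?_) ?_
      · simp only [Blk.col.injEq] at e
        exact hc' (by rw [e.2.1, e.1])
      · have := N.ok_col.1 (h.cok ω c hc' v s)
        rw [ok_col]
        simp only [α1, dv_layer, N.dl_succ t t' η θ hc' hc v s]
        rw [add_add_add_comm, CharTwo.add_self_eq_zero, add_zero, this]
        simp [link, dv]
  · obtain ⟨κ, hκ⟩ := h.mis ω
    obtain ⟨κ', hκ'⟩ := f3 ω
    refine ⟨κ + κ', fun u => ?_⟩
    have e : ∀ c, N.Pw L α2 ω c u = N.Pw L α1 ω c u := fun c => by simp only [Pw, hlay]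
    have e1 : ∀ t0 : Fin L, side t0 L = true := fun t0 => by simp [side]
    have e0 : ∀ t0 : Fin L, side t0 0 = false := fun t0 => by simp [side]
    rw [e, e, hPw, hPw, hnm _ _ _ (by rw [e1, e1]), hnm _ _ _ (by rw [e0, e0]), e1, e0, hκ, hκ']
    ring
  · have e : N.Pj α2 j u = N.Pj α1 j u := by
      unfold Pj
      refine Finset.sum_congr rfl fun v _ => funext fun i => h2' _ (by simp)
    rw [e, hPj]
    exact f5 j u hB

end Net

end Vale.Agent.P310
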