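import Vale.Agent.P310.Dup1

/-!
The Duplicator strategy: arc consistency of the uncompressed network gives equivalence.
-/

namespace Vale.Agent.P310

open Function Finset

variable {J Ω F : Type} [AddCommGroup F] {k a : ℕ}

namespace Net

variable (N : Net J Ω F k a) {L : ℕ}

/-- Safe patterns are reachable by constant changes. -/
def H1 (Safe : J → (Fin a → F) → Val → Prop) : Prop :=
  ∀ j u π, N.U j u π → ∃ π', Safe j u π' ∧ ∀ l s, π + π' ∈ N.R j l s

/-- Safe patterns are reachable by global changes. -/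
def H2 (Safe : J → (Fin a → F) → Val → Prop) : Prop :=
  ∀ j u π π', N.U j u π → Safe j u π' → ∃ η : J → Fin a → F → Val,
    (∀ j l s, η j l s ∈ N.R j l s) ∧
    (∀ ω, ∃ κ, ∀ u' : Fin a → F,
      (∑ l, η (N.jn ω true) l ((u' + N.sh ω true) l)) (N.bit ω true) =
      (∑ l, η (N.jn ω false) l ((u' + N.sh ω false) l)) (N.bit ω false) + κ) ∧
    ∑ l, η j l (u l) = π + π'

theorem hit_eq {t t' : Ω → Fin L} {b : Blk J Ω F k L} (h : ¬ b.mv t t') :
    N.hit t' b = N.hit t b := by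
  rcases b with ⟨j, v, s⟩ | ⟨ω, c, v, s⟩
  · rfl
  · simp only [Blk.mv, not_not] at h
    simp only [hit, h]

theorem mv_spec {t t' : Ω → Fin L} {ω0 : Ω} (ht : ∀ ω, ω ≠ ω0 → t' ω = t ω) {σ : Bool}
    (hσ : σ = decide ((t' ω0).val < (t ω0).val)) {b : Blk J Ω F k L} (h : b.mv t t') :
    N.hit t b = (N.jn ω0 !σ, b.cell.1, b.cell.2 + N.sh ω0 (!σ) (N.grp b.cell.1)) ∧
    N.hit t' b = (N.jn ω0 σ, b.cell.1, b.cell.2 + N.sh ω0 σ (N.grp b.cell.1)) := by
  rcases b with ⟨j, v, s⟩ | ⟨ω, c, v, s⟩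
  · exact h.elim
  · have hω : ω = ω0 := by
      by_contra hn
      exact h (by rw [ht ω hn])
    subst hω
    have h1 : side (t ω) c = !σ ∧ side (t' ω) c = σ := by
      simp only [Blk.mv, side, ne_eq, decide_eq_decide] at h
      subst hσ
      simp only [side]
      by_cases h2 : (t' ω).val < (t ω).val
      · simp only [h2, decide_true, Bool.not_true, decide_eq_false_iff_not, decide_eq_true_eq]
        omega
      · simp only [h2, decide_false, Bool.not_false, decide_eq_false_iff_not, decide_eq_true_eq]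
        omega
    simp only [hit, h1.1, h1.2, Blk.cell, and_self]

theorem mis_end {α : Var J Ω F k → ZMod 2} {ω : Ω}
    (h : ∃ κ, ∀ u, N.Pw L α ω L u = N.Pw L α ω 0 u + κ) (σ : Bool) :
    ∃ κ, ∀ u, N.Pw L α ω (endL L !σ) u = N.Pw L α ω (endL L σ) u + κ := by
  obtain ⟨κ, hκ⟩ := h
  refine ⟨κ, fun u => ?_⟩
  cases σ
  · exact hκ u
  · have := hκ u
    simp only [endL, Bool.not_true, Bool.false_eq_true, if_false, if_true]
    rw [this, add_assoc, CharTwo.add_self_eq_zero, add_zero]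

theorem extend [Nonempty Ω] [DecidableEq (Blk J Ω F k L)] (hL : k + 2 ≤ L)
    {Safe : J → (Fin a → F) → Val → Prop} (hAC : N.AC (fun _ => True) Safe) (h1 : N.H1 Safe)
    (h2 : N.H2 Safe) {S : Finset (Blk J Ω F k L)} {α : Var J Ω F k → ZMod 2} {t : Ω → Fin L}
    (h : N.St Safe S α t) (hS : S.card ≤ k) (b0 : Blk J Ω F k L) :
    ∃ α' t', (∀ b ∈ S, ∀ i, α' ((N.sys L).var b i) = α ((N.sys L).var b i)) ∧
      N.St Safe (insert b0 S) α' t' := by
  classical
  have hS' : (insert b0 S).card ≤ k + 1 := (card_insert_le _ _).trans (by omega)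
  obtain ⟨ω0, hω0⟩ : ∃ ω0, ∀ ω c v s, b0 = .col ω c v s → ω = ω0 := by
    rcases b0 with ⟨j, v, s⟩ | ⟨ω, c, v, s⟩
    · exact ⟨Classical.arbitrary _, by simp⟩
    · exact ⟨ω, by simp +contextual⟩
  obtain ⟨c0, hc0⟩ : ∃ c0 : Fin L, ∀ v s, .col ω0 c0 v s ∉ insert b0 S := by
    let f : Blk J Ω F k L → Fin L := fun b => match b with
      | .jun _ _ _ => t ω0
      | .col _ c _ _ => c
    obtain ⟨c, -, hc⟩ := exists_mem_notMem_of_card_lt_card (s := (insert b0 S).image f)
      (t := univ) (by have := card_image_le (s := insert b0 S) (f := f); simp only [card_univ,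
        Fintype.card_fin]; omega)
    exact ⟨c, fun v s hm => hc (mem_image.2 ⟨_, hm, rfl⟩)⟩
  let t' := update t ω0 c0
  have ht : ∀ ω, ω ≠ ω0 → t' ω = t ω := fun ω hω => update_of_ne hω _ _
  have hfree : ∀ ω v s, .col ω (t' ω) v s ∉ insert b0 S := by
    intro ω v s
    by_cases hω : ω = ω0
    · subst hω; simpa only [t', update_self] using hc0 v s
    · rw [ht ω hω, mem_insert]
      rintro (e | e)
      · exact hω (hω0 _ _ _ _ e.symm)
      · exact h.free _ _ _ e
  obtain ⟨σ, hσ⟩ : ∃ σ, σ = decide ((t' ω0).val < (t ω0).val) := ⟨_, rfl⟩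
  have hL0 : 0 < L := by omega
  obtain ⟨κ, hκ⟩ := N.mis_end (h.mis ω0) σ
  suffices H : ∃ α', (∀ b ∈ S, ∀ i, α' ((N.sys L).var b i) = α ((N.sys L).var b i)) ∧
      N.St Safe (insert b0 S) α' t' by
    obtain ⟨α', H⟩ := H
    exact ⟨α', t', H⟩
  by_cases hB : ∃ u : Fin a → F, ∀ v, ∃ b ∈ S, b.mv t t' ∧ b.cell = (v, u (N.grp v))
  · obtain ⟨u, hu⟩ := hB
    have hall := all_of_block hS (fun b v => b.mv t t' ∧ b.cell = (v, u (N.grp v)))
      (fun b v v' e e' => by
        have := e.2.symm.trans e'.2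
        exact congrArg Prod.fst this) hu
    have hB0 : N.Blocking S t (N.jn ω0 !σ) (u + N.sh ω0 !σ) := by
      intro v
      obtain ⟨b, hb, hm, e⟩ := hu v
      exact ⟨b, hb, by rw [(N.mv_spec ht hσ hm).1, e]; rfl⟩
    have hB1 : N.Blocking (insert b0 S) t' (N.jn ω0 σ) (u + N.sh ω0 σ) := by
      intro v
      obtain ⟨b, hb, hm, e⟩ := hu v
      exact ⟨b, mem_insert_of_mem hb, by rw [(N.mv_spec ht hσ hm).2, e]; rfl⟩
    obtain ⟨π', hπ', e'⟩ := hAC ω0 trivial (!σ) u _ (h.safe _ _ hB0)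
    rw [Bool.not_not] at hπ' e'
    obtain ⟨η, g1, g2, g3⟩ := h2 _ _ _ _ (N.Pj_U h.jok _ _) hπ'
    choose ρ hρ using N.surj
    let θ : Fin a → F → ZMod 2 := fun l s =>
      η (N.jn ω0 σ) l (s + N.sh ω0 σ l) (N.bit ω0 σ) +
        η (N.jn ω0 σ) l (u l + N.sh ω0 σ l) (N.bit ω0 σ)
    have hs := fun j => N.sum_sel (η j) (fun l _ => ρ l) fun l _ => hρ l
    have hs' := N.sum_sel θ (fun l _ => ρ l) fun l _ => hρ l
    refine N.finish h (subset_insert _ _) ω0 ht hfree
      (fun j v s => if v = ρ (N.grp v) then η j (N.grp v) s else 0)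
      (fun v s => if v = ρ (N.grp v) then θ (N.grp v) s else 0) (fun j v s => ?_)
      (fun b hb hm => ?_) (fun b hb hm => ?_) (fun ω => ?_) σ hσ (fun u' => ?_) fun j u' hb => ?_
    · split_ifs
      exacts [g1 _ _ _, zero_mem _]
    · obtain ⟨v, hv, -⟩ := hall b hb
      exact absurd hv hm
    · obtain ⟨v, -, hv⟩ := hall b hb
      simp only [hv, θ, CharTwo.add_self_eq_zero, ite_self]
    · simpa only [hs] using g2 ω
    · rw [hs, hs', hκ]
      have e1 := hκ u
      rw [N.Pw_end hL0, N.Pw_end hL0, ← e'] at e1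
      have e2 := congrFun g3 (N.bit ω0 σ)
      simp only [θ, Finset.sum_add_distrib, Finset.sum_apply, Pi.add_apply] at e2 ⊢
      rw [e2, e1, ← add_assoc (N.Pj α _ _ _), CharTwo.add_self_eq_zero, zero_add, add_assoc,
        add_comm κ, add_assoc, CharTwo.add_self_eq_zero, add_zero]
    · obtain ⟨rfl, rfl⟩ := N.uniq hS' _ hb hB1
      rw [hs, g3, ← add_assoc, Val.add_self, zero_add]
      exact hπ'
  · obtain ⟨η, ξ, g1, g2, g3, g4⟩ : ∃ (η : J → Fin k → F → Val) (ξ : J → Val),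
        (∀ j v s, η j v s ∈ N.R j (N.grp v) s) ∧
        (∀ b ∈ S, ¬ b.mv t t' → η (N.hit t b).1 (N.hit t b).2.1 (N.hit t b).2.2 = 0) ∧
        (∀ j (u : Fin a → F), ∑ v, η j v (u (N.grp v)) = ξ j) ∧
        ∀ j u, N.Blocking (insert b0 S) t' j u → Safe j u (N.Pj α j u + ξ j) := by
      by_cases hn : ∀ j u, N.Blocking (insert b0 S) t' j u → Safe j u (N.Pj α j u)
      · exact ⟨0, 0, fun _ _ _ => zero_mem _, fun _ _ _ => rfl, by simp, by simpa using hn⟩
      push Not at hn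
      obtain ⟨j1, u1, hb1, hns⟩ := hn
      obtain ⟨π', hπ', hm⟩ := h1 j1 u1 _ (N.Pj_U h.jok _ _)
      obtain ⟨e, e1, e2, e3⟩ := N.const_free (N.Pj α j1 u1 + π')
        (fun v s => ∃ b ∈ S, ¬ b.mv t t' ∧ N.hit t b = (j1, v, s)) (by
          rintro ⟨u, hu⟩
          have hb2 : N.Blocking (insert b0 S) t' j1 u := by
            intro v
            obtain ⟨b, hb, hm, e⟩ := hu v
            exact ⟨b, mem_insert_of_mem hb, by rw [N.hit_eq hm, e]⟩
          obtain ⟨-, rfl⟩ := N.uniq hS' _ hb1 hb2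
          refine hns (h.safe _ _ fun v => ?_)
          obtain ⟨b, hb, -, e⟩ := hu v
          exact ⟨b, hb, e⟩)
      refine ⟨fun j => if j = j1 then e else 0, fun j => if j = j1 then N.Pj α j1 u1 + π' else 0,
        fun j v s => ?_, fun b hb hm => ?_, fun j u => ?_, fun j u hb => ?_⟩
      · beta_reduce
        split_ifs with hj
        · subst hj
          rcases e1 v s with e | e <;> rw [e]
          exacts [hm _ _, zero_mem _]
        · exact zero_mem _
      · beta_reduce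
        split_ifs with hj
        · exact e2 _ _ ⟨b, hb, hm, by rw [← hj]⟩
        · rfl
      · beta_reduce
        split_ifs with hj
        · exact e3 u
        · simp
      · obtain ⟨rfl, rfl⟩ := N.uniq hS' _ hb hb1
        simp only [if_true]
        rw [← add_assoc, Val.add_self, zero_add]
        exact hπ'
    obtain ⟨θ, -, e2, e3⟩ := N.const_free (κ + ξ (N.jn ω0 σ) (N.bit ω0 σ))
      (fun v s => ∃ b ∈ S, b.mv t t' ∧ b.cell = (v, s)) hB
    refine N.finish h (subset_insert _ _) ω0 ht hfree η θ g1 g2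
      (fun b hb hm => e2 _ _ ⟨b, hb, hm, rfl⟩) (fun ω => ?_) σ hσ (fun u => ?_) fun j u hb => ?_
    · refine ⟨ξ (N.jn ω false) (N.bit ω false) + ξ (N.jn ω true) (N.bit ω true), fun u => ?_⟩
      rw [g3, g3, ← add_assoc, CharTwo.add_self_eq_zero, zero_add]
    · rw [g3, e3, hκ, add_assoc, ← add_assoc κ, CharTwo.add_self_eq_zero, zero_add]
    · rw [g3]
      exact g4 j u hb

theorem wl_of_AC [Nonempty Ω] (hL : k + 2 ≤ L)
    {Safe : J → (Fin a → F) → Val → Prop} (hAC : N.AC (fun _ => True) Safe) (h1 : N.H1 Safe)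
    (h2 : N.H2 Safe) (nb R : ℕ) (hR : 0 < R) (blk : ℕ → Blk J Ω F k L) :
    WLEquiv k ((N.sys L).graph false nb R blk) ((N.sys L).graph true nb R blk) := by
  classical
  have hk := N.two_le
  refine (N.sys L).wl_of_good nb R hR blk (fun S α => (∃ t, N.St Safe S α t)) ?_ ?_ ?_ ?_
  · let α : Var J Ω F k → ZMod 2 := fun x => match x with
      | .Y j i v _ => if v.val = 0 then N.c j i else 0
      | .M ω _ v _ => if v.val = 0 then N.c (N.jn ω true) (N.bit ω true) else 0
      | .Z _ _ _ _ => 0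
    have hl : ∀ ω c v s, α (N.layer L ω c v s) =
        if v.val = 0 then N.c (N.jn ω (decide (c ≠ 0))) (N.bit ω (decide (c ≠ 0))) else 0 := by
      intro ω c v s
      unfold layer
      by_cases h0 : c = 0
      · simp [h0, α]
      · by_cases h1 : c = L
        · subst h1; simp [h0, α]
        · simp [h0, h1, α]
    refine ⟨α, fun _ => ⟨0, by omega⟩, fun j v s => ?_, fun ω c hc v s => ?_, by simp,
      fun ω => ?_, fun j u hb => ?_⟩
    · rw [ok_jun]
      convert zero_mem (N.R j (N.grp v) s)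
      funext i
      by_cases hv : v.val = 0 <;> simp [α, hv, CharTwo.add_self_eq_zero]
    · have : c.val ≠ 0 := fun e => hc (Fin.ext e)
      rw [ok_col, hl, hl]
      simp [this, α, link, CharTwo.add_self_eq_zero]
    · refine ⟨N.Pw L α ω 0 0 + N.Pw L α ω L 0, fun u => ?_⟩
      have : ∀ c, N.Pw L α ω c u = N.Pw L α ω c 0 := fun c => by simp only [Pw, hl]
      rw [this, this, ← add_assoc, CharTwo.add_self_eq_zero, zero_add]
    · obtain ⟨b, hb, -⟩ := hb ⟨0, by omega⟩
      simp at hb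
  · rintro S α ⟨t, h⟩ b hb
    rcases b with ⟨j, v, s⟩ | ⟨ω, c, v, s⟩
    · exact h.jok j v s
    · exact h.cok ω c (fun e => h.free _ _ _ (e ▸ hb)) v s
  · rintro S S' α hS ⟨t, h⟩
    refine ⟨t, h.jok, h.cok, fun ω v s hm => h.free _ _ _ (hS hm), h.mis, fun j u hb => ?_⟩
    refine h.safe j u fun v => ?_
    obtain ⟨b, hb, e⟩ := hb v
    exact ⟨b, hS hb, e⟩
  · rintro S α ⟨t, h⟩ hS b
    obtain ⟨α', t', H1, H2⟩ := N.extend hL hAC h1 h2 h hS b
    exact ⟨α', H1, t', H2⟩

end Net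

end Vale.Agent.P310
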