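import Vale.Agent.P310.WL

/-!
Graphs of affine block systems over `ZMod 2`.
-/

namespace Vale.Agent.P310

open Function Finset

/-- Values of a block. -/
abbrev Val : Type := Fin 5 → ZMod 2

theorem Val.add_self (y : Val) : y + y = 0 := by
  funext i; exact CharTwo.add_self_eq_zero _

/-- A system of blocks, each with five variables and an affine set of valid values. -/
structure Sys (Blk Var : Type) where
  /-- the variables of a block -/
  var : Blk → Fin 5 → Var
  /-- the homogeneous solutions -/
  sub : Blk → AddSubgroup Val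
  /-- the inhomogeneous term -/
  cst : Blk → Val

variable {Blk Var : Type} (S : Sys Blk Var)

/-- Valid values. -/
def Sys.valid (τ : Bool) (b : Blk) (y : Val) : Prop := y + (if τ then S.cst b else 0) ∈ S.sub b

/-- Two values agree on shared variables. -/
def Sys.agree (b : Blk) (y : Val) (b' : Blk) (y' : Val) : Prop :=
  ∀ p p', S.var b p = S.var b' p' → y p = y' p'

/-- The vertex type. -/
abbrev Vtx (nb R : ℕ) : Type := (Fin nb × Val) ⊕ Fin R

open Classical in
/-- The number of markers joined to a block vertex. -/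
noncomputable def Sys.mk' (τ : Bool) (nb : ℕ) (blk : ℕ → Blk) (b : ℕ) (y : Val) : ℕ :=
  (2 * b + 1 + if S.valid τ (blk b) y then 1 else 0) * (32 * nb + 1)

/-- Adjacency. -/
def Sys.adj (τ : Bool) (nb R : ℕ) (blk : ℕ → Blk) : Vtx nb R → Vtx nb R → Prop
  | .inl p, .inl p' => p.1 ≠ p'.1 ∧ S.agree (blk p.1) p.2 (blk p'.1) p'.2
  | .inl p, .inr j => j.val < S.mk' τ nb blk p.1 p.2
  | .inr j, .inl p => j.val < S.mk' τ nb blk p.1 p.2
  | .inr _, .inr _ => False

/-- The graph of a system. -/
def Sys.graph (τ : Bool) (nb R : ℕ) (blk : ℕ → Blk) : SimpleGraph (Vtx nb R) where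
  Adj := S.adj τ nb R blk
  symm := ⟨by
    rintro (p | j) (p' | j') h
    · exact ⟨h.1.symm, fun a b e => (h.2 b a e.symm).symm⟩
    · exact h
    · exact h
    · exact h⟩
  loopless := ⟨by
    rintro (p | j) h
    · exact h.1 rfl
    · exact h⟩

/-- Shift of block vertices by a global assignment. -/
def Sys.shift {nb R : ℕ} (blk : ℕ → Blk) (α : Var → ZMod 2) : Vtx nb R → Vtx nb R
  | .inl p => .inl (p.1, p.2 + fun i => α (S.var (blk p.1) i))
  | .inr j => .inr j

/-- The blocks met by a tuple. -/
def blocksOf [DecidableEq Blk] {nb R k : ℕ} (blk : ℕ → Blk) (x : Fin k → Vtx nb R) : Finset Blk :=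
  univ.biUnion fun i => match x i with
    | .inl p => {blk p.1}
    | .inr _ => ∅

theorem mem_blocksOf [DecidableEq Blk] {nb R k : ℕ} {blk : ℕ → Blk} {x : Fin k → Vtx nb R}
    {b : Blk} : b ∈ blocksOf blk x ↔ ∃ i p, x i = .inl p ∧ b = blk p.1 := by
  simp only [blocksOf, mem_biUnion, mem_univ, true_and]
  refine exists_congr fun i => ?_
  rcases x i with p | j <;> simp

theorem card_blocksOf [DecidableEq Blk] {nb R k : ℕ} (blk : ℕ → Blk) (x : Fin k → Vtx nb R) :
    (blocksOf blk x).card ≤ k := by
  refine (card_biUnion_le_card_mul _ _ 1 fun i _ => ?_).trans (by simp)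
  rcases x i with p | j <;> simp

theorem Sys.valid_shift {b : Blk} {γ : Val} (h : S.valid true b γ) (y : Val) :
    S.valid true b (y + γ) ↔ S.valid false b y := by
  simp only [Sys.valid, if_true, Bool.false_eq_true, if_false, add_zero] at *
  rw [add_assoc]
  exact (S.sub b).add_mem_cancel_right h

theorem Sys.wl_of_good [DecidableEq Blk] {k : ℕ} (nb R : ℕ) (hR : 0 < R) (blk : ℕ → Blk)
    (Good : Finset Blk → (Var → ZMod 2) → Prop)
    (g0 : ∃ α, Good ∅ α)
    (g1 : ∀ T α, Good T α → ∀ b ∈ T, S.valid true b fun i => α (S.var b i))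
    (g2 : ∀ T T' α, T' ⊆ T → Good T α → Good T' α)
    (g3 : ∀ T α, Good T α → T.card ≤ k → ∀ b, ∃ α', (∀ b' ∈ T, ∀ i, α' (S.var b' i) = α (S.var b' i)) ∧
      Good (insert b T) α') :
    WLEquiv k (S.graph false nb R blk) (S.graph true nb R blk) := by
  refine wl_of_rel (R := fun x y => ∃ α, Good (blocksOf blk x) α ∧ ∀ i, y i = S.shift blk α (x i))
    ?_ ?_ ?_
  · rintro x y ⟨α, hα, hy⟩ i j
    have hv : ∀ i p, x i = .inl p → S.valid true (blk p.1) fun i => α (S.var (blk p.1) i) :=
      fun i p e => g1 _ _ hα _ (mem_blocksOf.2 ⟨i, p, e, rfl⟩)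
    rw [hy i, hy j]
    have hi := hv i
    have hj := hv j
    generalize x i = a at hi ⊢
    generalize x j = b at hj ⊢
    rcases a with ⟨a, y⟩ | a <;> rcases b with ⟨b, y'⟩ | b
    · refine ⟨⟨fun e => by rw [e], fun e => ?_⟩, ?_⟩
      · simp only [Sys.shift, Sum.inl.injEq, Prod.mk.injEq] at e ⊢
        obtain ⟨rfl, e⟩ := e
        exact ⟨rfl, add_right_cancel e⟩
      · refine and_congr Iff.rfl (forall₂_congr fun p p' => forall_congr' fun e => ?_)
        simp only [Pi.add_apply, e, add_left_inj]
    · refine ⟨by simp [Sys.shift], ?_⟩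
      have := S.valid_shift (hi _ rfl) y
      simp only [Sys.graph, Sys.shift, Sys.adj, Sys.mk'] at this ⊢
      rw [propext this]
    · refine ⟨by simp [Sys.shift], ?_⟩
      have := S.valid_shift (hj _ rfl) y'
      simp only [Sys.graph, Sys.shift, Sys.adj, Sys.mk'] at this ⊢
      rw [propext this]
    · exact ⟨by simp [Sys.shift], Iff.rfl⟩
  · rintro x y ⟨α, hα, hy⟩
    choose β hβ hβ' using g3 _ _ hα (card_blocksOf blk x)
    let π : Vtx nb R → Vtx nb R := fun v => match v with
      | .inl p => S.shift blk (β (blk p.1)) (.inl p)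
      | .inr j => .inr j
    have hπ : Involutive π := by
      rintro (⟨b, y⟩ | j)
      · simp only [π, Sys.shift, add_assoc, Val.add_self, add_zero]
      · rfl
    refine ⟨hπ.toPerm, fun v i => ?_⟩
    have hsame : ∀ b j, S.shift blk (β b) (x j) = S.shift blk α (x j) := by
      intro b j
      rcases e : x j with p | m
      · simp only [Sys.shift, Sum.inl.injEq, Prod.mk.injEq, true_and, add_right_inj]
        funext l
        exact hβ b _ (mem_blocksOf.2 ⟨j, p, e, rfl⟩) l
      · rfl
    rcases v with p | m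
    · refine ⟨β (blk p.1), g2 _ _ _ (fun b hb => ?_) (hβ' (blk p.1)), fun j => ?_⟩
      · obtain ⟨j, p', e, rfl⟩ := mem_blocksOf.1 hb
        by_cases hj : j = i
        · subst hj
          simp only [update_self, Sum.inl.injEq] at e
          subst e
          exact mem_insert_self _ _
        · rw [update_of_ne hj] at e
          exact mem_insert_of_mem (mem_blocksOf.2 ⟨j, p', e, rfl⟩)
      · by_cases hj : j = i
        · subst hj; simp only [update_self]; rfl
        · rw [update_of_ne hj, update_of_ne hj, hy j, hsame]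
    · refine ⟨α, g2 _ _ _ (fun b hb => ?_) hα, fun j => ?_⟩
      · obtain ⟨j, p', e, rfl⟩ := mem_blocksOf.1 hb
        by_cases hj : j = i
        · subst hj
          simp at e
        · rw [update_of_ne hj] at e
          exact mem_blocksOf.2 ⟨j, p', e, rfl⟩
      · by_cases hj : j = i
        · subst hj; simp only [update_self]; rfl
        · rw [update_of_ne hj, update_of_ne hj, hy j]
  · obtain ⟨α, hα⟩ := g0
    refine ⟨fun _ => .inr ⟨0, hR⟩, fun _ => .inr ⟨0, hR⟩, α, g2 _ _ _ (fun b hb => ?_) hα,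
      fun _ => rfl⟩
    obtain ⟨j, p', e, rfl⟩ := mem_blocksOf.1 hb
    simp at e

theorem card_val : Fintype.card Val = 32 := by simp [Val]

open Classical in
theorem Sys.deg_div (τ : Bool) {nb R : ℕ} (hR : (2 * nb + 1) * (32 * nb + 1) ≤ R) (blk : ℕ → Blk)
    (v : Vtx nb R) :
    (univ.filter fun w => (S.graph τ nb R blk).Adj v w).card / (32 * nb + 1) =
      match v with
      | .inl p => 2 * p.1.val + 1 + if S.valid τ (blk p.1) p.2 then 1 else 0
      | .inr _ => 0 := by
  have hsplit : ∀ P : Vtx nb R → Prop, (univ.filter P).card =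
      (univ.filter fun p => P (.inl p)).card + (univ.filter fun j => P (.inr j)).card := by
    intro P
    simp only [card_filter, Fintype.sum_sum_type]
  have hle : ∀ P : Fin nb × Val → Prop, (univ.filter P).card ≤ 32 * nb := by
    intro P
    refine (card_le_univ _).trans (le_of_eq ?_)
    rw [Fintype.card_prod, card_val, Fintype.card_fin, mul_comm]
  rw [hsplit]
  rcases v with p | j
  · have h1 : (univ.filter fun j : Fin R => (S.graph τ nb R blk).Adj (.inl p) (.inr j)).card =
        S.mk' τ nb blk p.1 p.2 := by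
      have hm : S.mk' τ nb blk p.1 p.2 ≤ R := by
        refine le_trans (Nat.mul_le_mul_right _ ?_) hR
        have := p.1.2
        split_ifs <;> omega
      have := Fin.card_filter_val_lt (n := R) (m := S.mk' τ nb blk p.1 p.2)
      rw [min_eq_right hm] at this
      refine Eq.trans ?_ this
      congr 1
      ext j
      simp only [mem_filter]
      rfl
    rw [h1, Sys.mk', Nat.add_mul_div_right _ _ (by omega),
      Nat.div_eq_of_lt (Nat.lt_succ_of_le (hle _)), zero_add]
  · have h1 : (univ.filter fun j' : Fin R => (S.graph τ nb R blk).Adj (.inr j) (.inr j')).card = 0 := by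
      rw [card_eq_zero, filter_eq_empty_iff]
      exact fun _ _ h => h
    rw [h1, add_zero, Nat.div_eq_of_lt (Nat.lt_succ_of_le (hle _))]

/-- A consistent family of tuples of block values. -/
structure Sys.Fam (k : ℕ) (P : Blk → Prop) (F : (Fin k → Blk × Val) → Prop) : Prop where
  ex : ∀ bs : Fin k → Blk, (∀ i, P (bs i)) → ∃ f, F f ∧ ∀ i, (f i).1 = bs i
  valid : ∀ f, F f → ∀ i, S.valid true (f i).1 (f i).2
  agree : ∀ f, F f → ∀ i j, (f i).1 ≠ (f j).1 → S.agree (f i).1 (f i).2 (f j).1 (f j).2
  ext : ∀ f, F f → ∀ b, P b → ∃ y, ∀ i, F (update f i (b, y))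

theorem Sys.fam_of_wl {k nb R : ℕ} (hk : 2 ≤ k) (hR : (2 * nb + 1) * (32 * nb + 1) ≤ R)
    (blk : ℕ → Blk) (h : WLEquiv k (S.graph false nb R blk) (S.graph true nb R blk)) :
    ∃ F, S.Fam k (fun b => ∃ m < nb, blk m = b) F := by
  classical
  have key : ∀ (x y : Fin k → Vtx nb R),
      SameColor (S.graph false nb R blk) (S.graph true nb R blk) k x y → ∀ i m,
      x i = .inl (m, 0) → ∃ z, y i = .inl (m, z) ∧ S.valid true (blk m) z := by
    intro x y hs i m e
    have h1 := hs.deg hk i
    have h2 := S.deg_div false hR blk (x i)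
    have h3 := S.deg_div true hR blk (y i)
    have h4 : S.valid false (blk m) 0 := by simp [Sys.valid]
    rw [h1, h3, e] at h2
    rcases e' : y i with ⟨m', z⟩ | j
    · rw [e'] at h2
      simp only [h4, if_true] at h2
      split_ifs at h2 with hv
      · have : m' = m := Fin.ext (by omega)
        subst this
        exact ⟨z, rfl, hv⟩
      · omega
    · rw [e'] at h2
      simp only at h2
      omega
  refine ⟨fun f => ∃ (m : Fin k → Fin nb), (∀ i, (f i).1 = blk (m i)) ∧
    SameColor (S.graph false nb R blk) (S.graph true nb R blk) k (fun i => .inl (m i, 0))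
      (fun i => .inl (m i, (f i).2)), ?_, ?_, ?_, ?_⟩
  · intro bs hbs
    choose m hm hm' using hbs
    obtain ⟨y, hy⟩ := h.exists_same (fun i => .inl (⟨m i, hm i⟩, 0))
    choose z hz hz' using fun i => key _ _ hy i _ rfl
    refine ⟨fun i => (bs i, z i), ⟨fun i => ⟨m i, hm i⟩, fun i => (hm' i).symm, ?_⟩, fun _ => rfl⟩
    have : y = fun i => .inl (⟨m i, hm i⟩, z i) := funext hz
    rwa [this] at hy
  · rintro f ⟨m, hm, hs⟩ i
    obtain ⟨z, hz, hz'⟩ := key _ _ hs i _ rfl
    simp only [Sum.inl.injEq, Prod.mk.injEq, true_and] at hz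
    rw [hm, hz]
    exact hz'
  · rintro f ⟨m, hm, hs⟩ i j hne
    rw [hm, hm] at hne ⊢
    have := (hs.atomic i j).2.1 ⟨fun e => hne (congrArg (fun a : Fin nb => blk a) e),
      fun _ _ _ => rfl⟩
    exact this.2
  · rintro f ⟨m, hm, hs⟩ b ⟨a, ha, rfl⟩
    obtain ⟨w, hw⟩ := hs.extend (.inl (⟨a, ha⟩, 0))
    obtain ⟨z, hz, -⟩ := key _ _ (hw ⟨0, by omega⟩) ⟨0, by omega⟩ ⟨a, ha⟩ (by simp)
    rw [update_self] at hz
    subst hz
    refine ⟨z, fun i => ⟨update m i ⟨a, ha⟩, fun j => ?_, ?_⟩⟩
    · by_cases hj : j = i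
      · subst hj; simp
      · simp [update_of_ne hj, hm]
    · convert hw i using 2 with j j
      · by_cases hj : j = i
        · subst hj; simp
        · simp [update_of_ne hj]
      · by_cases hj : j = i
        · subst hj; simp
        · simp [update_of_ne hj]

end Vale.Agent.P310
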