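import Vale.Agent.P310.Net

/-!
From a consistent family to arc consistency of the uncompressed network.
-/

namespace Vale.Agent.P310

open Function Finset

section gen

variable {B V : Type} {S : Sys B V} {k : ℕ} {P : B → Prop} {Fm : (Fin k → B × Val) → Prop}

/-- The family holds a parity on given blocks. -/
def Holds (Fm : (Fin k → B × Val) → Prop) (bs : Fin k → B) (p : Fin 5) (β : ZMod 2) : Prop :=
  ∃ f, Fm f ∧ (∀ v, (f v).1 = bs v) ∧ ∑ v, (f v).2 p = β

theorem Holds.replace (h : S.Fam k P Fm) (hk : 2 ≤ k) {bs bs' : Fin k → B} {p p' : Fin 5}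
    {β : ZMod 2} (hP : ∀ v, P (bs' v)) (hne : ∀ v, bs v ≠ bs' v)
    (hv : ∀ v, S.var (bs v) p = S.var (bs' v) p') (H : Holds Fm bs p β) : Holds Fm bs' p' β := by
  have key : ∀ m ≤ k, ∃ f, Fm f ∧ (∀ v, (f v).1 = if v.val < m then bs' v else bs v) ∧
      ∑ v, (f v).2 (if v.val < m then p' else p) = β := by
    intro m
    induction m with
    | zero => intro _; simpa [Holds] using H
    | succ m ih =>
      intro hm
      obtain ⟨f, hf, h1, h2⟩ := ih (by omega)
      let v0 : Fin k := ⟨m, hm⟩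
      obtain ⟨y, hy⟩ := h.ext f hf _ (hP v0)
      obtain ⟨i, hi⟩ : ∃ i : Fin k, v0 ≠ i := by
        by_cases h0 : m = 0
        · exact ⟨⟨1, by omega⟩, fun e => by simp [v0, h0] at e⟩
        · exact ⟨⟨0, by omega⟩, fun e => by simp [v0, h0] at e⟩
      have e0 : (f v0).1 = bs v0 := by simp [h1, v0]
      have ha := h.agree _ (hy i) v0 i (by simpa [update_of_ne hi, e0] using hne v0) p p'
        (by simpa [update_of_ne hi, e0] using hv v0)
      simp only [update_of_ne hi, update_self] at ha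
      refine ⟨_, hy v0, fun v => ?_, ?_⟩
      · by_cases hv : v = v0
        · subst hv; simp [v0]
        · have : v.val ≠ m := fun e => hv (Fin.ext e)
          rw [update_of_ne hv, h1]
          exact if_congr (by omega) rfl rfl
      · rw [← h2]
        refine Finset.sum_congr rfl fun v _ => ?_
        by_cases hv : v = v0
        · subst hv; simp [v0, ← ha]
        · have : v.val ≠ m := fun e => hv (Fin.ext e)
          rw [update_of_ne hv, if_congr (show v.val < m + 1 ↔ v.val < m by omega) rfl rfl]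
  simpa [Holds] using key k le_rfl

theorem Holds.replace_iff (h : S.Fam k P Fm) (hk : 2 ≤ k) {bs bs' : Fin k → B} {p p' : Fin 5}
    {β : ZMod 2} (hP : ∀ v, P (bs v)) (hP' : ∀ v, P (bs' v)) (hne : ∀ v, bs v ≠ bs' v)
    (hv : ∀ v, S.var (bs v) p = S.var (bs' v) p') : Holds Fm bs p β ↔ Holds Fm bs' p' β :=
  ⟨Holds.replace h hk hP' hne hv,
    Holds.replace h hk hP (fun v => (hne v).symm) fun v => (hv v).symm⟩

end gen

variable {J Ω F : Type} [AddCommGroup F] {k a L : ℕ} {N : Net J Ω F k a}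
  {P : Blk J Ω F k L → Prop} {Fm : (Fin k → Blk J Ω F k L × Val) → Prop}

theorem holds_col (h : (N.sys L).Fam k P Fm) (ω : Ω) (c : Fin L) (u : Fin a → F) (β : ZMod 2) :
    Holds Fm (fun v => .col ω c v (u (N.grp v))) 0 β ↔
      Holds Fm (fun v => .col ω c v (u (N.grp v))) 1 β := by
  refine exists_congr fun f => and_congr_right fun hf => and_congr_right fun h1 => ?_
  rw [telescope (fun v => (f v).2) (fun v => by simpa [Sys.valid, h1, Net.sys] using h.valid f hf v)]
  intro v v' e
  refine h.agree f hf v v' ?_ 3 2 ?_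
  · rw [h1, h1]
    intro e'
    simp only [Blk.col.injEq, true_and] at e'
    rw [e'.1] at e
    omega
  · rw [h1, h1]
    simp only [Net.sys, Net.link, Matrix.cons_val, Var.Z.injEq, true_and, ← e]
    by_cases hs : N.same v' = true
    · rw [if_pos hs, if_pos hs, (N.same_iff v v' e).1 hs]
    · rw [if_neg hs, if_neg hs]

/-- The patterns seen by a family. -/
def seen (N : Net J Ω F k a) (Fm : (Fin k → Blk J Ω F k L × Val) → Prop) (j : J) (u : Fin a → F)
    (π : Val) : Prop :=
  ∃ f, Fm f ∧ (∀ v, (f v).1 = .jun j v (u (N.grp v))) ∧ π = ∑ v, (f v).2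

theorem seen_ex (h : (N.sys L).Fam k P Fm) {j : J} (hj : ∀ v s, P (.jun j v s)) (u : Fin a → F) :
    ∃ π, seen N Fm j u π := by
  obtain ⟨f, hf, h1⟩ := h.ex (fun v => .jun j v (u (N.grp v))) fun v => hj _ _
  exact ⟨_, f, hf, h1, rfl⟩

theorem seen_U (h : (N.sys L).Fam k P Fm) {j : J} {u : Fin a → F} {π : Val}
    (hs : seen N Fm j u π) : N.U j u π := by
  obtain ⟨f, hf, h1, rfl⟩ := hs
  exact ⟨fun v => (f v).2, fun v => by simpa [Sys.valid, h1, Net.sys] using h.valid f hf v, rfl⟩

theorem seen_AC (h : (N.sys L).Fam k P Fm) (hL : 0 < L) :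
    N.AC (fun ω => (∀ σ v s, P (.jun (N.jn ω σ) v s)) ∧ ∀ c v s, P (.col ω c v s))
      (seen N Fm) := by
  rintro ω ⟨hj, hc⟩ σ u π hπ
  have hk := N.two_le
  let jb : Bool → Fin k → Blk J Ω F k L := fun σ v => .jun (N.jn ω σ) v ((u + N.sh ω σ) (N.grp v))
  have chain : ∀ β, ∀ c (hc : c < L), Holds Fm (jb false) (N.bit ω false) β ↔
      Holds Fm (fun v => .col ω ⟨c, hc⟩ v (u (N.grp v))) 1 β := by
    intro β c
    induction c with
    | zero =>
      intro h0
      rw [← holds_col h]
      exact Holds.replace_iff h hk (fun v => hj _ _ _) (fun v => hc _ _ _) (fun v => by simp [jb])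
        fun v => by simp [jb, Net.sys, Net.layer]
    | succ c ih =>
      intro h0
      rw [ih (by omega), ← holds_col h ω ⟨c + 1, h0⟩]
      exact Holds.replace_iff h hk (fun v => hc _ _ _) (fun v => hc _ _ _) (fun v => by simp)
        fun v => by simp [Net.sys]
  have chain' : ∀ β, Holds Fm (jb false) (N.bit ω false) β ↔ Holds Fm (jb true) (N.bit ω true) β := by
    intro β
    rw [chain β (L - 1) (by omega)]
    refine Holds.replace_iff h hk (fun v => hc _ _ _) (fun v => hj _ _ _) (fun v => by simp [jb])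
      fun v => ?_
    have e : L - 1 + 1 = L := by omega
    simp [jb, Net.sys, Net.layer, e]
  obtain ⟨f, hf, h1, rfl⟩ := hπ
  have h2 : Holds Fm (jb σ) (N.bit ω σ) (∑ v, (f v).2 (N.bit ω σ)) := ⟨f, hf, h1, rfl⟩
  have h3 : Holds Fm (jb !σ) (N.bit ω !σ) (∑ v, (f v).2 (N.bit ω σ)) := by
    cases σ
    · exact (chain' _).1 h2
    · exact (chain' _).2 h2
  obtain ⟨f', hf', h1', h2'⟩ := h3
  exact ⟨_, ⟨f', hf', h1', rfl⟩, by simpa [Finset.sum_apply] using h2'⟩

end Vale.Agent.P310
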