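import Vale.Agent.P310.Dup2
import Vale.Agent.P310.Spoil

/-!
Horn systems over addresses and their networks.
-/

namespace Vale.Agent.P310

open Function Finset

/-- A Horn system over addresses. -/
structure Horn (Pr Ru F : Type) (a : ℕ) where
  /-- the true predicate -/
  top : Pr
  /-- the goal predicate -/
  goal : Pr
  /-- head of a rule -/
  head : Ru → Pr
  /-- first body predicate -/
  p1 : Ru → Pr
  /-- second body predicate -/
  p2 : Ru → Pr
  /-- address shift of the first body predicate -/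
  d : Ru → Fin a → F
  /-- digit tests -/
  test : Ru → Fin a → F → Bool
  top_ne : top ≠ goal
  p1_ne : ∀ ρ, p1 ρ ≠ goal
  p2_ne : ∀ ρ, p2 ρ ≠ goal

variable {Pr Ru F : Type} [AddCommGroup F] {k a : ℕ}

namespace Horn

variable (H : Horn Pr Ru F a)

/-- Derivable facts. -/
inductive Der : Pr → (Fin a → F) → Prop
  | top (u) : Der H.top u
  | rule (ρ u) : Der (H.p1 ρ) (u + H.d ρ) → Der (H.p2 ρ) u → (∀ l, H.test ρ l (u l) = true) →
      Der (H.head ρ) u

/-- The relation of a predicate junction. -/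
def predSub (b : Prop) : AddSubgroup Val where
  carrier := {y | b → y 0 = 0}
  add_mem' := by
    intro y z hy hz h
    simp [hy h, hz h]
  zero_mem' := by simp
  neg_mem' := by
    intro y hy h
    simp [hy h]

/-- The relation of a rule junction. -/
def ruleSub (b : Bool) : AddSubgroup Val where
  carrier := {y | y 4 = y 2 + y 3 ∧ (b = true → y 2 = y 0 + y 1)}
  add_mem' := by
    intro y z hy hz
    refine ⟨?_, fun h => ?_⟩
    · simp only [Pi.add_apply, hy.1, hz.1]; ring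
    · simp only [Pi.add_apply, hy.2 h, hz.2 h]; ring
  zero_mem' := by simp
  neg_mem' := by
    intro y hy
    simpa only [Set.mem_ofPred_eq, Pi.neg_apply, CharTwo.neg_eq] using hy

theorem mem_predSub {b : Prop} {y : Val} : y ∈ predSub b ↔ (b → y 0 = 0) := Iff.rfl

theorem mem_ruleSub {b : Bool} {y : Val} :
    y ∈ ruleSub b ↔ y 4 = y 2 + y 3 ∧ (b = true → y 2 = y 0 + y 1) := Iff.rfl

open Classical in
/-- The network of a Horn system. -/
noncomputable def net (W : Rows k a) : Net (Pr ⊕ Ru) (Ru × Fin 4) F k a where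
  toRows := W
  jn := fun ω σ => if σ then ![.inr ω.1, .inr ω.1, .inr ω.1, .inl (H.head ω.1)] ω.2
    else ![.inl (H.p1 ω.1), .inl (H.p2 ω.1), .inr ω.1, .inr ω.1] ω.2
  bit := fun ω σ => if σ then ![0, 1, 3, 0] ω.2 else ![0, 0, 2, 4] ω.2
  sh := fun ω σ => if σ = false ∧ ω.2 = 0 then H.d ω.1 else 0
  R := fun j l s => match j with
    | .inl p => predSub (p = H.top ∨ p = H.goal)
    | .inr ρ => ruleSub (H.test ρ l s)
  c := fun j => match j with
    | .inl p => if p = H.goal then ![1, 0, 0, 0, 0] else 0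
    | .inr _ => 0

variable {H} {W : Rows k a}

theorem U_pred {p : Pr} {u : Fin a → F} {π : Val} (h : (H.net W).U (.inl p) u π) :
    (p = H.top → π 0 = 0) ∧ (p = H.goal → π 0 = 1) := by
  obtain ⟨y, hy, rfl⟩ := h
  have hk := W.two_le
  constructor
  · rintro rfl
    rw [Finset.sum_apply]
    refine Finset.sum_eq_zero fun v _ => ?_
    simpa [net, mem_predSub, H.top_ne] using hy v
  · rintro rfl
    rw [Finset.sum_apply, Finset.sum_eq_single ⟨0, by omega⟩]
    · have := hy ⟨0, by omega⟩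
      simp only [net, mem_predSub, or_true, if_true, Pi.add_apply, Matrix.cons_val_zero,
        forall_const] at this
      rw [← add_left_inj 1, this]; rfl
    · intro v _ hv
      have h0 : v.val ≠ 0 := fun e => hv (Fin.ext e)
      simpa [net, mem_predSub, h0] using hy v
    · simp

theorem U_rule {ρ : Ru} {u : Fin a → F} {π : Val} (h : (H.net W).U (.inr ρ) u π) :
    π 4 = π 2 + π 3 ∧ ((∀ l, H.test ρ l (u l) = true) → π 2 = π 0 + π 1) := by
  obtain ⟨y, hy, rfl⟩ := h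
  simp only [net, ite_self, add_zero, mem_ruleSub] at hy
  simp only [Finset.sum_apply, ← Finset.sum_add_distrib]
  exact ⟨Finset.sum_congr rfl fun v _ => (hy v).1,
    fun h => Finset.sum_congr rfl fun v _ => (hy v).2 (h _)⟩

variable (H) in
/-- Safe patterns. -/
def Safe : Pr ⊕ Ru → (Fin a → F) → Val → Prop
  | .inl p, u, π => (H.Der p u → π 0 = 0) ∧ (p = H.goal → π 0 = 1)
  | .inr ρ, u, π => π 4 = π 2 + π 3 ∧ ((∀ l, H.test ρ l (u l) = true) → π 2 = π 0 + π 1) ∧
      (H.Der (H.p1 ρ) (u + H.d ρ) → π 0 = 0) ∧ (H.Der (H.p2 ρ) u → π 1 = 0) ∧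
      (H.Der (H.p1 ρ) (u + H.d ρ) → H.Der (H.p2 ρ) u → (∀ l, H.test ρ l (u l) = true) →
        π 2 = 0 ∧ π 3 = 0) ∧ (H.Der (H.head ρ) u → π 4 = 0) ∧ (H.head ρ = H.goal → π 4 = 1)

theorem z2 (x y : ZMod 2) : y = x + (x + y) := by
  rw [← add_assoc, CharTwo.add_self_eq_zero, zero_add]

theorem safe_pat {ρ : Ru} {u : Fin a → F} (x y β o : ZMod 2)
    (h0 : (∀ l, H.test ρ l (u l) = true) → β = x + y)
    (h1 : H.Der (H.p1 ρ) (u + H.d ρ) → x = 0) (h2 : H.Der (H.p2 ρ) u → y = 0)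
    (h3 : H.Der (H.head ρ) u → o = 0) (h4 : H.head ρ = H.goal → o = 1) :
    H.Safe (.inr ρ) u ![x, y, β, β + o, o] := by
  refine ⟨z2 _ _, h0, h1, h2, fun a1 a2 a3 => ?_, h3, h4⟩
  have e1 : β = 0 := by rw [h0 a3, h1 a1, h2 a2, add_zero]
  have e2 : o = 0 := h3 (.rule ρ u a1 a2 a3)
  simp [e1, e2]

theorem safe_ex {ρ : Ru} {u : Fin a → F} (β o : ZMod 2)
    (h0 : H.Der (H.p1 ρ) (u + H.d ρ) → H.Der (H.p2 ρ) u → (∀ l, H.test ρ l (u l) = true) → β = 0)
    (h3 : H.Der (H.head ρ) u → o = 0) (h4 : H.head ρ = H.goal → o = 1) :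
    ∃ x y, H.Safe (.inr ρ) u ![x, y, β, β + o, o] := by
  by_cases a1 : H.Der (H.p1 ρ) (u + H.d ρ)
  · by_cases a2 : H.Der (H.p2 ρ) u
    · exact ⟨0, 0, safe_pat _ _ _ _ (fun a3 => by rw [h0 a1 a2 a3, add_zero]) (fun _ => rfl)
        (fun _ => rfl) h3 h4⟩
    · exact ⟨0, β, safe_pat _ _ _ _ (fun _ => (zero_add _).symm) (fun _ => rfl)
        (fun h => absurd h a2) h3 h4⟩
  · exact ⟨β, 0, safe_pat _ _ _ _ (fun _ => (add_zero _).symm) (fun h => absurd h a1)
      (fun _ => rfl) h3 h4⟩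

theorem out_ex (hg : ∀ u, ¬ H.Der H.goal u) (p : Pr) (u : Fin a → F) :
    ∃ o : ZMod 2, (H.Der p u → o = 0) ∧ (p = H.goal → o = 1) := by
  by_cases h : p = H.goal
  · exact ⟨1, fun h' => absurd (h ▸ h') (hg u), fun _ => rfl⟩
  · exact ⟨0, fun _ => rfl, fun h' => absurd h' h⟩

theorem safe_AC (hg : ∀ u, ¬ H.Der H.goal u) : (H.net W).AC (fun _ => True) H.Safe := by
  rintro ⟨ρ, w⟩ - σ u π h
  obtain ⟨o, ho, ho'⟩ := out_ex hg (H.head ρ) u
  fin_cases w <;> cases σ <;> simp [net] at h ⊢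
  · exact ⟨_, safe_pat (π 0) 0 (π 0) o (fun _ => (add_zero _).symm) h.1 (fun _ => rfl) ho ho', rfl⟩
  · exact ⟨![π 0, 0, 0, 0, 0], ⟨h.2.2.1, fun e => absurd e (H.p1_ne ρ)⟩, rfl⟩
  · exact ⟨_, safe_pat 0 (π 0) (π 0) o (fun _ => (zero_add _).symm) (fun _ => rfl) h.1 ho ho', rfl⟩
  · exact ⟨![π 1, 0, 0, 0, 0], ⟨h.2.2.2.1, fun e => absurd e (H.p2_ne ρ)⟩, rfl⟩
  · obtain ⟨x, y, h'⟩ := safe_ex (ρ := ρ) (u := u) (π 2 + o) o (fun a1 a2 a3 => by
      rw [(h.2.2.2.2.1 a1 a2 a3).1, ho (.rule ρ u a1 a2 a3), add_zero]) ho ho'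
    refine ⟨_, h', ?_⟩
    simp [add_assoc, CharTwo.add_self_eq_zero]
  · obtain ⟨x, y, h'⟩ := safe_ex (ρ := ρ) (u := u) (π 3) o
      (fun a1 a2 a3 => (h.2.2.2.2.1 a1 a2 a3).2) ho ho'
    exact ⟨_, h', rfl⟩
  · exact ⟨![π 4, 0, 0, 0, 0], ⟨h.2.2.2.2.2.1, h.2.2.2.2.2.2⟩, rfl⟩
  · obtain ⟨x, y, h'⟩ := safe_ex (ρ := ρ) (u := u) 0 (π 0) (fun _ _ _ => rfl) h.1 h.2
    exact ⟨_, h', rfl⟩

theorem safe_H1 (hg : ∀ u, ¬ H.Der H.goal u) : (H.net W).H1 H.Safe := by
  rintro (p | ρ) u π h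
  · have h' := U_pred h
    by_cases hp : p = H.top ∨ p = H.goal
    · refine ⟨π, ⟨fun hd => ?_, h'.2⟩, fun l s => by rw [Val.add_self]; exact zero_mem _⟩
      rcases hp with hp | hp
      · exact h'.1 hp
      · exact absurd (hp ▸ hd) (hg u)
    · exact ⟨0, ⟨fun _ => rfl, fun e => absurd (Or.inr e) hp⟩, fun l s h => absurd h hp⟩
  · have h' := U_rule h
    obtain ⟨o, ho, ho'⟩ := out_ex hg (H.head ρ) u
    refine ⟨_, safe_pat 0 0 (π 0 + π 1 + π 2) o (fun a => ?_) (fun _ => rfl) (fun _ => rfl) ho ho',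
      fun l s => ⟨?_, fun _ => ?_⟩⟩
    · rw [h'.2 a, CharTwo.add_self_eq_zero, add_zero]
    · simp only [Pi.add_apply, Matrix.cons_val, h'.1]
      clear ho ho'
      generalize π 0 = x0, π 1 = x1, π 2 = x2, π 3 = x3
      revert x0 x1 x2 x3 o
      decide
    · simp only [Pi.add_apply, Matrix.cons_val]
      generalize π 0 = x0, π 1 = x1, π 2 = x2
      revert x0 x1 x2
      decide

theorem safe_H2 : (H.net W).H2 H.Safe := by
  classical
  intro j u π π' h h'
  have key : ∀ (l0 : Fin a) (ξ : Val) (φ : F → ZMod 2), (∀ s, ξ + ![0, 0, φ s, φ s, 0] ∈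
      (H.net W).R j l0 s) → ξ + ![0, 0, φ (u l0), φ (u l0), 0] = π + π' →
      ∃ η : Pr ⊕ Ru → Fin a → F → Val, (∀ j l s, η j l s ∈ (H.net W).R j l s) ∧
      (∀ ω, ∃ κ, ∀ u' : Fin a → F,
        (∑ l, η ((H.net W).jn ω true) l ((u' + (H.net W).sh ω true) l)) ((H.net W).bit ω true) =
        (∑ l, η ((H.net W).jn ω false) l ((u' + (H.net W).sh ω false) l))
          ((H.net W).bit ω false) + κ) ∧ ∑ l, η j l (u l) = π + π' := by
    intro l0 ξ φ h1 h2
    let η : Pr ⊕ Ru → Fin a → F → Val := fun j' l s =>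
      if l = l0 then (if j' = j then ξ + ![0, 0, φ s, φ s, 0] else 0) else 0
    have hs : ∀ j' (u' : Fin a → F), ∑ l, η j' l (u' l) =
        if j' = j then ξ + ![0, 0, φ (u' l0), φ (u' l0), 0] else 0 := by
      intro j' u'
      simp [η]
    refine ⟨η, fun j' l s => ?_, fun ω => ?_, by rw [hs, if_pos rfl, h2]⟩
    · simp only [η]
      split_ifs with e1 e2
      · subst e1 e2; exact h1 s
      · exact zero_mem _
      · exact zero_mem _
    · refine ⟨(if (H.net W).jn ω false = j then ξ else 0) ((H.net W).bit ω false) +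
        (if (H.net W).jn ω true = j then ξ else 0) ((H.net W).bit ω true), fun u' => ?_⟩
      rw [hs, hs]
      obtain ⟨ρ, w⟩ := ω
      have e : ∀ (c : Prop) [Decidable c] (x : ZMod 2) (i : Fin 5), i = 0 ∨ i = 1 ∨ i = 4 →
          (if c then ξ + ![0, 0, x, x, 0] else 0) i = (if c then ξ else 0) i := by
        intro c _ x i hi
        split_ifs
        · rcases hi with rfl | rfl | rfl <;> simp
        · rfl
      fin_cases w
      · rw [e _ _ _ (by simp [net]), e _ _ _ (by simp [net])]; exact z2 _ _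
      · rw [e _ _ _ (by simp [net]), e _ _ _ (by simp [net])]; exact z2 _ _
      · by_cases hj : Sum.inr ρ = j
        · simp [net, hj]
          generalize ξ 2 = x0, ξ 3 = x1, φ (u' l0) = x2
          revert x0 x1 x2
          decide
        · simp [net, hj]
      · rw [e _ _ _ (by simp [net]), e _ _ _ (by simp [net])]; exact z2 _ _
  have hk := W.two_le
  rcases j with p | ρ
  · refine key (W.grp ⟨0, by omega⟩) (π + π') 0 (fun s hp => ?_) (by ext i; fin_cases i <;> simp)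
    have h1 := U_pred h
    rcases hp with hp | hp
    · simp [h1.1 hp, h'.1 (hp ▸ .top u)]
    · simp [h1.2 hp, h'.2 hp, CharTwo.add_self_eq_zero]
  · have h1 := U_rule h
    by_cases hG : ∀ l, H.test ρ l (u l) = true
    · refine key (W.grp ⟨0, by omega⟩) (π + π') 0 (fun s => ⟨?_, fun _ => ?_⟩)
        (by ext i; fin_cases i <;> simp)
      · simp [h1.1, h'.1]; ring
      · simp [h1.2 hG, h'.2.1 hG]; ring
    · push Not at hG
      obtain ⟨l, hl⟩ := hG
      let κ := π 0 + π' 0 + (π 1 + π' 1) + (π 2 + π' 2)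
      refine key l (π + π' + ![0, 0, κ, κ, 0]) (fun s => if H.test ρ l s then 0 else κ)
        (fun s => ⟨?_, fun ht => ?_⟩) ?_
      · simp only [Pi.add_apply, Matrix.cons_val, h1.1, h'.1]
        generalize (if H.test ρ l s then 0 else κ) = x0
        generalize κ = x1, π 2 = x2, π 3 = x3, π' 2 = x4, π' 3 = x5
        revert x0 x1 x2 x3 x4 x5
        decide
      · simp only [Pi.add_apply, Matrix.cons_val, ht, if_true, add_zero, κ]
        generalize π 0 + π' 0 = x0, π 1 + π' 1 = x1, π 2 + π' 2 = x2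
        revert x0 x1 x2
        decide
      · rw [if_neg hl, add_assoc, Val.add_self, add_zero]

theorem wl_of_not_der [Nonempty Ru] (hg : ∀ u, ¬ H.Der H.goal u) {L : ℕ} (hL : k + 2 ≤ L)
    (nb R : ℕ) (hR : 0 < R) (blk : ℕ → Blk (Pr ⊕ Ru) (Ru × Fin 4) F k L) :
    WLEquiv k (((H.net W).sys L).graph false nb R blk) (((H.net W).sys L).graph true nb R blk) :=
  (H.net W).wl_of_AC hL (safe_AC hg) (safe_H1 hg) safe_H2 nb R hR blk

theorem not_wl_of_der {u : Fin a → F} (hg : H.Der H.goal u) {L : ℕ} (hL : 0 < L)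
    {nb R : ℕ} (hR : (2 * nb + 1) * (32 * nb + 1) ≤ R)
    {blk : ℕ → Blk (Pr ⊕ Ru) (Ru × Fin 4) F k L}
    (hj : ∀ ω σ v s, ∃ m < nb, blk m = .jun ((H.net W).jn ω σ) v s)
    (hc : ∀ ω c v s, ∃ m < nb, blk m = .col ω c v s) :
    ¬ WLEquiv k (((H.net W).sys L).graph false nb R blk)
      (((H.net W).sys L).graph true nb R blk) := by
  intro h
  obtain ⟨Fm, hF⟩ := ((H.net W).sys L).fam_of_wl W.two_le hR blk h
  have hAC := fun ω => seen_AC hF hL ω ⟨hj ω, hc ω⟩
  have key : ∀ p u, H.Der p u → ∀ π, seen (H.net W) Fm (.inl p) u π → π 0 = 0 := by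
    intro p u hd
    induction hd with
    | top u => exact fun π hπ => (U_pred (seen_U hF hπ)).1 rfl
    | rule ρ u _ _ ht ih1 ih2 =>
      have h2 : ∀ π, seen (H.net W) Fm (.inr ρ) u π → π 2 = 0 := by
        intro π hπ
        obtain ⟨π1, a1, b1⟩ := hAC (ρ, 0) true u π (by simpa [net] using hπ)
        obtain ⟨π2, a2, b2⟩ := hAC (ρ, 1) true u π (by simpa [net] using hπ)
        have c1 := ih1 π1 (by simpa [net] using a1)
        have c2 := ih2 π2 (by simpa [net] using a2)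
        simp [net] at b1 b2
        rw [(U_rule (seen_U hF hπ)).2 ht, ← b1, ← b2, c1, c2, add_zero]
      intro π hπ
      obtain ⟨π1, a1, b1⟩ := hAC (ρ, 3) true u π (by simpa [net] using hπ)
      replace a1 : seen (H.net W) Fm (.inr ρ) u π1 := by simpa [net] using a1
      obtain ⟨π2, a2, b2⟩ := hAC (ρ, 2) true u π1 (by simpa [net] using a1)
      have c1 := h2 π1 a1
      have c2 := h2 π2 (by simpa [net] using a2)
      simp [net] at b1 b2
      rw [← b1, (U_rule (seen_U hF a1)).1, ← b2, c1, c2, add_zero]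
  obtain ⟨ρ, hρ⟩ : ∃ ρ, H.head ρ = H.goal := by
    generalize hp : H.goal = p at hg
    cases hg with
    | top => exact absurd hp.symm H.top_ne
    | rule ρ => exact ⟨ρ, rfl⟩
  obtain ⟨π, hπ⟩ := seen_ex hF (j := .inl H.goal) (fun v s => by
    simpa [net, hρ] using hj (ρ, 3) true v s) u
  have e1 := key _ _ hg π hπ
  rw [(U_pred (seen_U hF hπ)).2 rfl] at e1
  exact absurd e1 (by decide)

end Horn

end Vale.Agent.P310
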