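import Vale.Agent.P310.Num
import Vale.Agent.P333.Defs
import Vale.Agent.Lib.H24.PTNum

/-!
The reduction runs in polynomial time.
-/

namespace Vale.Agent.P310

open Vale.Agent.Lib.H24.T Vale.Agent.P333 Turing Function

variable {α β : Type} [Enc α] [Enc β]

@[fun_prop] theorem pt_eqw {f g : α → List ℕ} (hf : PT f) (hg : PT g) :
    PT (fun a => eqw (f a) (g a)) := by
  have h : PT (fun a => decide ((f a).length = (g a).length) &&
      ((f a).zip (g a)).all fun p => decide (p.1 = p.2)) := by fun_prop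
  refine h.of_eq fun a => ?_
  rw [Bool.eq_iff_iff, eqw, decide_eq_true_iff]
  generalize f a = l
  generalize g a = m
  induction l generalizing m with
  | nil => cases m <;> simp
  | cons x l ih =>
    cases m with
    | nil => simp
    | cons y m =>
      have := ih m
      simp only [Bool.and_eq_true, decide_eq_true_eq, List.length_cons, Nat.add_right_cancel_iff,
        List.zip_cons_cons, List.all_cons, List.cons.injEq] at this ⊢
      tauto

@[fun_prop] theorem pt_take {f : α → List β} {n : α → ℕ} (hn : PT n) (hf : PT f) :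
    PT (fun a => (f a).take (n a)) := by
  have h : PT (fun a => ((f a).reverse.drop ((f a).length - n a)).reverse) := by fun_prop
  refine h.of_eq fun a => ?_
  rw [List.drop_reverse, List.reverse_reverse]
  rcases le_total (n a) (f a).length with h | h
  · congr 1; omega
  · rw [List.take_of_length_le h, List.take_of_length_le (by omega)]

@[fun_prop] theorem pt_rgl {f : α → List β} (hf : PT f) : PT (fun a => rgl (f a)) :=
  hf.range_length

@[fun_prop] theorem pt_gN {f g : α → ℕ} (hf : PT f) (hg : PT g) : PT (fun a => gN (f a) (g a)) := by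
  unfold gN; fun_prop

@[fun_prop] theorem pt_addq {f g h : α → ℕ} (hf : PT f) (hg : PT g) (hh : PT h) :
    PT (fun a => addq (f a) (g a) (h a)) := by
  unfold addq; fun_prop

@[fun_prop] theorem pt_isP {f : α → P3} {g : α → ℕ} (hf : PT f) (hg : PT g) :
    PT (fun a => isP (f a) (g a)) := by
  unfold isP; fun_prop

@[fun_prop] theorem pt_yN {j : α → ℕ × P3} {f g h : α → ℕ} (hj : PT j) (hf : PT f) (hg : PT g)
    (hh : PT h) : PT (fun a => yN (j a) (f a) (g a) (h a)) := by
  unfold yN; fun_prop

@[fun_prop] theorem pt_junD {j : α → ℕ × P3} {t : α → Bool} {g h : α → ℕ} (hj : PT j) (ht : PT t)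
    (hg : PT g) (hh : PT h) : PT (fun a => junD (j a) (t a) (g a) (h a)) := by
  unfold junD; fun_prop

@[fun_prop] theorem pt_jn0 {r : α → RT} {g h : α → ℕ} (hr : PT r)
    (hg : PT g) (hh : PT h) : PT (fun a => jn0 (g a) (r a) (h a)) := by
  unfold jn0; fun_prop

@[fun_prop] theorem pt_jn1 {r : α → RT} {g h : α → ℕ} (hr : PT r)
    (hg : PT g) (hh : PT h) : PT (fun a => jn1 (g a) (r a) (h a)) := by
  unfold jn1; fun_prop

@[fun_prop] theorem pt_shN {q h m i l : α → ℕ} (h1 : PT q) (h2 : PT h) (h3 : PT m) (h4 : PT i)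
    (h5 : PT l) : PT (fun a => shN (q a) (h a) (m a) (i a) (l a)) := by
  unfold shN; fun_prop

@[fun_prop] theorem pt_tstN {q h m i l s : α → ℕ} {w : α → List ℕ} (h1 : PT q) (h2 : PT h)
    (h3 : PT m) (h4 : PT i) (h5 : PT l) (h6 : PT s) (h7 : PT w) :
    PT (fun a => tstN (q a) (h a) (w a) (m a) (i a) (l a) (s a)) := by
  unfold tstN; fun_prop

@[fun_prop] theorem pt_layN {q k ρ w c v s : α → ℕ} {r : α → RT} (h1 : PT q) (h2 : PT k)
    (h3 : PT ρ) (h4 : PT w) (h5 : PT c) (h6 : PT v) (h7 : PT s) (h8 : PT r) :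
    PT (fun a => layN (q a) (k a) (ρ a) (r a) (w a) (c a) (v a) (s a)) := by
  unfold layN; fun_prop

@[fun_prop] theorem pt_lnkN {k ρ w c v s : α → ℕ} (h2 : PT k)
    (h3 : PT ρ) (h4 : PT w) (h5 : PT c) (h6 : PT v) (h7 : PT s) :
    PT (fun a => lnkN (k a) (ρ a) (w a) (c a) (v a) (s a)) := by
  unfold lnkN; fun_prop

@[fun_prop] theorem pt_colD {q k ρ w c v s : α → ℕ} {r : α → RT} (h1 : PT q) (h2 : PT k)
    (h3 : PT ρ) (h4 : PT w) (h5 : PT c) (h6 : PT v) (h7 : PT s) (h8 : PT r) :
    PT (fun a => colD (q a) (k a) (ρ a) (r a) (w a) (c a) (v a) (s a)) := by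
  unfold colD; fun_prop

@[fun_prop] theorem pt_cellD {q k ρ w v s : α → ℕ} {i l : α → List ℕ} {r : α → RT} (h1 : PT q)
    (h2 : PT k) (h3 : PT ρ) (h4 : PT w) (h5 : PT i) (h6 : PT v) (h7 : PT s) (h8 : PT r)
    (h9 : PT l) :
    PT (fun a => cellD (q a) (k a) (i a) (l a) (ρ a) (r a) (v a) (s a) (w a)) := by
  unfold cellD; fun_prop

@[fun_prop] theorem pt_descs {q k : α → ℕ} {i l1 l2 l3 : α → List ℕ} {r : α → List RT} (h1 : PT q)
    (h2 : PT k) (h3 : PT i) (h4 : PT l1) (h5 : PT l2) (h6 : PT l3) (h8 : PT r) :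
    PT (fun a => descs (q a) (k a) (i a) (l1 a) (l2 a) (l3 a) (r a)) := by
  unfold descs; fun_prop

@[fun_prop] theorem pt_par {f : α → ℕ} (hf : PT f) : PT (fun a => par (f a)) := by
  unfold par; fun_prop

@[fun_prop] theorem pt_validN {f : α → ℕ} {d : α → Desc} {y : α → List ℕ} (hf : PT f) (hd : PT d)
    (hy : PT y) : PT (fun a => validN (f a) (d a) (y a)) := by
  unfold validN; fun_prop

@[fun_prop] theorem pt_mkN {f g : α → ℕ} {d : α → NV} (hf : PT f) (hg : PT g) (hd : PT d) :
    PT (fun a => mkN (f a) (g a) (d a)) := by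
  unfold mkN; fun_prop

@[fun_prop] theorem pt_adjN {f g : α → ℕ} {d e : α → NV} (hf : PT f) (hg : PT g) (hd : PT d)
    (he : PT e) : PT (fun a => adjN (f a) (g a) (d a) (e a)) := by
  unfold adjN; fun_prop

@[fun_prop] theorem pt_verts {d : α → List Desc} {l : α → List ℕ} (hd : PT d) (hl : PT l) :
    PT (fun a => verts (d a) (l a)) := by
  unfold verts; fun_prop

@[fun_prop] theorem pt_matN {f g : α → ℕ} {d : α → List NV} (hf : PT f) (hg : PT g) (hd : PT d) :
    PT (fun a => matN (f a) (g a) (d a)) := by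
  unfold matN; fun_prop

@[fun_prop] theorem pt_outN {f : α → ℕ} {d : α → List Desc} {l : α → List ℕ} (hf : PT f)
    (hd : PT d) (hl : PT l) : PT (fun a => outN (d a) (f a) (l a)) := by
  unfold outN; fun_prop

/-- Numerical parameters of the input. -/
def prm (x : List (List ℕ)) (i : ℕ) : ℕ := (x.getD 0 []).getD i 0

/-- The machine described by the input, run on the code of the input. -/
def mach (x : List (List ℕ)) : Mach :=
  ⟨prm x 2, prm x 3, prm x 4, prm x 5, prm x 6, prm x 7, x.getD 1 [], x.getD 2 [], x.drop 4,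
    (codeInstance x).map fun b => cond b (prm x 9) (prm x 8)⟩

/-- The range of digits. -/
def rq (x : List (List ℕ)) : List ℕ := rgl (false :: codeInstance x)

/-- Bounded ranges. -/
def rgx (x : List (List ℕ)) (m : ℕ) : List ℕ := (rq x).take m

/-- A cubic range. -/
def big (x : List (List ℕ)) : List ℕ := rgl ((rq x).flatMap fun _ => (rq x).flatMap fun _ => rq x)

/-- The reduction. -/
noncomputable def red (x : List (List ℕ)) : List Bool :=
  (outN (descs ((codeInstance x).length + 1) (prm x 0) (mach x).inp (rgx x (prm x 0)) (rq x)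
    (rgx x (prm x 0 + 2)) ((mach x).rules (rgx x) (prm x 0 / 2 / 2))) (prm x 1) (big x)).reverse

@[fun_prop] theorem pt_prm {f : α → List (List ℕ)} {i : α → ℕ} (hf : PT f) (hi : PT i) :
    PT (fun a => prm (f a) (i a)) := by
  unfold prm; fun_prop

@[fun_prop] theorem pt_code {f : α → List (List ℕ)} (hf : PT f) :
    PT (fun a => codeInstance (f a)) := by
  unfold codeInstance codeString codeLetter codeList codeBit; fun_prop

@[fun_prop] theorem pt_rq {f : α → List (List ℕ)} (hf : PT f) : PT (fun a => rq (f a)) := by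
  unfold rq; fun_prop

@[fun_prop] theorem pt_rgx {f : α → List (List ℕ)} {i : α → ℕ} (hf : PT f) (hi : PT i) :
    PT (fun a => rgx (f a) (i a)) := by
  unfold rgx; fun_prop

@[fun_prop] theorem pt_src {f : α → List (List ℕ)} {c κ : α → ℕ} (hf : PT f) (h1 : PT c)
    (h2 : PT κ) : PT (fun a => (mach (f a)).src (c a) (κ a)) := by
  unfold Mach.src mach; dsimp only; fun_prop

theorem pt_rulesC : PT (fun p : List (List ℕ) × ℕ =>
    (mach p.1).rulesC (rgx p.1) (prm p.1 0 / 2 / 2) p.2) := by
  unfold Mach.rulesC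
  simp only [show ∀ x, (mach x).ng = prm x 4 from fun _ => rfl,
    show ∀ x, (mach x).nk = prm x 3 from fun _ => rfl,
    show ∀ x, (mach x).kap = x.getD 1 [] from fun _ => rfl,
    show ∀ x, (mach x).op = x.getD 2 [] from fun _ => rfl,
    show ∀ x, (mach x).nxt = x.drop 4 from fun _ => rfl]
  fun_prop

theorem pt_rulesK : PT (fun p : List (List ℕ) × ℕ =>
    (mach p.1).rulesK (rgx p.1) (prm p.1 0 / 2 / 2) p.2) := by
  unfold Mach.rulesK mach; dsimp only; fun_prop

theorem pt_rules : PT (fun x : List (List ℕ) => (mach x).rules (rgx x) (prm x 0 / 2 / 2)) := by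
  have h1 : PT (fun x : List (List ℕ) => (rgx x (prm x 2)).flatMap
      ((mach x).rulesC (rgx x) (prm x 0 / 2 / 2))) := PT.flatMap (by fun_prop) pt_rulesC
  have h2 : PT (fun x : List (List ℕ) => (rgx x (prm x 3)).flatMap
      ((mach x).rulesK (rgx x) (prm x 0 / 2 / 2))) := PT.flatMap (by fun_prop) pt_rulesK
  unfold Mach.rules
  refine PT.append (PT.append (PT.append (PT.append ?_ h1) h2) ?_) ?_ <;>
    (unfold mach; dsimp only; fun_prop)

theorem pt_red : PT red := by
  have h1 := pt_rules
  have h2 : PT (fun x : List (List ℕ) => (mach x).inp) := by unfold mach; dsimp only; fun_prop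
  have h3 : PT big := by unfold big; fun_prop
  exact PT.reverse (pt_outN (by fun_prop) (pt_descs (by fun_prop) (by fun_prop) h2 (by fun_prop)
    (by fun_prop) (by fun_prop) h1) h3)

theorem code_list {α : Type} [Enc α] {f : α → List Bool} (h : ∀ a, code a = f a) (l : List α) :
    code l = codeList f l := by
  induction l with
  | nil => rfl
  | cons a l ih => rw [code_cons, ih, h]; simp [codeList]

theorem code_bits (l : List Bool) : code l = codeList codeBit l :=
  code_list (α := Bool) (fun b => by cases b <;> rfl) l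

theorem code_instance (S : List (List ℕ)) : code S = codeInstance S :=
  code_list (code_list fun n : ℕ => code_bits n.bits) S

theorem red_machine : ∃ (tm : FinTM2) (fi : Bool → tm.Γ tm.k₀) (fo : Bool → tm.Γ tm.k₁) (c : ℕ),
    Injective fo ∧ ∀ x, Nonempty (TM2OutputsInTime tm ((codeInstance x).map fi)
      (some ((codeList codeBit (red x)).map fo)) (((codeInstance x).length + 2) ^ c + 2)) := by
  obtain ⟨p, t, ⟨c, hc⟩, hp⟩ := pt_red
  let P : BP := .seq p (clr 1)
  refine ⟨toFinTM2 (P.map (clamp P.bound)) (clamp P.bound 0) (clamp P.bound 0), id, id, c,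
    injective_id, fun x => ?_⟩
  obtain ⟨t', v', ht, h1⟩ := (hp x).mono (hc x) none
  have h2 : Exec P none (W (code x) [] [] []) (t' + 1) none (W (code (red x)) [] [] []) :=
    h1.seq (Exec.whileNil rfl)
  have hW : ∀ z, W z [] [] [] = update (fun _ => []) 0 z := by
    intro z
    simp only [W, scons_nil]
    rw [← update_scons_zero [], scons_nil]
  have h3 := exec_clamp P.bound h2 le_rfl
  rw [hW, hW, update_clamp (Nat.zero_le _), update_clamp (Nat.zero_le _)] at h3
  have k1 := toFinTM2_outputs _ _ _ _ _ (t' + 1) ((sz x + 2) ^ c + 2) (by omega) h3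
  rw [sz, code_instance, code_bits, ← List.map_id (codeInstance x),
    ← List.map_id (codeList codeBit (red x))] at k1
  rw [List.length_map] at k1
  exact k1

end Vale.Agent.P310
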