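import Vale.Agent.P310.Reduce
import Vale.Agent.P310.PTime
import Vale.Agent.P310.Diag

/-!
The diagonal argument.
-/

namespace Vale.Agent.P310

open Vale.Agent.Lib.H24.T Vale.Agent.P333 Turing Function Filter

theorem length_encodeInput (p : Input) : (encodeInput p).length = 2 * p.1 ^ 2 := by
  simp [encodeInput, adjBits, List.length_flatMap]
  ring

theorem small {k : ℕ} (A : TM2Computable encodeInput Computability.encodeBool (decideWL k)) :
    ∀ᶠ n in atTop, ∀ p : Input, p.1 = n → n ≤ (A.outputsFun p).steps := by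
  obtain ⟨D, hD⟩ := exists_depth A.tm
  filter_upwards [eventually_ge_atTop (D + 1)] with n hn p hp
  have h := length_run A.tm.m hD A.tm.k₀ _ _ _ (A.outputsFun p).evals_in_steps
  rw [init_stk, halt_stk, update_self, List.length_map, length_encodeInput, hp] at h
  have h2 : (update (fun k => ([] : List (A.tm.Γ k))) A.tm.k₁ (List.map A.outputAlphabet.invFun
      (Computability.encodeBool (decideWL k p))) A.tm.k₀).length ≤ 1 := by
    by_cases e : A.tm.k₀ = A.tm.k₁
    · rw [e, update_self]; simp [Computability.encodeBool]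
    · rw [update_of_ne e]; simp
  by_contra hc
  have : (A.outputsFun p).steps * D ≤ n * D := Nat.mul_le_mul_right _ (by omega)
  nlinarith

theorem rules_length (M : Mach) {rg : ℕ → List ℕ} (h : ℕ) (hr : ∀ m, (rg m).length ≤ m) :
    (M.rules rg h).length ≤ 2 + M.nc * (M.ng + h + 1 + M.nk * M.ng) +
      M.nk * (1 + M.ng * (1 + h * 4)) + M.ng + h := by
  simp only [Mach.rules, Mach.rulesC, Mach.rulesK, List.length_append, List.length_flatMap,
    List.length_map, List.length_cons, List.length_nil, List.map_const', List.sum_replicate,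
    smul_eq_mul]
  have := hr M.nc
  have := hr M.nk
  have := hr M.ng
  have := hr h
  gcongr

theorem cube_le (l : ℕ) (hl : 10 ≤ l) : l ^ 3 ≤ 2 ^ l := by
  induction l, hl using Nat.le_induction with
  | base => norm_num
  | succ l hl ih =>
    have : (l + 1) ^ 3 ≤ 2 * l ^ 3 := by
      nlinarith [Nat.mul_le_mul_right (l * l) hl, Nat.mul_le_mul_right l hl]
    rw [pow_succ' 2]
    omega

theorem log_sq (C B : ℕ) : ∀ᶠ n in atTop, C * (B + sz n) ^ 2 ≤ n := by
  filter_upwards [eventually_ge_atTop (2 ^ (10 + 36 * C + B))] with n hn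
  have h0 : n ≠ 0 := by have := Nat.one_le_two_pow (n := 10 + 36 * C + B); omega
  have h1 := Nat.le_log_of_pow_le (by norm_num) hn
  have h2 := Nat.pow_log_le_self 2 h0
  have h3 := sz_nat_le (Nat.lt_pow_succ_log_self (b := 2) (by norm_num) n)
  have h4 := cube_le (Nat.log 2 n) (by omega)
  generalize Nat.log 2 n = l at *
  calc C * (B + sz n) ^ 2 ≤ C * (6 * l) ^ 2 := by gcongr; simp only [Nat.succ_eq_add_one] at h3; omega
    _ = 36 * C * l ^ 2 := by ring
    _ ≤ l * l ^ 2 := by gcongr; omega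
    _ = l ^ 3 := by ring
    _ ≤ n := h4.trans h2

theorem choose_pad (C B Q : ℕ) : ∀ᶠ n in atTop, ∃ p, n ≤ (B + sz n + 2 * p) ^ 3 ∧
    C * (B + sz n + 2 * p) ^ 2 ≤ n ∧ Q ≤ B + sz n + 2 * p := by
  filter_upwards [log_sq C B, eventually_ge_atTop ((Q + 4 * C + 4) ^ 3)] with n h1 h2
  have hex : ∃ p, n ≤ (B + sz n + 2 * p) ^ 3 :=
    ⟨n, le_trans (by omega) (Nat.le_self_pow (by norm_num) _)⟩
  have h3 := Nat.find_spec hex
  have h4 : Q + 4 * C + 4 ≤ B + sz n + 2 * Nat.find hex :=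
    (Nat.pow_le_pow_iff_left (by norm_num)).1 (h2.trans h3)
  refine ⟨_, h3, ?_, by omega⟩
  rcases Nat.eq_zero_or_pos (Nat.find hex) with h | h
  · simpa [h] using h1
  · have h5 := Nat.find_min hex (m := Nat.find hex - 1) (by omega)
    obtain ⟨r, hr⟩ : ∃ r, B + sz n + 2 * Nat.find hex = r + 2 := ⟨_, (Nat.sub_add_cancel (by omega)).symm⟩
    rw [show B + sz n + 2 * (Nat.find hex - 1) = r by omega] at h5
    rw [hr]
    calc C * (r + 2) ^ 2 ≤ C * (2 * r) ^ 2 := by gcongr; omega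
      _ = 4 * C * r ^ 2 := by ring
      _ ≤ r * r ^ 2 := by gcongr; omega
      _ = r ^ 3 := by ring
      _ ≤ n := by omega

theorem sz_replicate (p : ℕ) : sz (List.replicate p (0 : ℕ)) = 2 * p + 1 := by
  induction p with
  | zero => rfl
  | succ p ih =>
    have : sz (0 : ℕ) = 1 := rfl
    rw [List.replicate_succ, sz_cons, ih, this]
    ring

theorem time_bound {c k q D n s t : ℕ} (hk : 8 * c + 32 ≤ k) (hq : 7 * D + 2 ≤ q) (h1 : n ≤ q ^ 3)
    (hs : s < n ^ (k / 16)) (ht : t ≤ D * ((q + 1) ^ c + 2 + s + 2 * n ^ 2 + 1)) :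
    t < q ^ (k / 2 / 2) := by
  obtain ⟨e, he⟩ : ∃ e, k / 2 / 2 = e + 1 := ⟨k / 2 / 2 - 1, by omega⟩
  have hq1 : 1 ≤ q := by omega
  have a1 : (q + 1) ^ c ≤ q ^ e := by
    calc (q + 1) ^ c ≤ (q ^ 2) ^ c := Nat.pow_le_pow_left (by nlinarith) c
      _ = q ^ (2 * c) := by rw [pow_mul]
      _ ≤ q ^ e := Nat.pow_le_pow_right hq1 (by omega)
  have a2 : n ^ (k / 16) ≤ q ^ e := by
    calc n ^ (k / 16) ≤ (q ^ 3) ^ (k / 16) := Nat.pow_le_pow_left h1 _
      _ = q ^ (3 * (k / 16)) := by rw [pow_mul]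
      _ ≤ q ^ e := Nat.pow_le_pow_right hq1 (by omega)
  have a3 : n ^ 2 ≤ q ^ e := by
    calc n ^ 2 ≤ (q ^ 3) ^ 2 := Nat.pow_le_pow_left h1 _
      _ = q ^ 6 := by rw [← pow_mul]
      _ ≤ q ^ e := Nat.pow_le_pow_right hq1 (by omega)
  have a4 : 1 ≤ q ^ e := Nat.one_le_pow _ _ hq1
  rw [he, pow_succ]
  calc t ≤ D * (7 * q ^ e) := ht.trans (Nat.mul_le_mul_left _ (by omega))
    _ = q ^ e * (7 * D) := by ring
    _ < q ^ e * q := Nat.mul_lt_mul_of_pos_left (by omega) a4

theorem size_bound {r R k q C n : ℕ} (hr : r ≤ R) (hC : C = R * (k * (4 * (k + 4))) + 1)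
    (hq : 1 ≤ q) (h2 : 131 * C ^ 2 * q ^ 2 ≤ n) :
    32 * (r * (k * (q * (4 * (k + 4))))) + (2 * (r * (k * (q * (4 * (k + 4))))) + 1) *
      (32 * (r * (k * (q * (4 * (k + 4))))) + 1) ≤ n := by
  have : r * (k * (q * (4 * (k + 4)))) ≤ C * q := by
    rw [hC]
    calc _ ≤ R * (k * (q * (4 * (k + 4)))) := Nat.mul_le_mul_right _ hr
      _ ≤ _ := by nlinarith
  have h4 : 1 ≤ C * q := Nat.mul_pos (by omega) (by omega)
  generalize r * (k * (q * (4 * (k + 4)))) = nb at *
  have h5 : 131 * C ^ 2 * q ^ 2 = 131 * (C * q) ^ 2 := by ring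
  nlinarith

theorem large : ∃ K, ∀ k ≥ K,
    ∀ A : TM2Computable encodeInput Computability.encodeBool (decideWL k),
      ∀ᶠ n in atTop, ∃ p : Input, p.1 = n ∧ n ^ (k / 16) ≤ (A.outputsFun p).steps := by
  obtain ⟨tf, fi, fo, c, hfo, hf⟩ := red_machine
  refine ⟨8 * c + 32, fun k hk A => ?_⟩
  obtain ⟨D, nc, nk, ng, c0, acc, kin, s0, s1, kap, op, nxt, H⟩ := exists_diag tf A.tm fi
    A.inputAlphabet.invFun hfo A.outputAlphabet.symm.injective
  obtain ⟨C, hC⟩ : ∃ C, C = (2 + nc * (ng + k / 2 / 2 + 1 + nk * ng) +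
      nk * (1 + ng * (1 + k / 2 / 2 * 4)) + ng + k / 2 / 2) * (k * (4 * (k + 4))) + 1 := ⟨_, rfl⟩
  let xx : ℕ → ℕ → List (List ℕ) := fun n p =>
    [k, n, nc, nk, ng, c0, acc, kin, s0, s1] :: kap :: op :: List.replicate p 0 :: nxt
  obtain ⟨B, hB⟩ : ∃ B, ∀ n p, (codeInstance (xx n p)).length + 1 = B + sz n + 2 * p := by
    refine ⟨sz k + sz [nc, nk, ng, c0, acc, kin, s0, s1] + sz kap + sz op + sz nxt + 8,
      fun n p => ?_⟩
    rw [← code_instance]
    show sz _ + 1 = _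
    simp only [xx, sz_cons _ (_ :: _ :: _ :: _ :: _ :: _ :: _ :: _ :: []), sz_replicate,
      sz_cons (α := List ℕ), sz_cons k]
    omega
  filter_upwards [choose_pad (131 * C ^ 2) B (7 * D + nc + nk + ng + k + 3)] with n hn
  obtain ⟨p, h1, h2, h3⟩ := hn
  rw [← hB] at h1 h2 h3
  generalize hx : xx n p = x at h1 h2 h3
  have hM : mach x = ⟨nc, nk, ng, c0, acc, kin, kap, op, nxt,
      (codeInstance x).map fun b => cond b s1 s0⟩ := by subst hx; rfl
  have hk0 : prm x 0 = k := by subst hx; rfl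
  have hn0 : prm x 1 = n := by subst hx; rfl
  obtain ⟨hf⟩ := hf x
  have hrq : rq x = List.range ((codeInstance x).length + 1) := rfl
  have hin : (mach x).inp.length ≤ (codeInstance x).length + 1 := by simp [mach]
  unfold red at hf
  rw [hk0, hn0] at hf
  have e2 : (codeInstance x).length + 2 = (codeInstance x).length + 1 + 1 := rfl
  rw [e2] at hf
  generalize hq : (codeInstance x).length + 1 = q at *
  have : NeZero q := ⟨by omega⟩
  have hrg : ∀ m ≤ q, rgx x m = List.range m := fun m hm => by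
    rw [rgx, hrq, List.take_range, min_eq_left hm]
  have hmem : ∀ m ≤ q, ∀ i < m, i ∈ rgx x m := fun m hm i hi => by
    rw [hrg m hm]; exact List.mem_range.2 hi
  have hbig : big x = List.range (q ^ 3) := by
    simp only [big, rgl, List.length_flatMap, hrq, List.length_range, List.map_const',
      List.sum_replicate, smul_eq_mul]
    congr 1
    ring
  have hr := rules_length (mach x) (rg := rgx x) (k / 2 / 2) fun m => by simp [rgx]
  obtain ⟨P, p1, p2, p3⟩ := (mach x).reduce (rgx x) q k (by omega) (by omega) n (q ^ 3) h1 _ rfl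
    (size_bound hr (by rw [hC, hM]) (by omega) h2)
  rw [hrg k (by omega), hrg (k + 2) (by omega), hrq, hbig, p2] at hf
  obtain ⟨b1, b2, b3⟩ := H _ _ (decideWL k P) _ (A.outputsFun P).steps _ hM hf (by
    rw [List.reverse_reverse]
    exact ⟨A.outputsFun P, le_rfl⟩)
  have ha : k / 2 / 2 + k / 2 / 2 ≤ k / 2 := by omega
  have hh : 1 ≤ k / 2 / 2 := by omega
  have f1 : (mach x).nc = nc := by rw [hM]
  have f2 : (mach x).nk = nk := by rw [hM]
  have f3 : (mach x).ng = ng := by rw [hM]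
  have f4 : (mach x).kap = kap := by rw [hM]
  refine ⟨P, p1, ?_⟩
  by_cases hw : WLEquiv k P.2.1 P.2.2
  · obtain ⟨t, ht, hacc⟩ := b2 (by simp [decideWL, hw])
    by_contra hc
    refine p3.1 hw (Mach.complete (t := t) ha hh (hmem _ (by omega))
      (fun t => hmem _ (by omega) _ (f1 ▸ (b1 t).1))
      (fun t κ d => hmem _ (by omega) _ (f3 ▸ (b1 t).2.1 κ d))
      (fun t => hmem _ (by omega) _ (f2 ▸ f4 ▸ (b1 t).2.2))
      hin ?_ (by rw [hacc, hM]))
    rw [List.length_reverse, length_encodeInput, p1] at ht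
    exact time_bound hk (by omega) h1 (not_le.1 hc) ht
  · exfalso
    obtain ⟨u, hu⟩ := not_not.1 (p3.not.1 hw)
    obtain ⟨t, ht⟩ := Mach.sound ha hh (fun i hi => by
      rw [hrg _ (by omega)] at hi; exact List.mem_range.1 hi) hin hu
    exact b3 (by simp [decideWL, hw]) t (by rw [ht, hM])

theorem main : ∃ ε : ℝ, 0 < ε ∧ ∀ k ≥ 2,
    ∀ A : TM2Computable encodeInput Computability.encodeBool (decideWL k),
      ∀ᶠ n : ℕ in atTop, ∃ G H : SimpleGraph (Fin n),
        (n : ℝ) ^ (ε * k) ≤ (A.outputsFun ⟨n, G, H⟩).steps := by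
  obtain ⟨K, hK⟩ := large
  have hK0 : (0 : ℝ) < K + 32 := by positivity
  refine ⟨1 / (K + 32), by positivity, fun k _ A => ?_⟩
  by_cases hk : K + 32 ≤ k
  · filter_upwards [hK k (by omega) A, eventually_ge_atTop 1] with n hn h1
    obtain ⟨⟨m, G, H⟩, rfl, h⟩ := hn
    refine ⟨G, H, le_trans ?_ (Nat.cast_le.2 h)⟩
    rw [Nat.cast_pow, ← Real.rpow_natCast]
    refine Real.rpow_le_rpow_of_exponent_le (by exact_mod_cast h1) ?_
    have h2 : k ≤ 32 * (k / 16) := by omega
    have h3 : (k : ℝ) ≤ 32 * (k / 16 : ℕ) := by exact_mod_cast h2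
    rw [one_div, inv_mul_le_iff₀ hK0]
    have : (0 : ℝ) ≤ K * (k / 16 : ℕ) := by positivity
    linarith
  · filter_upwards [small A, eventually_ge_atTop 1] with n hn h1
    refine ⟨⊥, ⊥, le_trans ?_ (Nat.cast_le.2 (hn ⟨n, ⊥, ⊥⟩ rfl))⟩
    conv_rhs => rw [← Real.rpow_one n]
    refine Real.rpow_le_rpow_of_exponent_le (by exact_mod_cast h1) ?_
    have h3 : (k : ℝ) ≤ K + 32 := by exact_mod_cast (not_le.1 hk).le
    rw [one_div, inv_mul_le_iff₀ hK0]
    linarith

end Vale.Agent.P310
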