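import Vale.Agent.P310.Graph

/-!
Networks of junctions and long wires with compressed addresses.
-/

namespace Vale.Agent.P310

open Function Finset

/-- Blocks of a network. -/
inductive Blk (J Ω F : Type) (k L : ℕ) : Type
  | jun (j : J) (v : Fin k) (s : F)
  | col (ω : Ω) (c : Fin L) (v : Fin k) (s : F)

/-- Variables of a network. -/
inductive Var (J Ω F : Type) (k : ℕ) : Type
  | Y (j : J) (i : Fin 5) (v : Fin k) (s : F)
  | M (ω : Ω) (c : ℕ) (v : Fin k) (s : F)
  | Z (ω : Ω) (c : ℕ) (w : ℕ) (s : F)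

/-- The row structure. -/
structure Rows (k a : ℕ) where
  /-- the group of a row -/
  grp : Fin k → Fin a
  /-- whether row `w` is in the group of row `w - 1` -/
  same : ℕ → Bool
  mono : Monotone grp
  same_iff : ∀ v v' : Fin k, v'.val = v.val + 1 → (same v'.val = true ↔ grp v = grp v')
  two : ∀ l, ∃ v v', v ≠ v' ∧ grp v = l ∧ grp v' = l
  two_le : 2 ≤ k

/-- A network. -/
structure Net (J Ω F : Type) (k a : ℕ) extends Rows k a where
  /-- the junction at an end of a wire -/
  jn : Ω → Bool → J
  /-- the junction bit read by an end -/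
  bit : Ω → Bool → Fin 5
  /-- the address shift at an end -/
  sh : Ω → Bool → Fin a → F
  /-- the cell relation of a junction -/
  R : J → Fin a → F → AddSubgroup Val
  /-- the constant of a junction -/
  c : J → Val

/-- The relation of a column block. -/
def colSub (k : ℕ) (v : ℕ) : AddSubgroup Val where
  carrier := {y | y 0 + y 1 = (if 0 < v then y 2 else 0) + (if v + 1 < k then y 3 else 0)}
  add_mem' := by
    intro y z hy hz
    simp only [Set.mem_ofPred_eq, Pi.add_apply] at *
    rw [add_add_add_comm, hy, hz]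
    split_ifs <;> ring
  zero_mem' := by simp
  neg_mem' := by
    intro y hy
    simpa only [Set.mem_ofPred_eq, Pi.neg_apply, CharTwo.neg_eq] using hy

theorem mem_colSub {k v : ℕ} {y : Val} : y ∈ colSub k v ↔
    y 0 + y 1 = (if 0 < v then y 2 else 0) + (if v + 1 < k then y 3 else 0) := Iff.rfl

theorem telescope {k : ℕ} (y : Fin k → Val) (h : ∀ v : Fin k, y v ∈ colSub k v)
    (hc : ∀ v v' : Fin k, v'.val = v.val + 1 → y v 3 = y v' 2) :
    ∑ v, y v 0 = ∑ v, y v 1 := by
  let z : ℕ → ZMod 2 := fun w => if h : 0 < w ∧ w < k then y ⟨w, h.2⟩ 2 else 0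
  have h1 : ∀ v : Fin k, y v 0 - y v 1 = z (v + 1) - z v := by
    intro v
    rw [CharTwo.sub_eq_add, CharTwo.sub_eq_add, mem_colSub.1 (h v), add_comm]
    congr 1
    · by_cases hv : v.val + 1 < k
      · simp only [z, hv, if_true, and_true, Nat.zero_lt_succ, dif_pos]
        exact hc _ _ rfl
      · simp [z, hv]
    · by_cases hv : 0 < v.val <;> simp [z, hv]
  rw [← sub_eq_zero, ← Finset.sum_sub_distrib, Finset.sum_congr rfl fun v _ => h1 v,
    Fin.sum_univ_eq_sum_range (fun w => z (w + 1) - z w) k, Finset.sum_range_sub]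
  simp [z]

variable {J Ω F : Type} [AddCommGroup F] {k a : ℕ}

theorem Rows.surj (N : Rows k a) (l : Fin a) : ∃ v, N.grp v = l := by
  obtain ⟨v, -, -, h, -⟩ := N.two l
  exact ⟨v, h⟩

open Classical in
theorem Rows.heal (N : Rows k a) (D : Fin k → F → ZMod 2)
    (hD : ∀ u : Fin a → F, ∑ v, D v (u (N.grp v)) = 0) :
    ∃ T : ℕ → F → ZMod 2, ∀ (v : Fin k) s, D v s =
      (if 0 < v.val then T v (if N.same v then s else 0) else 0) +
      (if v.val + 1 < k then T (v + 1) (if N.same (v + 1) then s else 0) else 0) := by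
  refine ⟨fun w s => ∑ v' : Fin k, if v'.val < w then
    D v' (if ∃ h : w < k, N.grp v' = N.grp ⟨w, h⟩ then s else 0) else 0, fun v s => ?_⟩
  let u : Fin a → F := fun l => if l = N.grp v then s else 0
  let A : ℕ → ZMod 2 := fun w => ∑ v' : Fin k, if v'.val < w then D v' (u (N.grp v')) else 0
  have hA : A (v + 1) = A v + D v s := by
    have : D v s = ∑ v' : Fin k, if v' = v then D v' (u (N.grp v')) else 0 := by simp [u]
    rw [this, ← Finset.sum_add_distrib]
    refine Finset.sum_congr rfl fun v' _ => ?_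
    rcases lt_trichotomy v'.val v.val with h | h | h
    · have : v' ≠ v := fun e => by subst e; omega
      simp [this, h, h.le]
    · have : v' = v := Fin.ext h
      subst this; simp
    · have : v' ≠ v := fun e => by subst e; omega
      have h1 : ¬ v'.val < v.val + 1 := by omega
      have h2 : ¬ v'.val < v.val := by omega
      simp only [this, h1, h2, if_false, add_zero]
  have e : D v s = A v + A (v + 1) := by
    rw [hA, ← add_assoc, CharTwo.add_self_eq_zero, zero_add]
  rw [e]
  congr 1
  · split_ifs with h0 hs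
    · refine Finset.sum_congr rfl fun v' _ => ?_
      simp [u]
    · refine Finset.sum_congr rfl fun v' _ => ?_
      split_ifs with h1 h2
      · exfalso
        have h3 := (N.same_iff ⟨v.val - 1, by omega⟩ v (by simp; omega)).not.1 hs
        have h4 : N.grp v' ≤ N.grp ⟨v.val - 1, by omega⟩ := N.mono (by rw [Fin.le_def]; simp; omega)
        have h5 : N.grp ⟨v.val - 1, by omega⟩ ≤ N.grp v := N.mono (by rw [Fin.le_def]; simp)
        obtain ⟨_, h2⟩ := h2
        exact h3 (le_antisymm h5 (h2 ▸ h4))
      · have : N.grp v' ≠ N.grp v := fun e => h2 ⟨v.2, e⟩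
        simp [u, this]
      · rfl
    · refine Finset.sum_eq_zero fun v' _ => ?_
      rw [if_neg (by omega)]
  · split_ifs with h0 hs
    · have h3 := (N.same_iff v ⟨v + 1, h0⟩ rfl).1 hs
      refine Finset.sum_congr rfl fun v' _ => ?_
      simp [u, h0, h3]
    · have h3 := (N.same_iff v ⟨v + 1, h0⟩ rfl).not.1 hs
      have split : ∀ u' : Fin a → F, (∑ v' : Fin k, if v'.val < v + 1 then D v' (u' (N.grp v')) else 0)
          = ∑ v' : Fin k, if v'.val < v + 1 then 0 else D v' (u' (N.grp v')) := by
        intro u'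
        rw [← sub_eq_zero, CharTwo.sub_eq_add, ← Finset.sum_add_distrib]
        refine Eq.trans (Finset.sum_congr rfl fun v' _ => ?_) (hD u')
        split_ifs <;> simp
      have e1 := split u
      have e2 := split 0
      simp only [Pi.zero_apply] at e2
      simp only [ite_self]
      rw [e2]
      refine e1.trans (Finset.sum_congr rfl fun v' _ => ?_)
      split_ifs with h1
      · rfl
      · have h4 : N.grp ⟨v + 1, h0⟩ ≤ N.grp v' := N.mono (by rw [Fin.le_def]; simp; omega)
        have h5 : N.grp v ≤ N.grp ⟨v + 1, h0⟩ := N.mono (by rw [Fin.le_def]; simp)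
        have : N.grp v' ≠ N.grp v := fun e => h3 (le_antisymm h5 (e ▸ h4))
        simp [u, this]
    · rw [← hD u]
      refine Finset.sum_congr rfl fun v' _ => ?_
      rw [if_pos (by omega)]

omit [AddCommGroup F] in
open Classical in
theorem Rows.sum_sel (N : Rows k a) {M : Type} [AddCommMonoid M] (η : Fin a → F → M)
    (ρ : Fin a → F → Fin k) (hρ : ∀ l s, N.grp (ρ l s) = l) (u : Fin a → F) :
    ∑ v, (if v = ρ (N.grp v) (u (N.grp v)) then η (N.grp v) (u (N.grp v)) else 0) =
      ∑ l, η l (u l) := by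
  have : ∀ l, η l (u l) = ∑ v, if v = ρ l (u l) then η l (u l) else 0 := by simp
  rw [Finset.sum_congr rfl fun l _ => this l, Finset.sum_comm]
  refine Finset.sum_congr rfl fun v _ => ?_
  rw [Finset.sum_eq_single (N.grp v)]
  · intro l _ hl
    rw [if_neg]
    rintro rfl
    exact hl (hρ _ _).symm
  · simp

omit [AddCommGroup F] in
theorem Rows.uniq (N : Rows k a) {β T : Type} {S : Finset β} (hS : S.card ≤ k + 1)
    (h : β → T × Fin k × F) {j j' : T} {u u' : Fin a → F}
    (H : ∀ v, ∃ b ∈ S, h b = (j, v, u (N.grp v)))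
    (H' : ∀ v, ∃ b ∈ S, h b = (j', v, u' (N.grp v))) : j = j' ∧ u = u' := by
  classical
  by_contra hn
  obtain ⟨v1, v2, h12, h1, h2⟩ : ∃ v1 v2 : Fin k, v1 ≠ v2 ∧
      (j', u' (N.grp v1)) ≠ (j, u (N.grp v1)) ∧ (j', u' (N.grp v2)) ≠ (j, u (N.grp v2)) := by
    by_cases hj : j = j'
    · obtain ⟨l, hl⟩ : ∃ l, u l ≠ u' l := by
        by_contra hc
        push Not at hc
        exact hn ⟨hj, funext hc⟩
      obtain ⟨v, v', h1, h2, h3⟩ := N.two l
      refine ⟨v, v', h1, ?_, ?_⟩
      · simp [h2, hl.symm]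
      · simp [h3, hl.symm]
    · have := N.two_le
      refine ⟨⟨0, by omega⟩, ⟨1, by omega⟩, by simp, ?_, ?_⟩ <;> simp [Ne.symm hj]
  let A : Finset (T × Fin k × F) := univ.image fun v => (j, v, u (N.grp v))
  have hA : A.card = k := by
    rw [card_image_of_injective _ fun v v' e => by simpa using congrArg (fun p => p.2.1) e]
    simp
  have hn : ∀ v, (j', u' (N.grp v)) ≠ (j, u (N.grp v)) → (j', v, u' (N.grp v)) ∉ A := by
    intro v hv hm
    obtain ⟨v', -, e⟩ := mem_image.1 hm
    simp only [Prod.mk.injEq] at e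
    obtain ⟨rfl, rfl, e⟩ := e
    exact hv (by rw [e])
  have hsub : insert (j', v1, u' (N.grp v1)) (insert (j', v2, u' (N.grp v2)) A) ⊆ S.image h := by
    intro x hx
    simp only [mem_insert, A, mem_image, mem_univ, true_and] at hx ⊢
    rcases hx with rfl | rfl | ⟨v, rfl⟩
    exacts [H' _, H' _, H _]
  have := card_le_card hsub
  rw [card_insert_of_notMem (by simp [h12, hn _ h1]), card_insert_of_notMem (hn _ h2), hA] at this
  have := card_image_le (s := S) (f := h)
  omega

theorem all_of_block {β : Type} {S : Finset β} (hS : S.card ≤ k) (Q : β → Fin k → Prop)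
    (hQ : ∀ b v v', Q b v → Q b v' → v = v') (H : ∀ v, ∃ b ∈ S, Q b v) : ∀ b ∈ S, ∃ v, Q b v := by
  classical
  choose f hf hf' using H
  have hi : Injective f := fun v v' e => hQ _ _ _ (hf' v) (e ▸ hf' v')
  have : univ.image f = S := by
    refine eq_of_subset_of_card_le (fun x hx => ?_) (by rw [card_image_of_injective _ hi]; simpa)
    obtain ⟨v, -, rfl⟩ := mem_image.1 hx
    exact hf v
  intro b hb
  rw [← this] at hb
  obtain ⟨v, -, rfl⟩ := mem_image.1 hb
  exact ⟨v, hf' v⟩

omit [AddCommGroup F] in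
theorem Rows.free_row (N : Rows k a) (Q : Fin k → F → Prop)
    (H : ¬ ∃ u : Fin a → F, ∀ v, Q v (u (N.grp v))) :
    ∃ l, ∀ s, ∃ v, N.grp v = l ∧ ¬ Q v s := by
  by_contra hn
  push Not at hn
  choose u hu using hn
  exact H ⟨u, fun v => hu _ v rfl⟩

omit [AddCommGroup F] in
open Classical in
/-- A constant class can be placed on free cells. -/
theorem Rows.const_free (N : Rows k a) {M : Type} [AddCommMonoid M] (ξ : M) (Q : Fin k → F → Prop)
    (H : ¬ ∃ u : Fin a → F, ∀ v, Q v (u (N.grp v))) :
    ∃ e : Fin k → F → M, (∀ v s, e v s = ξ ∨ e v s = 0) ∧ (∀ v s, Q v s → e v s = 0) ∧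
      ∀ u : Fin a → F, ∑ v, e v (u (N.grp v)) = ξ := by
  obtain ⟨l, hl⟩ := N.free_row Q H
  choose ρ hρ hρ' using hl
  refine ⟨fun v s => if v = ρ s then ξ else 0, fun v s => ?_, fun v s h => ?_, fun u => ?_⟩
  · beta_reduce
    split_ifs <;> simp
  · beta_reduce
    rw [if_neg]
    rintro rfl
    exact hρ' _ h
  · rw [Finset.sum_eq_single (ρ (u l))]
    · simp [hρ]
    · intro v _ hv
      beta_reduce
      rw [if_neg]
      intro e
      have : N.grp v = l := by rw [e, hρ]
      rw [this] at e
      exact hv e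
    · simp

namespace Net

variable (N : Net J Ω F k a) (L : ℕ)

/-- The variable of a wire layer. -/
def layer (ω : Ω) (c : ℕ) (v : Fin k) (s : F) : Var J Ω F k :=
  if c = 0 then .Y (N.jn ω false) (N.bit ω false) v (s + N.sh ω false (N.grp v))
  else if c = L then .Y (N.jn ω true) (N.bit ω true) v (s + N.sh ω true (N.grp v))
  else .M ω c v s

/-- The link variable between rows `w - 1` and `w`. -/
def link (ω : Ω) (c w : ℕ) (s : F) : Var J Ω F k := .Z ω c w (if N.same w then s else 0)

/-- The block system of a network. -/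
def sys : Sys (Blk J Ω F k L) (Var J Ω F k) where
  var
    | .jun j v s => fun i => .Y j i v s
    | .col ω c v s => ![N.layer L ω c v s, N.layer L ω (c + 1) v s, N.link ω c v s,
        N.link ω c (v + 1) s, N.link ω c (v + 1) s]
  sub
    | .jun j v s => N.R j (N.grp v) s
    | .col _ _ v _ => colSub k v
  cst
    | .jun j v _ => if v.val = 0 then N.c j else 0
    | .col _ _ _ _ => 0

/-- Patterns realizable at a junction and an address. -/
def U (j : J) (u : Fin a → F) (π : Val) : Prop :=
  ∃ y : Fin k → Val, (∀ v, y v + (if v.val = 0 then N.c j else 0) ∈ N.R j (N.grp v) (u (N.grp v))) ∧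
    π = ∑ v, y v

/-- Arc consistency of a family of patterns. -/
def AC (P : Ω → Prop) (Safe : J → (Fin a → F) → Val → Prop) : Prop :=
  ∀ ω, P ω → ∀ σ u π, Safe (N.jn ω σ) (u + N.sh ω σ) π →
    ∃ π', Safe (N.jn ω !σ) (u + N.sh ω !σ) π' ∧ π' (N.bit ω !σ) = π (N.bit ω σ)

end Net

end Vale.Agent.P310
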