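import Vale.Agent.P310.Tableau

/-!
The reduction as a function on numbers and lists.
-/

namespace Vale.Agent.P310

/-- Description of a block: variable names, kind and two flags. -/
abbrev Desc : Type := List (List ℕ) × ℕ × ℕ × ℕ

/-- Description of a vertex. -/
abbrev NV : Type := ℕ × ℕ × List ℕ × Desc

/-- The group of a row. -/
def gN (a v : ℕ) : ℕ := if v / 2 < a - 1 then v / 2 else a - 1

/-- Addition modulo `q`. -/
def addq (q s d : ℕ) : ℕ := if s + d < q then s + d else s + d - q

/-- Test for the two special predicates. -/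
def isP (p : P3) (a : ℕ) : Bool := decide (p.1 = a) && decide (p.2.1 = 0) && decide (p.2.2 = 0)

/-- Name of a junction variable. -/
def yN (j : ℕ × P3) (i v s : ℕ) : List ℕ := [0, i, v, s, j.1, j.2.1, j.2.2.1, j.2.2.2]

/-- Description of a junction block. -/
def junD (j : ℕ × P3) (t : Bool) (v s : ℕ) : Desc :=
  ([yN j 0 v s, yN j 1 v s, yN j 2 v s, yN j 3 v s, yN j 4 v s],
    if j.1 = 0 then (if isP j.2 0 || isP j.2 1 then 1 else 0) else (if t then 2 else 3),
    if j.1 = 0 then (if v = 0 then (if isP j.2 1 then 1 else 0) else 0) else 0, 0)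

/-- The junction at the left end of a wire. -/
def jn0 (ρ : ℕ) (r : RT) (w : ℕ) : ℕ × P3 :=
  if w = 0 then (0, r.2.1) else if w = 1 then (0, r.2.2.1) else (1, ρ, 0, 0)

/-- The junction at the right end of a wire. -/
def jn1 (ρ : ℕ) (r : RT) (w : ℕ) : ℕ × P3 := if w = 3 then (0, r.1) else (1, ρ, 0, 0)

/-- Name of a layer variable. -/
def layN (q k ρ : ℕ) (r : RT) (w c v s : ℕ) : List ℕ :=
  if c = 0 then yN (jn0 ρ r w) ([0, 0, 2, 4].getD w 0) v
    (if w = 0 then addq q s (shN q (k / 2 / 2) r.2.2.2.1 r.2.2.2.2 (gN (k / 2) v)) else s)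
  else if c = k + 2 then yN (jn1 ρ r w) ([0, 1, 3, 0].getD w 0) v s
  else [1, ρ, w, c, v, s]

/-- Name of a link variable. -/
def lnkN (k ρ w c v s : ℕ) : List ℕ :=
  [2, ρ, w, c, v, if gN (k / 2) (v - 1) = gN (k / 2) v then s else 0]

/-- Description of a column block. -/
def colD (q k ρ : ℕ) (r : RT) (w c v s : ℕ) : Desc :=
  ([layN q k ρ r w c v s, layN q k ρ r w (c + 1) v s, lnkN k ρ w c v s, lnkN k ρ w c (v + 1) s,
    lnkN k ρ w c (v + 1) s], 4, if 0 < v then 1 else 0, if v + 1 < k then 1 else 0)

/-- A range as long as a list. -/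
def rgl {α : Type} (l : List α) : List ℕ := List.range l.length

/-- The blocks of one wire at one cell. -/
def cellD (q k : ℕ) (inp lL : List ℕ) (ρ : ℕ) (r : RT) (v s w : ℕ) : List Desc :=
  [junD (jn0 ρ r w) (tstN q (k / 2 / 2) inp r.2.2.2.1 r.2.2.2.2 (gN (k / 2) v) s) v s,
    junD (jn1 ρ r w) (tstN q (k / 2 / 2) inp r.2.2.2.1 r.2.2.2.2 (gN (k / 2) v) s) v s]
  ++ lL.map fun c => colD q k ρ r w c v s

/-- All block descriptions. -/
def descs (q k : ℕ) (inp lk lq lL : List ℕ) (rs : List RT) : List Desc :=
  (rgl rs).flatMap fun ρ => lk.flatMap fun v => lq.flatMap fun s => [0, 1, 2, 3].flatMap fun w =>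
    cellD q k inp lL ρ (rs.getD ρ ((0, 0, 0), (0, 0, 0), (0, 0, 0), 0, 0)) v s w

/-- Parity test. -/
def par (n : ℕ) : Bool := decide (n / 2 * 2 = n)

/-- Validity of a value. -/
def validN (τ : ℕ) (d : Desc) (y : List ℕ) : Bool :=
  if d.2.1 = 0 then true
  else if d.2.1 = 1 then par (y.getD 0 0 + τ * d.2.2.1)
  else if d.2.1 = 2 then par (y.getD 4 0 + (y.getD 2 0 + y.getD 3 0)) &&
    par (y.getD 2 0 + (y.getD 0 0 + y.getD 1 0))
  else if d.2.1 = 3 then par (y.getD 4 0 + (y.getD 2 0 + y.getD 3 0))
  else par (y.getD 0 0 + y.getD 1 0 + (d.2.2.1 * y.getD 2 0 + d.2.2.2 * y.getD 3 0))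

/-- Equality of words. -/
def eqw (l m : List ℕ) : Bool := decide (l = m)

/-- The number of markers joined to a vertex. -/
def mkN (τ nb : ℕ) (a : NV) : ℕ :=
  (2 * a.2.1 + 1 + if validN τ a.2.2.2 a.2.2.1 then 1 else 0) * (32 * nb + 1)

/-- Adjacency. -/
def adjN (τ nb : ℕ) (a b : NV) : Bool :=
  if a.1 = 0 then
    (if b.1 = 0 then !decide (a.2.1 = b.2.1) && [0, 1, 2, 3, 4].all fun p => [0, 1, 2, 3, 4].all
      fun p' => !eqw (a.2.2.2.1.getD p []) (b.2.2.2.1.getD p' []) ||
        par (a.2.2.1.getD p 0 + b.2.2.1.getD p' 0)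
    else decide (b.2.1 < mkN τ nb a))
  else (if b.1 = 0 then decide (a.2.1 < mkN τ nb b) else false)

/-- The bits of a value. -/
def bitsOf (y : Val) : List ℕ := [(y 0).val, (y 1).val, (y 2).val, (y 3).val, (y 4).val]

/-- All values. -/
noncomputable def allVal : List Val := Finset.univ.toList

/-- All vertices. -/
noncomputable def verts (ds : List Desc) (lm : List ℕ) : List NV :=
  ((rgl ds).flatMap fun b => (allVal.map bitsOf).map fun y => (0, b, y, ds.getD b ([], 0, 0, 0)))
  ++ lm.map fun j => (1, j, [], [], 0, 0, 0)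

/-- The adjacency matrix. -/
def matN (τ nb : ℕ) (vs : List NV) : List Bool := vs.flatMap fun a => vs.map fun b => adjN τ nb a b

/-- Both adjacency matrices. -/
noncomputable def outN (ds : List Desc) (n : ℕ) (big : List ℕ) : List Bool :=
  matN 0 ds.length (verts ds (big.take (n - 32 * ds.length))) ++
    matN 1 ds.length (verts ds (big.take (n - 32 * ds.length)))

theorem par_iff (n : ℕ) : par n = true ↔ (n : ZMod 2) = 0 := by
  rw [par, decide_eq_true_iff, ZMod.natCast_eq_zero_iff_even, Nat.even_iff]
  omega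

theorem add_zero_iff (x y : ZMod 2) : x + y = 0 ↔ x = y := by
  revert x y; decide

theorem getD_bitsOf (y : Val) (i : Fin 5) : (((bitsOf y).getD i 0 : ℕ) : ZMod 2) = y i := by
  fin_cases i <;> simp [bitsOf]

section graph

variable {B W : Type} (S : Sys B W) (blocks : List B) (b0 : B) (desc : B → Desc) (enc : W → List ℕ)

theorem wl_comap {k : ℕ} {V V' : Type} [Fintype V] [Fintype V'] [Nonempty V] (e : V ≃ V')
    (G : SimpleGraph V') : WLEquiv k (G.comap e) G := by
  refine wl_of_rel (R := fun x y => y = e ∘ x) ?_ ?_ ⟨fun _ => Classical.arbitrary V, _, rfl⟩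
  · rintro x _ rfl i j
    exact ⟨by simp, Iff.rfl⟩
  · rintro x _ rfl
    exact ⟨e, fun v i => (Function.comp_update _ _ _ _).symm⟩

theorem out_spec (henc : Function.Injective enc)
    (h1 : ∀ b (i : Fin 5), (desc b).1.getD i [] = enc (S.var b i))
    (h2 : ∀ (τ : Bool) b y, validN τ.toNat (desc b) (bitsOf y) = true ↔ S.valid τ b y)
    (n : ℕ) (hn : 32 * blocks.length < n) (big : List ℕ) (N : ℕ) (hbig : big = List.range N)
    (hN : n ≤ N) (k : ℕ) :
    ∃ p : Input, p.1 = n ∧ outN (blocks.map desc) n big = encodeInput p ∧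
      (WLEquiv k p.2.1 p.2.2 ↔
        WLEquiv k (S.graph false blocks.length (n - 32 * blocks.length) fun m => blocks.getD m b0)
          (S.graph true blocks.length (n - 32 * blocks.length) fun m => blocks.getD m b0)) := by
  classical
  set nb := blocks.length with hnb
  set R := n - 32 * nb with hR
  let avl : List (Vtx nb R) :=
    ((List.finRange nb).flatMap fun b => allVal.map fun y => .inl (b, y)) ++
      (List.finRange R).map .inr
  have hlen : avl.length = n := by
    have : allVal.length = 32 := by simp [allVal]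
    simp [avl, List.length_flatMap, this]
    omega
  have hbij : Function.Bijective avl.get := by
    rw [Fintype.bijective_iff_surjective_and_card]
    refine ⟨fun v => List.mem_iff_get.1 ?_, ?_⟩
    · rcases v with ⟨b, y⟩ | j <;> simp [avl, allVal]
    · simp only [Fintype.card_fin, hlen, Fintype.card_sum, Fintype.card_prod, card_val]
      omega
  let e := Equiv.ofBijective _ hbij
  let nv : Vtx nb R → NV := fun v => match v with
    | .inl p => (0, p.1, bitsOf p.2, desc (blocks.getD p.1 b0))
    | .inr j => (1, j, [], [], 0, 0, 0)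
  have hv : verts (blocks.map desc) (big.take (n - 32 * (blocks.map desc).length)) = avl.map nv := by
    simp only [verts, avl, List.map_append, List.map_flatMap, List.map_map, rgl, List.length_map,
      hbig, List.take_range, ← hnb, ← hR, min_eq_left (show R ≤ N by omega)]
    congr 1
    · rw [← List.map_coe_finRange_eq_range, List.flatMap_map]
      refine List.flatMap_congr fun b _ => List.map_congr_left fun y _ => ?_
      simp [nv, List.getElem?_eq_getElem (show b.val < blocks.length from b.2)]
    · rw [← List.map_coe_finRange_eq_range, List.map_map]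
      rfl
  have hadj : ∀ (τ : Bool) a b, adjN τ.toNat nb (nv a) (nv b) =
      decide ((S.graph τ nb R fun m => blocks.getD m b0).Adj a b) := by
    intro τ a b
    have hm : ∀ p : Fin nb × Val, mkN τ.toNat nb (nv (.inl p)) =
        S.mk' τ nb (fun m => blocks.getD m b0) p.1 p.2 := by
      intro p
      simp only [mkN, nv, Sys.mk', h2]
    rw [Bool.eq_iff_iff, decide_eq_true_iff]
    rcases a with a | a <;> rcases b with b | b
    · have hall : ∀ P : ℕ → Bool, [0, 1, 2, 3, 4].all P = true ↔ ∀ i : Fin 5, P i = true := by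
        intro P
        simp [Fin.forall_fin_succ]
      simp only [adjN, nv, if_true, Bool.and_eq_true, hall, Bool.or_eq_true, h1, par_iff,
        Nat.cast_add, getD_bitsOf, add_zero_iff, eqw, Bool.not_eq_true', decide_eq_false_iff_not,
        henc.eq_iff, Fin.val_inj, ← imp_iff_not_or]
      rfl
    · simp only [adjN, hm]; simp [nv, Sys.graph, Sys.adj]
    · simp only [adjN, hm]; simp [nv, Sys.graph, Sys.adj]
    · simp [adjN, nv, Sys.graph, Sys.adj]
  have hmat : ∀ τ : Bool, matN τ.toNat nb (avl.map nv) =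
      adjBits ((S.graph τ nb R fun m => blocks.getD m b0).comap e) := by
    intro τ
    have : avl = (List.finRange avl.length).map e := (List.map_get_finRange avl).symm
    rw [matN, adjBits]
    conv_lhs => rw [this]
    simp only [List.map_map, List.flatMap_map, Function.comp_def, hadj, SimpleGraph.comap_adj]
  have : Nonempty (Fin avl.length) := ⟨⟨0, by omega⟩⟩
  refine ⟨⟨avl.length, (S.graph false nb R fun m => blocks.getD m b0).comap e,
    (S.graph true nb R fun m => blocks.getD m b0).comap e⟩, hlen, ?_, ?_⟩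
  · rw [outN, hv, List.length_map]
    exact congrArg₂ (· ++ ·) (hmat false) (hmat true)
  · have a1 := wl_comap (k := k) e (S.graph false nb R fun m => blocks.getD m b0)
    have a2 := wl_comap (k := k) e (S.graph true nb R fun m => blocks.getD m b0)
    exact forall_congr' fun r => by rw [a1 r, a2 r]

end graph

end Vale.Agent.P310
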