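import Vale.Agent.P310.Num

/-!
Correctness of the reduction.
-/

namespace Vale.Agent.P310

open Function

/-- The row structure: pairs of rows, the last group may have three rows. -/
def rows (k : ℕ) (hk : 2 ≤ k) : Rows k (k / 2) where
  grp := fun v => ⟨gN (k / 2) v, by unfold gN; split_ifs <;> omega⟩
  same := fun w => decide (gN (k / 2) (w - 1) = gN (k / 2) w)
  mono := fun v v' h => by
    have : v.val ≤ v'.val := h
    simp only [Fin.le_def, gN]
    split_ifs <;> omega
  same_iff := fun v v' e => by simp [e]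
  two := fun l => by
    have := l.2
    refine ⟨⟨2 * l, by omega⟩, ⟨2 * l + 1, by omega⟩, by simp, Fin.ext ?_, Fin.ext ?_⟩ <;>
      simp only [gN] <;> split_ifs <;> omega
  two_le := hk

/-- Junction names. -/
def encJ {nr : ℕ} : P3 ⊕ Fin nr → ℕ × P3
  | .inl p => (0, p)
  | .inr ρ => (1, ρ, 0, 0)

theorem encJ_inj {nr : ℕ} : Injective (encJ (nr := nr)) := by
  rintro (p | ρ) (p' | ρ') <;> simp [encJ, Fin.ext_iff]

/-- Variable names. -/
def encV {nr q k : ℕ} : Var (P3 ⊕ Fin nr) (Fin nr × Fin 4) (Fin q) k → List ℕ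
  | .Y j i v s => yN (encJ j) i v s
  | .M ω c v s => [1, ω.1, ω.2, c, v, s]
  | .Z ω c w s => [2, ω.1, ω.2, c, w, s]

theorem encV_inj {nr q k : ℕ} : Injective (encV (nr := nr) (q := q) (k := k)) := by
  rintro (⟨j, i, v, s⟩ | ⟨ω, c, v, s⟩ | ⟨ω, c, v, s⟩)
    (⟨j', i', v', s'⟩ | ⟨ω', c', v', s'⟩ | ⟨ω', c', v', s'⟩) <;>
    simp only [encV, yN, List.cons.injEq, Fin.val_inj, and_true, true_and, Nat.reduceEqDiff,
      false_and, false_imp_iff, Var.Y.injEq, Var.M.injEq, Var.Z.injEq, and_imp, reduceCtorEq]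
  · intro h1 h2 h3 h4 h5 h6 h7
    exact ⟨encJ_inj (Prod.ext h4 (Prod.ext h5 (Prod.ext h6 h7))), h1, h2, h3⟩
  · intro h1 h2 h3 h4 h5
    exact ⟨Prod.ext h1 h2, h3, h4, h5⟩
  · intro h1 h2 h3 h4 h5
    exact ⟨Prod.ext h1 h2, h3, h4, h5⟩

theorem isP_iff (p : P3) (a : ℕ) : isP p a = true ↔ p = (a, 0, 0) := by
  simp [isP, Prod.ext_iff, and_assoc]

theorem shN_lt {q : ℕ} (hq : 2 ≤ q) (h m i l : ℕ) : shN q h m i l < q := by
  unfold shN
  split_ifs <;> omega

theorem val_add_shV {q : ℕ} [NeZero q] (hq : 2 ≤ q) {a : ℕ} (h m i : ℕ) (l : Fin a) (s : Fin q) :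
    (s + shV q a h m i l).val = addq q s (shN q h m i l) := by
  have h1 := shN_lt hq h m i l
  have h2 := s.2
  rw [Fin.val_add, shV, Fin.val_ofNat, Nat.mod_eq_of_lt h1, addq]
  split_ifs with h3
  · exact Nat.mod_eq_of_lt h3
  · rw [Nat.mod_eq_sub_mod (by omega), Nat.mod_eq_of_lt (by omega)]

variable (M : Mach) (rg : ℕ → List ℕ) (q k : ℕ) [NeZero q] (hk : 2 ≤ k)

/-- The network of a machine. -/
noncomputable def Mach.net := (M.horn rg q (k / 2) (k / 2 / 2)).net (rows k hk)

/-- Descriptions of blocks. -/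
def Mach.desc : Blk (P3 ⊕ Fin (M.rules rg (k / 2 / 2)).length)
    (Fin (M.rules rg (k / 2 / 2)).length × Fin 4) (Fin q) k (k + 2) → Desc
  | .jun (.inl p) v s => junD (0, p) false v s
  | .jun (.inr ρ) v s => junD (1, ρ, 0, 0) (tstN q (k / 2 / 2) M.inp
      ((M.rules rg (k / 2 / 2)).get ρ).2.2.2.1 ((M.rules rg (k / 2 / 2)).get ρ).2.2.2.2
      (gN (k / 2) v) s) v s
  | .col ω c v s => colD q k ω.1 ((M.rules rg (k / 2 / 2)).get ω.1) ω.2 c v s

theorem Mach.desc_var (hq : 2 ≤ q) (b) (i : Fin 5) :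
    (M.desc rg q k b).1.getD i [] = encV (((M.net rg q k hk).sys (k + 2)).var b i) := by
  rcases b with ⟨p | ρ, v, s⟩ | ⟨⟨ρ, w⟩, c, v, s⟩
  · fin_cases i <;> rfl
  · fin_cases i <;> rfl
  · have h1 : ∀ c, layN q k ρ ((M.rules rg (k / 2 / 2)).get ρ) w c v s =
        encV ((M.net rg q k hk).layer (k + 2) (ρ, w) c v s) := by
      intro c
      unfold layN Net.layer
      by_cases h0 : c = 0
      · rw [if_pos h0, if_pos h0]
        fin_cases w
        · exact congrArg (yN _ _ _) (val_add_shV hq _ _ _ ((rows k hk).grp v) s).symm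
        all_goals simp [encV, Mach.net, Horn.net, Mach.horn, jn0, encJ]
      · rw [if_neg h0, if_neg h0]
        split_ifs
        · fin_cases w <;> simp [encV, Mach.net, Horn.net, Mach.horn, jn1, encJ]
        · rfl
    have h2 : ∀ u, lnkN k ρ w c u s = encV ((M.net rg q k hk).link (ρ, w) c u s) := by
      intro u
      simp only [lnkN, Net.link, encV, Mach.net, Horn.net, rows, decide_eq_true_eq]
      split_ifs <;> rfl
    fin_cases i
    exacts [h1 c, h1 (c + 1), h2 v, h2 (v + 1), h2 (v + 1)]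

theorem Mach.desc_valid (τ : Bool) (b) (y : Val) :
    validN τ.toNat (M.desc rg q k b) (bitsOf y) = true ↔
      ((M.net rg q k hk).sys (k + 2)).valid τ b y := by
  have e0 := getD_bitsOf y 0
  have e1 := getD_bitsOf y 1
  have e2 := getD_bitsOf y 2
  have e3 := getD_bitsOf y 3
  have e4 := getD_bitsOf y 4
  simp only [Fin.coe_ofNat_eq_mod, Nat.reduceMod] at e0 e1 e2 e3 e4
  rcases b with ⟨p | ρ, v, s⟩ | ⟨⟨ρ, w⟩, c, v, s⟩
  · simp only [Mach.desc, junD, validN, if_true, Bool.or_eq_true, isP_iff, Sys.valid, Net.sys,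
      Mach.net, Horn.net, Mach.horn, Horn.mem_predSub]
    by_cases h1 : p = (1, 0, 0)
    · subst h1
      by_cases hv : v.val = 0 <;> cases τ <;> simp [hv, par_iff, -List.getD_eq_getElem?_getD, e0]
    · by_cases h0 : p = (0, 0, 0)
      · subst h0
        cases τ <;> simp [par_iff, -List.getD_eq_getElem?_getD, e0]
      · simp [h0, h1]
  · simp only [Mach.desc, junD, validN, Sys.valid, Net.sys, Mach.net, Horn.net, Mach.horn,
      Horn.mem_ruleSub, ite_self, add_zero, rows]
    generalize tstN _ _ _ _ _ _ _ = t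
    cases t <;> simp [par_iff, -List.getD_eq_getElem?_getD, e0, e1, e2, e3, e4, add_zero_iff]
  · simp only [Mach.desc, colD, validN, Sys.valid, Net.sys, ite_self, add_zero, mem_colSub]
    simp only [Nat.reduceEqDiff, if_false, par_iff, Nat.cast_add, e0, e1, e2, e3,
      add_zero_iff, Nat.cast_ite, Nat.cast_zero, ite_mul, one_mul, zero_mul]

/-- The list of blocks. -/
noncomputable def Mach.blocks : List (Blk (P3 ⊕ Fin (M.rules rg (k / 2 / 2)).length)
    (Fin (M.rules rg (k / 2 / 2)).length × Fin 4) (Fin q) k (k + 2)) :=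
  (List.finRange _).flatMap fun ρ => (List.finRange k).flatMap fun v =>
    (List.finRange q).flatMap fun s => (List.finRange 4).flatMap fun w =>
      [.jun ((M.net rg q k hk).jn (ρ, w) false) v s, .jun ((M.net rg q k hk).jn (ρ, w) true) v s]
      ++ (List.finRange (k + 2)).map fun c => .col (ρ, w) c v s

theorem Mach.blocks_length : (M.blocks rg q k hk).length =
    (M.rules rg (k / 2 / 2)).length * (k * (q * (4 * (k + 4)))) := by
  simp [Mach.blocks, List.length_flatMap]
  omega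

theorem junD_pred (p : P3) (t : Bool) (v s : ℕ) : junD (0, p) t v s = junD (0, p) false v s := by
  simp [junD]

theorem Mach.blocks_desc : (M.blocks rg q k hk).map (M.desc rg q k) =
    descs q k M.inp (List.range k) (List.range q) (List.range (k + 2))
      (M.rules rg (k / 2 / 2)) := by
  have e4 : [0, 1, 2, 3] = (List.finRange 4).map Fin.val := rfl
  simp only [Mach.blocks, descs, rgl, e4, ← List.map_coe_finRange_eq_range, List.map_flatMap,
    List.flatMap_map, cellD, List.map_append, List.map_map]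
  refine List.flatMap_congr fun ρ _ => List.flatMap_congr fun v _ => List.flatMap_congr fun s _ =>
    List.flatMap_congr fun w _ => ?_
  have e : (M.rules rg (k / 2 / 2)).getD ρ ((0, 0, 0), (0, 0, 0), (0, 0, 0), 0, 0) =
      (M.rules rg (k / 2 / 2)).get ρ := List.getD_eq_getElem _ _ ρ.2
  rw [e]
  congr 1
  fin_cases w <;> simp [Mach.net, Horn.net, Mach.horn, Mach.desc, jn0, jn1, junD_pred]

include hk in
theorem Mach.reduce (hq : 2 ≤ q) (n N : ℕ) (hN : n ≤ N) (nb : ℕ)
    (hnb : nb = (M.rules rg (k / 2 / 2)).length * (k * (q * (4 * (k + 4)))))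
    (hn : 32 * nb + (2 * nb + 1) * (32 * nb + 1) ≤ n) :
    ∃ p : Input, p.1 = n ∧ outN (descs q k M.inp (List.range k) (List.range q)
      (List.range (k + 2)) (M.rules rg (k / 2 / 2))) n (List.range N) = encodeInput p ∧
      (WLEquiv k p.2.1 p.2.2 ↔ ¬ ∃ u, (M.horn rg q (k / 2) (k / 2 / 2)).Der (1, 0, 0) u) := by
  have hl := M.blocks_length rg q k hk
  rw [← hnb] at hl
  obtain ⟨p, h1, h2, h3⟩ := out_spec ((M.net rg q k hk).sys (k + 2)) (M.blocks rg q k hk)
    (.jun (.inl (0, 0, 0)) ⟨0, by omega⟩ 0) (M.desc rg q k) encV encV_inj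
    (M.desc_var rg q k hk hq) (M.desc_valid rg q k hk) n (by rw [hl]; nlinarith) _ N rfl hN k
  rw [M.blocks_desc] at h2
  refine ⟨p, h1, h2, h3.trans ⟨?_, fun h => ?_⟩⟩
  · rintro h ⟨u, hu⟩
    have key : ∀ b ∈ M.blocks rg q k hk, ∃ m < (M.blocks rg q k hk).length,
        (M.blocks rg q k hk).getD m (.jun (.inl (0, 0, 0)) ⟨0, by omega⟩ 0) = b := by
      intro b hb
      obtain ⟨m, hm, e⟩ := List.mem_iff_getElem.1 hb
      exact ⟨m, hm, by rw [List.getD_eq_getElem _ _ hm, e]⟩
    refine Horn.not_wl_of_der hu (by omega) (by rw [hl]; omega) (fun ω σ v s => key _ ?_)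
      (fun ω c v s => key _ ?_) h
    · simp only [Mach.blocks, List.mem_flatMap, List.mem_finRange, true_and, List.mem_append]
      refine ⟨ω.1, v, s, ω.2, .inl ?_⟩
      cases σ <;> simp [Mach.net]
    · simp only [Mach.blocks, List.mem_flatMap, List.mem_finRange, true_and, List.mem_append]
      exact ⟨ω.1, v, s, ω.2, .inr (by simp)⟩
  · have : Nonempty (Fin (M.rules rg (k / 2 / 2)).length) := ⟨⟨0, by simp [Mach.rules]⟩⟩
    exact Horn.wl_of_not_der (fun u hu => h ⟨u, hu⟩) le_rfl _ _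
      (by rw [hl]; exact Nat.sub_pos_of_lt (by nlinarith)) _

end Vale.Agent.P310
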