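import Vale.Agent.P310.Horn
import Vale.Agent.P310.Digits

/-!
The computation tableau of a table driven stack machine as a Horn system.
-/

namespace Vale.Agent.P310

/-- A table driven stack machine with its input. -/
structure Mach where
  /-- number of controls -/
  nc : ℕ
  /-- number of stacks -/
  nk : ℕ
  /-- number of symbols -/
  ng : ℕ
  /-- initial control -/
  c0 : ℕ
  /-- accepting control -/
  acc : ℕ
  /-- input stack -/
  kin : ℕ
  /-- stack used by a control -/
  kap : List ℕ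
  /-- operation of a control -/
  op : List ℕ
  /-- next control -/
  nxt : List (List ℕ)
  /-- input -/
  inp : List ℕ

/-- Predicates. -/
abbrev P3 : Type := ℕ × ℕ × ℕ

/-- Rules. -/
abbrev RT : Type := P3 × P3 × P3 × ℕ × ℕ

namespace Mach

variable (M : Mach)

/-- One step. -/
def step (p : ℕ × (ℕ → ℕ → ℕ)) : ℕ × (ℕ → ℕ → ℕ) :=
  ((M.nxt.getD p.1 []).getD (p.2 (M.kap.getD p.1 0) 0) 0, fun κ d =>
    if κ = M.kap.getD p.1 0 then
      (if M.op.getD p.1 0 = 0 then p.2 κ d else if M.op.getD p.1 0 = 1 then p.2 κ (d + 1)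
        else if d = 0 then M.op.getD p.1 0 - 2 else p.2 κ (d - 1))
    else p.2 κ d)

/-- The run. -/
def run : ℕ → ℕ × (ℕ → ℕ → ℕ)
  | 0 => (M.c0, fun κ d => if κ = M.kin then M.inp.getD d 0 else 0)
  | t + 1 => M.step (run t)

/-- The source of a cell. -/
def src (c κ : ℕ) : ℕ :=
  if κ = M.kap.getD c 0 then (if M.op.getD c 0 = 0 then 4 else if M.op.getD c 0 = 1 then 7 else 6)
  else 4

/-- The rules attached to a control. -/
def rulesC (rg : ℕ → List ℕ) (h c : ℕ) : List RT :=
  (rg M.ng).map (fun γ => ((3, (M.nxt.getD c []).getD γ 0, 0), (2, c, 0), (8, M.kap.getD c 0, γ), 0, 0))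
  ++ (rg h).map (fun i => ((2, c, 0), (3, c, 0), (0, 0, 0), 1, i))
  ++ [(if M.op.getD c 0 < 2 then (0, 0, 0) else (5, M.kap.getD c 0, M.op.getD c 0 - 2),
      (2, c, 0), (0, 0, 0), 4, 0)]
  ++ (rg M.nk).flatMap fun κ => (rg M.ng).map fun γ =>
      ((5, κ, γ), (2, c, 0), (M.src c κ, κ, γ), 0, 0)

/-- The rules attached to a stack. -/
def rulesK (rg : ℕ → List ℕ) (h κ : ℕ) : List RT :=
  [(if κ = M.kin then (0, 0, 0) else (4, κ, 0), (0, 0, 0), (0, 0, 0), 5, 0)]
  ++ (rg M.ng).flatMap fun γ => [((8, κ, γ), (4, κ, γ), (0, 0, 0), 4, 0)] ++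
    (rg h).flatMap fun i => [((4, κ, γ), (5, κ, γ), (0, 0, 0), 1, i),
      ((6, κ, γ), (4, κ, γ), (0, 0, 0), 2, i), ((7, κ, γ), (4, κ, γ), (0, 0, 0), 3, i),
      ((8, κ, γ), (8, κ, γ), (0, 0, 0), 2, i)]

/-- All rules. -/
def rules (rg : ℕ → List ℕ) (h : ℕ) : List RT :=
  [((1, 0, 0), (2, M.acc, 0), (0, 0, 0), 0, 0), ((2, M.c0, 0), (0, 0, 0), (0, 0, 0), 5, 0)]
  ++ (rg M.nc).flatMap (M.rulesC rg h) ++ (rg M.nk).flatMap (M.rulesK rg h)
  ++ (rg M.ng).map (fun γ => ((4, M.kin, γ), (0, 0, 0), (0, 0, 0), 6, γ))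
  ++ (rg h).map (fun i => (if i = 0 then (0, 0, 0) else (4, M.kin, 0), (0, 0, 0), (0, 0, 0), 7, i))

theorem rules_ne {rg : ℕ → List ℕ} {h : ℕ} {r : RT} (hr : r ∈ M.rules rg h) :
    r.2.1 ≠ (1, 0, 0) ∧ r.2.2.1 ≠ (1, 0, 0) := by
  simp only [rules, rulesC, rulesK, List.mem_append, List.mem_flatMap, List.mem_map,
    List.mem_cons, List.not_mem_nil, or_false] at hr
  rcases hr with ((((rfl | rfl) | ⟨c, -, ((⟨γ, -, rfl⟩ | ⟨i, -, rfl⟩) | rfl) | ⟨κ, -, γ, -, rfl⟩⟩) |
    ⟨κ, -, rfl | ⟨γ, -, rfl | ⟨i, -, rfl | rfl | rfl | rfl⟩⟩⟩) | ⟨γ, -, rfl⟩) | ⟨i, -, rfl⟩ <;>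
    simp [src]
  split_ifs <;> simp

/-- The Horn system of the tableau. -/
def horn (rg : ℕ → List ℕ) (q a h : ℕ) [NeZero q] :
    Horn P3 (Fin (M.rules rg h).length) (Fin q) a where
  top := (0, 0, 0)
  goal := (1, 0, 0)
  head := fun ρ => ((M.rules rg h).get ρ).1
  p1 := fun ρ => ((M.rules rg h).get ρ).2.1
  p2 := fun ρ => ((M.rules rg h).get ρ).2.2.1
  d := fun ρ => shV q a h ((M.rules rg h).get ρ).2.2.2.1 ((M.rules rg h).get ρ).2.2.2.2
  test := fun ρ l s =>
    tstN q h M.inp ((M.rules rg h).get ρ).2.2.2.1 ((M.rules rg h).get ρ).2.2.2.2 l s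
  top_ne := by simp
  p1_ne := fun ρ => (M.rules_ne (List.get_mem _ ρ)).1
  p2_ne := fun ρ => (M.rules_ne (List.get_mem _ ρ)).2

/-- The intended meaning of the predicates. -/
def Tr : P3 → ℕ → ℕ → Prop
  | (0, _, _), _, _ => True
  | (1, _, _), _, _ => ∃ t, (M.run t).1 = M.acc
  | (2, c, _), t, _ => (M.run t).1 = c
  | (3, c, _), t, _ => (M.run (t + 1)).1 = c
  | (4, κ, γ), t, d => (M.run t).2 κ d = γ
  | (5, κ, γ), t, d => (M.run (t + 1)).2 κ d = γ
  | (6, κ, γ), t, d => 0 < d ∧ (M.run t).2 κ (d - 1) = γ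
  | (7, κ, γ), t, d => (M.run t).2 κ (d + 1) = γ
  | (8, κ, γ), t, _ => (M.run t).2 κ 0 = γ
  | (_ + 9, _, _), _, _ => True

variable {M} {rg : ℕ → List ℕ} {q a h : ℕ} [NeZero q]

theorem sound (ha : h + h ≤ a) (hh : 1 ≤ h) (hrg : ∀ i ∈ rg h, i < h) (hin : M.inp.length ≤ q)
    {p : P3} {u : Fin a → Fin q} (H : (M.horn rg q a h).Der p u) :
    M.Tr p (tval h u) (dval h u) := by
  induction H with
  | top u => trivial
  | rule ρ u _ _ ht ih1 ih2 =>
    have hr := List.get_mem _ ρ
    simp only [horn] at ht ih1 ih2 ⊢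
    generalize (M.rules rg h).get ρ = r at *
    replace ht : Tst h M.inp r.2.2.2.1 r.2.2.2.2 u := ht
    simp only [rules, rulesC, rulesK, List.mem_append, List.mem_flatMap, List.mem_map,
      List.mem_cons, List.not_mem_nil, or_false] at hr
    rcases hr with ((((rfl | rfl) | ⟨c, -, ((⟨γ, -, rfl⟩ | ⟨i, hi, rfl⟩) | rfl) |
      ⟨κ, -, γ, -, rfl⟩⟩) | ⟨κ, -, rfl | ⟨γ, -, rfl | ⟨i, hi, rfl | rfl | rfl | rfl⟩⟩⟩) |
      ⟨γ, -, rfl⟩) | ⟨i, hi, rfl⟩ <;> dsimp only at ht ih1 ih2 ⊢
    · exact ⟨_, ih1⟩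
    · rw [(mode5 ha).1 ht]; rfl
    · rw [shV_zero _ (by simp) (by simp) (by simp), add_zero] at ih1
      simp only [Tr] at ih1 ih2 ⊢
      simp only [run, step, ih1, ih2]
    · rw [(mode1 ha (hrg i hi) ht).1]; exact ih1
    · rw [shV_zero _ (by simp) (by simp) (by simp), add_zero] at ih1
      split_ifs with h2
      · trivial
      · simp only [Tr] at ih1 ⊢
        simp only [run, step, ih1, (mode4 ha).1 ht, if_true]
        rw [if_neg (by omega), if_neg (by omega)]
    · rw [shV_zero _ (by simp) (by simp) (by simp), add_zero] at ih1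
      simp only [Tr] at ih1 ⊢
      simp only [run, step, ih1]
      unfold src at ih2
      split_ifs at ih2 ⊢ with h1 h2 h3 h4
      · exact ih2
      · exact ih2
      · exact absurd ih2.1 (by omega)
      · exact ih2.2
      · exact ih2
    · split_ifs with h1
      · trivial
      · simp only [Tr, (mode5 ha).1 ht, run, if_neg h1]
    · rw [shV_zero _ (by simp) (by simp) (by simp), add_zero, (mode4 ha).1 ht] at ih1
      exact ih1
    · rw [(mode1 ha (hrg i hi) ht).2] at ih1
      rw [(mode1 ha (hrg i hi) ht).1]; exact ih1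
    · rw [(mode2 ha (hrg i hi) ht).2] at ih1
      rw [(mode2 ha (hrg i hi) ht).1]; exact ⟨by omega, ih1⟩
    · rw [(mode3 ha (hrg i hi) ht).2, (mode3 ha (hrg i hi) ht).1] at ih1
      exact ih1
    · rw [(mode2 ha (hrg i hi) ht).2] at ih1
      exact ih1
    · have := mode6 ha hh ht
      simp only [Tr, this.1, run, if_true, this.2]
    · split_ifs with h1
      · trivial
      · have := mode7 ha (by omega) (hrg i hi) ht
        simp only [Tr, this.1, run, if_true]
        exact List.getD_eq_default _ _ (by omega)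

theorem der_rule {r : RT} (hr : r ∈ M.rules rg h) {u : Fin a → Fin q}
    (h1 : (M.horn rg q a h).Der r.2.1 (u + shV q a h r.2.2.2.1 r.2.2.2.2))
    (h2 : (M.horn rg q a h).Der r.2.2.1 u) (h3 : Tst h M.inp r.2.2.2.1 r.2.2.2.2 u) :
    (M.horn rg q a h).Der r.1 u := by
  obtain ⟨ρ, rfl⟩ := List.mem_iff_get.1 hr
  exact .rule ρ u h1 h2 h3

theorem der_rule0 {r : RT} (hr : r ∈ M.rules rg h) {u : Fin a → Fin q}
    (h0 : r.2.2.2.1 = 0 ∨ 4 ≤ r.2.2.2.1) (h1 : (M.horn rg q a h).Der r.2.1 u)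
    (h2 : (M.horn rg q a h).Der r.2.2.1 u) (h3 : Tst h M.inp r.2.2.2.1 r.2.2.2.2 u) :
    (M.horn rg q a h).Der r.1 u :=
  der_rule hr (by rwa [shV_zero _ (by omega) (by omega) (by omega), add_zero]) h2 h3

theorem memC {c : ℕ} (hc : c ∈ rg M.nc) {r : RT} (hr : r ∈ M.rulesC rg h c) :
    r ∈ M.rules rg h := by
  simp only [rules, List.mem_append, List.mem_flatMap]
  exact .inl (.inl (.inl (.inr ⟨c, hc, hr⟩)))

theorem memK {κ : ℕ} (hc : κ ∈ rg M.nk) {r : RT} (hr : r ∈ M.rulesK rg h κ) :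
    r ∈ M.rules rg h := by
  simp only [rules, List.mem_append, List.mem_flatMap]
  exact .inl (.inl (.inr ⟨κ, hc, hr⟩))

theorem complete (ha : h + h ≤ a) (hh : 1 ≤ h) (hrh : ∀ i < h, i ∈ rg h)
    (hrc : ∀ t, (M.run t).1 ∈ rg M.nc) (hrγ : ∀ t κ d, (M.run t).2 κ d ∈ rg M.ng)
    (hrk : ∀ t, M.kap.getD (M.run t).1 0 ∈ rg M.nk) (hin : M.inp.length ≤ q)
    {t : ℕ} (ht : t < q ^ h) (hacc : (M.run t).1 = M.acc) :
    ∃ u, (M.horn rg q a h).Der (1, 0, 0) u := by
  have top : ∀ u, (M.horn rg q a h).Der (0, 0, 0) u := fun u => .top u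
  have t0 : ∀ i (u : Fin a → Fin q), Tst h M.inp 0 i u := fun i u l => by simp [tstN]
  have key : ∀ t (u : Fin a → Fin q), tval h u = t → t + dval h u < q ^ h →
      (M.horn rg q a h).Der (2, (M.run t).1, 0) u ∧
      ∀ κ ∈ rg M.nk, (M.horn rg q a h).Der (4, κ, (M.run t).2 κ (dval h u)) u := by
    intro t
    induction t with
    | zero =>
      intro u hu _
      refine ⟨der_rule0 (r := ((2, M.c0, 0), (0, 0, 0), (0, 0, 0), 5, 0)) (by simp [rules])
        (by simp) (top _) (top _) ((mode5 ha).2 hu), fun κ hκ => ?_⟩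
      by_cases hk : κ = M.kin
      · subst hk
        have h0 := hrγ 0 M.kin (dval h u)
        simp only [run, if_true] at h0 ⊢
        rcases mode67_ex (inp := M.inp) hh hu with h1 | ⟨h1, i, h2, h3, h4⟩
        · exact der_rule0 (r := ((4, M.kin, _), (0, 0, 0), (0, 0, 0), 6, _))
            (by simp only [rules, List.mem_append, List.mem_map]; exact .inl (.inr ⟨_, h0, rfl⟩))
            (by simp) (top _) (top _) h1
        · rw [List.getD_eq_default _ _ (by omega)]
          exact der_rule0 (r := ((4, M.kin, 0), (0, 0, 0), (0, 0, 0), 7, i))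
            (by
              simp only [rules, List.mem_append, List.mem_map]
              exact .inr ⟨i, hrh i h3, by rw [if_neg (by omega)]⟩)
            (by simp) (top _) (top _) h4
      · simp only [run, if_neg hk]
        exact der_rule0 (r := ((4, κ, 0), (0, 0, 0), (0, 0, 0), 5, 0))
          (memK hκ (by simp [rulesK, hk])) (by simp) (top _) (top _) ((mode5 ha).2 hu)
    | succ t ih =>
      have hTop : ∀ κ ∈ rg M.nk, ∀ d (u : Fin a → Fin q), tval h u = t → dval h u = d →
          t < q ^ h → (M.horn rg q a h).Der (8, κ, (M.run t).2 κ 0) u := by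
        intro κ hκ d
        induction d with
        | zero =>
          intro u h1 h2 h3
          have := (ih u h1 (by omega)).2 κ hκ
          rw [h2] at this
          exact der_rule0 (r := ((8, κ, _), (4, κ, _), (0, 0, 0), 4, 0))
            (memK hκ (by simp [rulesK, hrγ])) (by simp) this (top _) ((mode4 ha).2 h2)
        | succ d ihd =>
          intro u h1 h2 h3
          obtain ⟨i, hi, hT⟩ := mode2_ex (inp := M.inp) (u := u) (h := h) (by omega)
          have := mode2 ha hi hT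
          exact der_rule (r := ((8, κ, _), (8, κ, _), (0, 0, 0), 2, i))
            (memK hκ (by simp [rulesK, hrγ, hrh i hi])) 
            (ihd (u + shV q a h 2 i) (by omega) (by omega) h3) (top _) hT
      intro u hu hlt
      obtain ⟨i, hi, hT⟩ := mode1_ex (inp := M.inp) (u := u) (h := h) (by omega)
      have hm := mode1 ha hi hT
      generalize hu' : u + shV q a h 1 i = u' at hm
      have h1 : tval h u' = t := by omega
      have hS := (ih u' h1 (by omega)).1
      refine ⟨der_rule (r := ((2, _, 0), (3, (M.run (t + 1)).1, 0), (0, 0, 0), 1, i))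
        (memC (hrc (t + 1)) (by simp [rulesC, hrh i hi])) ?_ (top _) hT, fun κ hκ => ?_⟩
      · dsimp only
        rw [hu']
        exact der_rule0 (r := ((3, _, 0), (2, _, 0), (8, _, _), 0, 0))
          (memC (hrc t) (by
            simp only [rulesC, List.mem_append, List.mem_map]
            exact .inl (.inl (.inl ⟨_, hrγ t _ 0, rfl⟩)))) (by simp) hS
          (hTop _ (hrk t) _ u' h1 rfl (by omega)) (t0 _ _)
      · refine der_rule
          (r := ((4, κ, _), (5, κ, (M.run (t + 1)).2 κ (dval h u)), (0, 0, 0), 1, i))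
          (memK hκ (by simp [rulesK, hrγ, hrh i hi])) ?_ (top _) hT
        dsimp only
        rw [hu', ← hm.2]
        have gen : ∀ γ ∈ rg M.ng, (M.horn rg q a h).Der (M.src (M.run t).1 κ, κ, γ) u' →
            (M.horn rg q a h).Der (5, κ, γ) u' := fun γ hγ hd =>
          der_rule0 (r := ((5, κ, γ), (2, _, 0), (M.src (M.run t).1 κ, κ, γ), 0, 0))
            (memC (hrc t) (by
              simp only [rulesC, List.mem_append, List.mem_map, List.mem_flatMap]
              exact .inr ⟨κ, hκ, γ, hγ, rfl⟩)) (by simp) hS hd (t0 _ _)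
        simp only [run, step]
        unfold src at gen
        split_ifs at gen ⊢ with a1 a2 a3 a4
        · exact gen _ (hrγ _ _ _) ((ih u' h1 (by omega)).2 κ hκ)
        · refine gen _ (hrγ _ _ _) ?_
          obtain ⟨j, hj, hT'⟩ := mode3_ex (inp := M.inp) (u := u') (h := h) (by omega)
          have hm' := mode3 ha hj hT'
          have := (ih _ (hm'.2.trans h1) (by omega)).2 κ hκ
          rw [hm'.1] at this
          exact der_rule (r := ((7, κ, _), (4, κ, _), (0, 0, 0), 3, j))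
            (memK hκ (by simp [rulesK, hrγ, hrh j hj])) this (top _) hT'
        · exact der_rule0 (r := ((5, κ, _), (2, _, 0), (0, 0, 0), 4, 0))
            (memC (hrc t) (by
              simp only [rulesC, List.mem_append, List.mem_singleton]
              exact .inl (.inr (by rw [if_neg (by omega), a1])))) (by simp) hS (top _)
            ((mode4 ha).2 a4)
        · refine gen _ (hrγ _ _ _) ?_
          obtain ⟨j, hj, hT'⟩ := mode2_ex (inp := M.inp) (u := u') (h := h) a4
          have hm' := mode2 ha hj hT'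
          have := (ih _ (hm'.2.trans h1) (by omega)).2 κ hκ
          rw [show dval h (u' + shV q a h 2 j) = dval h u' - 1 by omega] at this
          exact der_rule (r := ((6, κ, _), (4, κ, _), (0, 0, 0), 2, j))
            (memK hκ (by simp [rulesK, hrγ, hrh j hj])) this (top _) hT'
        · exact gen _ (hrγ _ _ _) ((ih u' h1 (by omega)).2 κ hκ)
  obtain ⟨u, h1, h2⟩ := exists_addr (q := q) ha t ht
  have := (key t u h1 (by omega)).1
  rw [hacc] at this
  exact ⟨u, der_rule0 (r := ((1, 0, 0), (2, M.acc, 0), (0, 0, 0), 0, 0)) (by simp [rules])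
    (by simp) this (top _) (t0 _ _)⟩

end Mach

end Vale.Agent.P310
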