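import Vale.Agent.P310.Defs

/-!
Back-and-forth characterisations of Weisfeiler-Leman equivalence.
-/

namespace Vale.Agent.P310

open Function Finset

variable {V W : Type} [Fintype V] [Fintype W] {G : SimpleGraph V} {H : SimpleGraph W} {k : ℕ}

section dup

variable {R : (Fin k → V) → (Fin k → W) → Prop}

theorem color_eq_of_rel
    (h1 : ∀ x y, R x y → ∀ i j, (x i = x j ↔ y i = y j) ∧ (G.Adj (x i) (x j) ↔ H.Adj (y i) (y j)))
    (h2 : ∀ x y, R x y → ∃ π : V ≃ W, ∀ v i, R (update x i v) (update y i (π v))) :
    ∀ r x y, R x y → color G k r x = color H k r y := by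
  intro r
  induction r with
  | zero =>
    intro x y h
    funext i j
    exact Prod.ext (propext (h1 x y h i j).1) (propext (h1 x y h i j).2)
  | succ r ih =>
    intro x y h
    obtain ⟨π, hπ⟩ := h2 x y h
    refine Prod.ext (ih x y h) ?_
    show (univ : Finset V).val.map _ = (univ : Finset W).val.map _
    rw [← Multiset.map_univ_val_equiv π, Multiset.map_map]
    refine Multiset.map_congr rfl fun v _ => ?_
    funext i
    exact ih _ _ (hπ v i)

open Classical in
theorem sum_prefix {M : Type} [AddCommMonoid M] {V : Type} [Fintype V] (f : (Fin k → V) → M)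
    (j : Fin k) (x : Fin k → V) :
    ∑ z : Fin k → V, (if ∀ i : Fin k, j.val + 1 ≤ i.val → z i = x i then f z else 0) =
      ∑ v : V, ∑ z : Fin k → V,
        (if ∀ i : Fin k, j.val ≤ i.val → z i = update x j v i then f z else 0) := by
  rw [Finset.sum_comm]
  refine Finset.sum_congr rfl fun z _ => ?_
  rw [Finset.sum_eq_single (z j)]
  · refine if_congr ⟨fun h i hi => ?_, fun h i hi => ?_⟩ rfl rfl
    · by_cases hij : i = j
      · subst hij; simp
      · rw [update_of_ne hij]
        exact h i (by have : i.val ≠ j.val := fun e => hij (Fin.ext e); omega)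
    · have hij : i ≠ j := fun e => by subst e; omega
      rw [h i (by omega), update_of_ne hij]
  · intro v _ hv
    rw [if_neg]
    intro h
    have := h j le_rfl
    simp at this
    exact hv this.symm
  · simp

open Classical in
theorem sum_eq_of_rel {M : Type} [AddCommMonoid M] {f : (Fin k → V) → M} {g : (Fin k → W) → M}
    (hfg : ∀ x y, R x y → f x = g y)
    (h2 : ∀ x y, R x y → ∃ π : V ≃ W, ∀ v i, R (update x i v) (update y i (π v))) :
    ∀ j ≤ k, ∀ x y, R x y →
      ∑ z : Fin k → V, (if ∀ i : Fin k, j ≤ i.val → z i = x i then f z else 0) =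
      ∑ z : Fin k → W, (if ∀ i : Fin k, j ≤ i.val → z i = y i then g z else 0) := by
  intro j
  induction j with
  | zero =>
    intro _ x y h
    rw [Finset.sum_eq_single x, Finset.sum_eq_single y]
    · simp [hfg x y h]
    · intro z _ hz
      rw [if_neg]
      exact fun h => hz (funext fun i => h i (Nat.zero_le _))
    · simp
    · intro z _ hz
      rw [if_neg]
      exact fun h => hz (funext fun i => h i (Nat.zero_le _))
    · simp
  | succ j ih =>
    intro hj x y h
    obtain ⟨π, hπ⟩ := h2 x y h
    rw [sum_prefix f ⟨j, hj⟩ x, sum_prefix g ⟨j, hj⟩ y, ← Equiv.sum_comp π]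
    exact Finset.sum_congr rfl fun v _ => ih (by omega) _ _ (hπ v _)

theorem wl_of_rel
    (h1 : ∀ x y, R x y → ∀ i j, (x i = x j ↔ y i = y j) ∧ (G.Adj (x i) (x j) ↔ H.Adj (y i) (y j)))
    (h2 : ∀ x y, R x y → ∃ π : V ≃ W, ∀ v i, R (update x i v) (update y i (π v)))
    (h0 : ∃ x y, R x y) : WLEquiv k G H := by
  classical
  intro r
  obtain ⟨x, y, h⟩ := h0
  have := sum_eq_of_rel (f := fun z => ({color G k r z} : Multiset _))
    (g := fun z => ({color H k r z} : Multiset _))
    (fun x y h => by rw [color_eq_of_rel h1 h2 r x y h]) h2 k le_rfl x y h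
  have e : ∀ i : Fin k, ¬ k ≤ i.val := fun i => by omega
  simp only [e, false_imp_iff, implies_true, if_true] at this
  have key : ∀ {A B : Type} (s : Finset A) (f : A → B),
      ∑ x ∈ s, ({f x} : Multiset B) = s.val.map f := by
    intro A B s f
    rw [← Multiset.sum_map_singleton (s.val.map f), Multiset.map_map]
    rfl
  rwa [key, key] at this

end dup

/-- Tuples with the same color in every round. -/
def SameColor (G : SimpleGraph V) (H : SimpleGraph W) (k : ℕ) (x : Fin k → V) (y : Fin k → W) :
    Prop := ∀ r, color G k r x = color H k r y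

theorem color_mono {r r' : ℕ} (h : r ≤ r') {x : Fin k → V} {y : Fin k → W}
    (e : color G k r' x = color H k r' y) : color G k r x = color H k r y := by
  induction h with
  | refl => exact e
  | step _ ih => exact ih (congrArg Prod.fst e)

theorem exists_forall_of_anti {A : Type} [Finite A] (P : ℕ → A → Prop)
    (hm : ∀ r r' a, r ≤ r' → P r' a → P r a) (h : ∀ r, ∃ a, P r a) : ∃ a, ∀ r, P r a := by
  by_contra hn
  push Not at hn
  choose f hf using hn
  have := Fintype.ofFinite A
  obtain ⟨a, ha⟩ := h (univ.sup f)
  exact hf a (hm _ _ _ (Finset.le_sup (mem_univ a)) ha)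

theorem WLEquiv.exists_same (h : WLEquiv k G H) (x : Fin k → V) : ∃ y, SameColor G H k x y := by
  refine exists_forall_of_anti (fun r y => color G k r x = color H k r y)
    (fun r r' y hr e => color_mono hr e) fun r => ?_
  have h1 : color G k r x ∈ (univ : Finset (Fin k → V)).val.map (color G k r) :=
    Multiset.mem_map_of_mem _ (mem_univ x)
  rw [h r] at h1
  obtain ⟨y, -, hy⟩ := Multiset.mem_map.1 h1
  exact ⟨y, hy.symm⟩

theorem SameColor.atomic {x : Fin k → V} {y : Fin k → W} (h : SameColor G H k x y) (i j : Fin k) :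
    (x i = x j ↔ y i = y j) ∧ (G.Adj (x i) (x j) ↔ H.Adj (y i) (y j)) := by
  have := congrFun (congrFun (h 0) i) j
  exact ⟨iff_of_eq (congrArg Prod.fst this), iff_of_eq (congrArg Prod.snd this)⟩

theorem SameColor.extend {x : Fin k → V} {y : Fin k → W} (h : SameColor G H k x y) (v : V) :
    ∃ w, ∀ i, SameColor G H k (update x i v) (update y i w) := by
  have := exists_forall_of_anti
    (fun r w => ∀ i, color G k r (update x i v) = color H k r (update y i w))
    (fun r r' y hr e i => color_mono hr (e i)) fun r => by
      have h0 : (univ : Finset V).val.map (fun v i => color G k r (update x i v)) =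
          (univ : Finset W).val.map (fun w i => color H k r (update y i w)) :=
        congrArg Prod.snd (h (r + 1))
      have h1 := Multiset.mem_map_of_mem (fun v i => color G k r (update x i v)) (mem_univ v)
      rw [h0] at h1
      obtain ⟨w, -, hw⟩ := Multiset.mem_map.1 h1
      exact ⟨w, fun i => (congrFun hw i).symm⟩
  obtain ⟨w, hw⟩ := this
  exact ⟨w, fun i r => hw r i⟩

open Classical in
theorem SameColor.deg {x : Fin k → V} {y : Fin k → W} (h : SameColor G H k x y) (hk : 2 ≤ k)
    (i : Fin k) : (univ.filter fun v => G.Adj (x i) v).card =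
      (univ.filter fun w => H.Adj (y i) w).card := by
  obtain ⟨j, hj⟩ : ∃ j : Fin k, i ≠ j := by
    by_cases h0 : i.val = 0
    · exact ⟨⟨1, by omega⟩, fun e => by simp [e] at h0⟩
    · exact ⟨⟨0, by omega⟩, fun e => by simp [e] at h0⟩
  have h0 : (univ : Finset V).val.map (fun v i => color G k 0 (update x i v)) =
      (univ : Finset W).val.map (fun w i => color H k 0 (update y i w)) :=
    congrArg Prod.snd (h 1)
  have h1 := congrArg (Multiset.countP fun c : Fin k → Color k 0 => (c j i j).2) h0
  rw [Multiset.countP_map, Multiset.countP_map] at h1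
  simp only [color, update_of_ne hj, update_self] at h1
  exact h1

end Vale.Agent.P310
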